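import Vale.Agent.Lib.P154.KStep

/-! Merges of independent messages, summed over a finite family. -/

namespace Vale.Agent.Lib.P154

open Tp

/-- Nonnegative weights on three colours are the unnormalized messages. -/
abbrev W3 := Fin 3 → ℝ

noncomputable def M3 (x : W3) : ℝ := x 0 + x 1 + x 2

noncomputable def cen (x : W3) : Tp := ⟨x 0 / M3 x - 1 / 3, x 1 / M3 x - 1 / 3, x 2 / M3 x - 1 / 3⟩

/-- The perspective function of `ψ`. -/
noncomputable def GG (ψ : Tp → ℝ) (x : W3) : ℝ := M3 x * ψ (cen x)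

/-- Merge of two messages. -/
noncomputable def mrg (x y : W3) : W3 := fun i => 3 * (x i * y i)

/-- Nonnegativity of a message. -/
def NN (x : W3) : Prop := ∀ i, 0 ≤ x i

/-- The merge inequality for three potentials. -/
def Merge (ψp ψ0 Y : Tp → ℝ) (la lb t : ℝ) : Prop :=
  ∀ a b, InSx la a → InSx lb b →
    avg6 (fun b' => (1 + 3 * sF a b') * ψp (wF a b')) b ≤ ψ0 a + Y b - t * (p2T a * p2T b)

lemma M3_nonneg {x : W3} (h : NN x) : 0 ≤ M3 x := by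
  have h0 := h 0
  have h1 := h 1
  have h2 := h 2
  simp only [M3]
  linarith

lemma M3_zero {x : W3} (h : NN x) (h0 : M3 x = 0) (i : Fin 3) : x i = 0 := by
  have a0 := h 0
  have a1 := h 1
  have a2 := h 2
  simp only [M3] at h0
  fin_cases i
  · simp only [Fin.zero_eta]; linarith
  · simp only [Fin.mk_one]; linarith
  · show x 2 = 0; linarith

lemma cen_zs {x : W3} (h : 0 < M3 x) : (cen x).ZS := by
  simp only [Tp.ZS, cen]
  have hne := ne_of_gt h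
  have : x 0 / M3 x + x 1 / M3 x + x 2 / M3 x = 1 := by
    rw [← add_div, ← add_div]
    exact div_self hne
  linarith

lemma cen_inSx {x : W3} (hn : NN x) (h : 0 < M3 x) : InSx 1 (cen x) := by
  refine ⟨cen_zs h, ?_, ?_, ?_⟩
  · simp only [cen]
    have := div_nonneg (hn 0) h.le
    linarith
  · simp only [cen]
    have := div_nonneg (hn 1) h.le
    linarith
  · simp only [cen]
    have := div_nonneg (hn 2) h.le
    linarith

lemma mrg_nn {x y : W3} (hx : NN x) (hy : NN y) : NN (mrg x y) := fun i => by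
  have := mul_nonneg (hx i) (hy i)
  simp only [mrg]
  linarith

lemma x_eq_cen {x : W3} (h : 0 < M3 x) :
    x 0 = M3 x * ((cen x).x + 1 / 3) ∧ x 1 = M3 x * ((cen x).y + 1 / 3) ∧
      x 2 = M3 x * ((cen x).z + 1 / 3) := by
  have hne := ne_of_gt h
  simp only [cen]
  refine ⟨?_, ?_, ?_⟩ <;> field_simp <;> ring

lemma mrg_M3 {x y : W3} (hx : 0 < M3 x) (hy : 0 < M3 y) :
    M3 (mrg x y) = M3 x * M3 y * (1 + 3 * sF (cen x) (cen y)) := by
  obtain ⟨x0, x1, x2⟩ := x_eq_cen hx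
  obtain ⟨y0, y1, y2⟩ := x_eq_cen hy
  have za := ZS_z (cen_zs hx)
  have zb := ZS_z (cen_zs hy)
  have lhs : M3 (mrg x y) = 3 * (x 0 * y 0) + 3 * (x 1 * y 1) + 3 * (x 2 * y 2) := rfl
  rw [lhs, x0, x1, x2, y0, y1, y2]
  simp only [sF]
  rw [za, zb]
  ring

lemma mrg_cen {x y : W3} (hx : 0 < M3 x) (hy : 0 < M3 y) (hN : 0 < 1 + 3 * sF (cen x) (cen y)) :
    cen (mrg x y) = wF (cen x) (cen y) := by
  have hM := mrg_M3 hx hy
  obtain ⟨x0, x1, x2⟩ := x_eq_cen hx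
  obtain ⟨y0, y1, y2⟩ := x_eq_cen hy
  have za := ZS_z (cen_zs hx)
  have zb := ZS_z (cen_zs hy)
  have hxne := ne_of_gt hx
  have hyne := ne_of_gt hy
  have hNne := ne_of_gt hN
  set N := 1 + 3 * sF (cen x) (cen y) with hNdef
  have hs : sF (cen x) (cen y) = (N - 1) / 3 := by rw [hNdef]; ring
  apply Tp.ext
  · simp only [cen.eq_1 (mrg x y), wF, cF, mrg, hM, ← hNdef]
    rw [x0, y0, hs]
    field_simp
    ring
  · simp only [cen.eq_1 (mrg x y), wF, cF, mrg, hM, ← hNdef]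
    rw [x1, y1, hs]
    field_simp
    ring
  · simp only [cen.eq_1 (mrg x y), wF, cF, mrg, hM, ← hNdef]
    rw [x2, y2, hs]
    field_simp
    ring

lemma GG_mrg {x y : W3} (ψ : Tp → ℝ) (hx : 0 < M3 x) (hy : 0 < M3 y)
    (hN : 0 < 1 + 3 * sF (cen x) (cen y)) :
    GG ψ (mrg x y) = M3 x * M3 y * ((1 + 3 * sF (cen x) (cen y)) * ψ (wF (cen x) (cen y))) := by
  simp only [GG]
  rw [mrg_cen hx hy hN, mrg_M3 hx hy]
  ring

/-! ### Rearrangements -/

def s1 : Equiv.Perm (Fin 3) :=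
  ⟨![1, 2, 0], ![2, 0, 1], by intro i; fin_cases i <;> rfl, by intro i; fin_cases i <;> rfl⟩
def s2 : Equiv.Perm (Fin 3) :=
  ⟨![2, 0, 1], ![1, 2, 0], by intro i; fin_cases i <;> rfl, by intro i; fin_cases i <;> rfl⟩
def s3 : Equiv.Perm (Fin 3) :=
  ⟨![0, 2, 1], ![0, 2, 1], by intro i; fin_cases i <;> rfl, by intro i; fin_cases i <;> rfl⟩
def s4 : Equiv.Perm (Fin 3) :=
  ⟨![1, 0, 2], ![1, 0, 2], by intro i; fin_cases i <;> rfl, by intro i; fin_cases i <;> rfl⟩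
def s5 : Equiv.Perm (Fin 3) :=
  ⟨![2, 1, 0], ![2, 1, 0], by intro i; fin_cases i <;> rfl, by intro i; fin_cases i <;> rfl⟩

lemma M3_s1 (y : W3) : M3 (y ∘ s1) = M3 y := by
  show y 1 + y 2 + y 0 = y 0 + y 1 + y 2; ring
lemma M3_s2 (y : W3) : M3 (y ∘ s2) = M3 y := by
  show y 2 + y 0 + y 1 = y 0 + y 1 + y 2; ring
lemma M3_s3 (y : W3) : M3 (y ∘ s3) = M3 y := by
  show y 0 + y 2 + y 1 = y 0 + y 1 + y 2; ring
lemma M3_s4 (y : W3) : M3 (y ∘ s4) = M3 y := by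
  show y 1 + y 0 + y 2 = y 0 + y 1 + y 2; ring
lemma M3_s5 (y : W3) : M3 (y ∘ s5) = M3 y := by
  show y 2 + y 1 + y 0 = y 0 + y 1 + y 2; ring

lemma cen_s1 (y : W3) : cen (y ∘ s1) = (cen y).r1 := by
  simp only [cen, M3_s1]; rfl
lemma cen_s2 (y : W3) : cen (y ∘ s2) = (cen y).r2 := by
  simp only [cen, M3_s2]; rfl
lemma cen_s3 (y : W3) : cen (y ∘ s3) = (cen y).r3 := by
  simp only [cen, M3_s3]; rfl
lemma cen_s4 (y : W3) : cen (y ∘ s4) = (cen y).r4 := by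
  simp only [cen, M3_s4]; rfl
lemma cen_s5 (y : W3) : cen (y ∘ s5) = (cen y).r5 := by
  simp only [cen, M3_s5]; rfl

/-- The average of the merged potential over the rearrangements of `y`. -/
noncomputable def avgF (F : W3 → ℝ) (y : W3) : ℝ :=
  (F y + F (y ∘ s1) + F (y ∘ s2) + F (y ∘ s3) + F (y ∘ s4) + F (y ∘ s5)) / 6

lemma mrg_zero_M3 {x y : W3} (hx : NN x) (hy : NN y) (h : M3 x = 0 ∨ M3 y = 0) (ψ : Tp → ℝ) :
    GG ψ (mrg x y) = 0 := by
  have : M3 (mrg x y) = 0 := by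
    simp only [M3, mrg]
    rcases h with h | h
    · simp [M3_zero hx h]
    · simp [M3_zero hy h]
  simp [GG, this]

/-- One message against one message, all rearrangements. -/
lemma merge_pt {ψp ψ0 Y : Tp → ℝ} {la lb t : ℝ} (hM : Merge ψp ψ0 Y la lb t) (hla : 0 ≤ la) (hla1 : la ≤ 1)
    (hlb0 : 0 ≤ lb) (hlb : lb < 1) {x y : W3} (hx : NN x) (hy : NN y)
    (hxd : 0 < M3 x → InSx la (cen x)) (hyd : 0 < M3 y → InSx lb (cen y)) :
    avgF (fun y' => GG ψp (mrg x y')) y ≤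
      M3 y * GG ψ0 x + M3 x * GG Y y - t * (GG p2T x * GG p2T y) := by
  have hperm : ∀ σ : Equiv.Perm (Fin 3), NN (y ∘ σ) := fun σ i => hy (σ i)
  rcases (M3_nonneg hx).eq_or_lt with h0 | hxp
  · have e : ∀ y', NN y' → GG ψp (mrg x y') = 0 := fun y' hy' =>
      mrg_zero_M3 hx hy' (Or.inl h0.symm) ψp
    have g : ∀ ψ : Tp → ℝ, GG ψ x = 0 := fun ψ => by simp [GG, ← h0]
    simp only [avgF]
    rw [e y hy, e _ (hperm s1), e _ (hperm s2), e _ (hperm s3), e _ (hperm s4), e _ (hperm s5), g ψ0, g p2T,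
      ← h0]
    simp
  rcases (M3_nonneg hy).eq_or_lt with h0 | hyp
  · have e : ∀ y', M3 y' = 0 → NN y' → GG ψp (mrg x y') = 0 := fun y' h' hy' =>
      mrg_zero_M3 hx hy' (Or.inr h') ψp
    have g : ∀ ψ : Tp → ℝ, GG ψ y = 0 := fun ψ => by simp [GG, ← h0]
    simp only [avgF]
    rw [e y h0.symm hy, e _ (by rw [M3_s1]; exact h0.symm) (hperm s1),
      e _ (by rw [M3_s2]; exact h0.symm) (hperm s2), e _ (by rw [M3_s3]; exact h0.symm) (hperm s3),
      e _ (by rw [M3_s4]; exact h0.symm) (hperm s4), e _ (by rw [M3_s5]; exact h0.symm) (hperm s5),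
      g Y, g p2T, ← h0]
    simp
  have ha := hxd hxp
  have hb := hyd hyp
  set a := cen x with ha'
  set b := cen y with hb'
  have hNpos : ∀ b', Orb b b' → 0 < 1 + 3 * sF a b' := by
    intro b' hO
    obtain ⟨r1, _⟩ := sF_range ha (hO.inSx hb) hla hlb0
    have : la * lb < 1 := by nlinarith
    linarith
  have key := hM a b ha hb
  have hGp : ∀ (σ : W3) (b' : Tp), M3 σ = M3 y → cen σ = b' → Orb b b' →
      GG ψp (mrg x σ) = M3 x * M3 y * ((1 + 3 * sF a b') * ψp (wF a b')) := by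
    intro σ b' h1 h2 hO
    have hσ : 0 < M3 σ := by rw [h1]; exact hyp
    have := GG_mrg ψp hxp hσ (by rw [h2]; exact hNpos b' hO)
    rw [this, h1, h2]
  have e0 := hGp y b rfl rfl (Or.inl rfl)
  have e1 := hGp (y ∘ s1) b.r1 (M3_s1 y) (cen_s1 y) (by simp [Orb])
  have e2 := hGp (y ∘ s2) b.r2 (M3_s2 y) (cen_s2 y) (by simp [Orb])
  have e3 := hGp (y ∘ s3) b.r3 (M3_s3 y) (cen_s3 y) (by simp [Orb])
  have e4 := hGp (y ∘ s4) b.r4 (M3_s4 y) (cen_s4 y) (by simp [Orb])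
  have e5 := hGp (y ∘ s5) b.r5 (M3_s5 y) (cen_s5 y) (by simp [Orb])
  simp only [avgF]
  rw [e0, e1, e2, e3, e4, e5]
  have hAB : 0 ≤ M3 x * M3 y := by positivity
  have key2 := mul_le_mul_of_nonneg_left key hAB
  simp only [avg6] at key2
  simp only [GG]
  rw [← ha', ← hb']
  nlinarith [key2]

/-- A family of messages indexed by a finite type. -/
structure Fam {Ω : Type} [Fintype Ω] (y : Ω → W3) : Prop where
  nn : ∀ ξ, NN (y ξ)
  sym : ∀ (σ : Equiv.Perm (Fin 3)) (F : W3 → ℝ), ∑ ξ, F (y ξ ∘ σ) = ∑ ξ, F (y ξ)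
  mass : ∑ ξ, M3 (y ξ) = 1

lemma Fam.avg {Ω : Type} [Fintype Ω] {y : Ω → W3} (h : Fam y) (F : W3 → ℝ) :
    ∑ ξ, F (y ξ) = ∑ ξ, avgF F (y ξ) := by
  simp only [avgF]
  rw [← Finset.sum_div, Finset.sum_add_distrib, Finset.sum_add_distrib, Finset.sum_add_distrib,
    Finset.sum_add_distrib, Finset.sum_add_distrib, h.sym s1 F, h.sym s2 F, h.sym s3 F, h.sym s4 F,
    h.sym s5 F]
  ring

/-- The merge inequality for finite families. -/
theorem merge_fam {A Ω : Type} [Fintype A] [Fintype Ω] {x : A → W3} {y : Ω → W3} (hy : Fam y)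
    (hx : ∀ η, NN (x η)) {ψp ψ0 Y : Tp → ℝ} {la lb t : ℝ} (hM : Merge ψp ψ0 Y la lb t)
    (hla : 0 ≤ la) (hla1 : la ≤ 1) (hlb0 : 0 ≤ lb) (hlb : lb < 1)
    (hxd : ∀ η, 0 < M3 (x η) → InSx la (cen (x η))) (hyd : ∀ ξ, 0 < M3 (y ξ) → InSx lb (cen (y ξ))) :
    ∑ η, ∑ ξ, GG ψp (mrg (x η) (y ξ)) ≤
      ∑ η, GG ψ0 (x η) + (∑ η, M3 (x η)) * ∑ ξ, GG Y (y ξ) -
        t * ((∑ η, GG p2T (x η)) * ∑ ξ, GG p2T (y ξ)) := by
  have h1 : ∀ η, ∑ ξ, GG ψp (mrg (x η) (y ξ)) ≤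
      GG ψ0 (x η) + M3 (x η) * ∑ ξ, GG Y (y ξ) - t * (GG p2T (x η) * ∑ ξ, GG p2T (y ξ)) := by
    intro η
    rw [hy.avg (fun y' => GG ψp (mrg (x η) y'))]
    calc ∑ ξ, avgF (fun y' => GG ψp (mrg (x η) y')) (y ξ)
        ≤ ∑ ξ, (M3 (y ξ) * GG ψ0 (x η) + M3 (x η) * GG Y (y ξ) -
            t * (GG p2T (x η) * GG p2T (y ξ))) :=
          Finset.sum_le_sum (fun ξ _ => merge_pt hM hla hla1 hlb0 hlb (hx η) (hy.nn ξ) (hxd η) (hyd ξ))
      _ = GG ψ0 (x η) + M3 (x η) * ∑ ξ, GG Y (y ξ) - t * (GG p2T (x η) * ∑ ξ, GG p2T (y ξ)) := by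
          rw [Finset.sum_sub_distrib, Finset.sum_add_distrib, ← Finset.sum_mul, hy.mass, one_mul,
            ← Finset.mul_sum, ← Finset.mul_sum, ← Finset.mul_sum]
  calc ∑ η, ∑ ξ, GG ψp (mrg (x η) (y ξ))
      ≤ ∑ η, (GG ψ0 (x η) + M3 (x η) * ∑ ξ, GG Y (y ξ) - t * (GG p2T (x η) * ∑ ξ, GG p2T (y ξ))) :=
        Finset.sum_le_sum (fun η _ => h1 η)
    _ = _ := by
        rw [Finset.sum_sub_distrib, Finset.sum_add_distrib, ← Finset.sum_mul, ← Finset.mul_sum,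
          ← Finset.sum_mul]

/-! ### Many children -/

section many

variable {Ω : Type} [Fintype Ω]

set_option linter.unusedSectionVars false

/-- The message of `k + 1` independent children. -/
noncomputable def xk (y : Ω → W3) (k : ℕ) (ξ : Fin (k + 1) → Ω) : W3 :=
  fun i => 3 ^ k * ∏ c, y (ξ c) i

lemma xk_succ (y : Ω → W3) (k : ℕ) (ω : Ω) (ξ : Fin (k + 1) → Ω) :
    xk y (k + 1) (Fin.cons ω ξ) = mrg (xk y k ξ) (y ω) := by
  funext i
  simp only [xk, mrg, Fin.prod_univ_succ, Fin.cons_zero, Fin.cons_succ]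
  ring

lemma sum_cons {k : ℕ} (f : (Fin (k + 2) → Ω) → ℝ) :
    ∑ ξ, f ξ = ∑ ξ' : Fin (k + 1) → Ω, ∑ ω, f (Fin.cons ω ξ') := by
  rw [← Equiv.sum_comp (Fin.consEquiv (fun _ : Fin (k + 2) => Ω)), Fintype.sum_prod_type,
    Finset.sum_comm]
  rfl

lemma xk_nn {y : Ω → W3} (hy : ∀ ξ, NN (y ξ)) (k : ℕ) (ξ : Fin (k + 1) → Ω) : NN (xk y k ξ) := by
  intro i
  simp only [xk]
  exact mul_nonneg (by positivity) (Finset.prod_nonneg (fun c _ => hy _ i))

/-- The potential summed over the messages of `k + 1` children. -/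
noncomputable def VV (y : Ω → W3) (ψ : Tp → ℝ) (k : ℕ) : ℝ := ∑ ξ, GG ψ (xk y k ξ)

lemma sum_fin_one (f : (Fin 1 → Ω) → ℝ) : ∑ ξ, f ξ = ∑ ω : Ω, f (fun _ => ω) := by
  rw [← Equiv.sum_comp (Equiv.funUnique (Fin 1) Ω).symm]
  rfl

lemma xk_zero (y : Ω → W3) (ω : Ω) : xk y 0 (fun _ => ω) = y ω := by
  funext i
  simp [xk]

lemma VV_zero (y : Ω → W3) (ψ : Tp → ℝ) : VV y ψ 0 = ∑ ω, GG ψ (y ω) := by
  simp only [VV]
  rw [sum_fin_one]
  simp only [xk_zero]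

lemma VV_succ (y : Ω → W3) (ψ : Tp → ℝ) (k : ℕ) :
    VV y ψ (k + 1) = ∑ ξ' : Fin (k + 1) → Ω, ∑ ω, GG ψ (mrg (xk y k ξ') (y ω)) := by
  simp only [VV]
  rw [sum_cons]
  simp only [xk_succ]

lemma Fam.coord {y : Ω → W3} (h : Fam y) (i : Fin 3) : ∑ ξ, y ξ i = 1 / 3 := by
  have h1 := h.sym s1 (fun v => v 0)
  have h2 := h.sym s2 (fun v => v 0)
  have e1 : ∑ ξ, y ξ 1 = ∑ ξ, y ξ 0 := h1
  have e2 : ∑ ξ, y ξ 2 = ∑ ξ, y ξ 0 := h2
  have hm := h.mass
  simp only [M3] at hm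
  rw [Finset.sum_add_distrib, Finset.sum_add_distrib, e1, e2] at hm
  fin_cases i
  · show ∑ ξ, y ξ 0 = 1 / 3; linarith
  · show ∑ ξ, y ξ 1 = 1 / 3; linarith
  · show ∑ ξ, y ξ 2 = 1 / 3; linarith

lemma mass_xk {y : Ω → W3} (h : Fam y) : ∀ k : ℕ, ∑ ξ, M3 (xk y k ξ) = 1 := by
  intro k
  induction k with
  | zero =>
    rw [sum_fin_one]
    simp only [xk_zero]
    exact h.mass
  | succ k ih =>
    rw [sum_cons]
    simp only [xk_succ]
    rw [← ih]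
    apply Finset.sum_congr rfl
    intro ξ' _
    simp only [M3, mrg]
    rw [Finset.sum_add_distrib, Finset.sum_add_distrib, ← Finset.mul_sum, ← Finset.mul_sum,
      ← Finset.mul_sum, ← Finset.mul_sum, ← Finset.mul_sum, ← Finset.mul_sum, h.coord, h.coord,
      h.coord]
    ring

/-- The chain of merge inequalities along the children of a vertex. -/
theorem chain_total {y : Ω → W3} (hy : Fam y) {pot : ℕ → Tp → ℝ} {lb t : ℝ} (hlb0 : 0 ≤ lb) (hlb : lb < 1)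
    (hyd : ∀ ξ, 0 < M3 (y ξ) → InSx lb (cen (y ξ)))
    (h0 : Merge (pot 1) (pot 0) (pot 0) lb lb t)
    {K : ℕ} (hj : ∀ j, 1 ≤ j → j ≤ K → Merge (pot (j + 1)) (pot j) (pot 0) 1 lb 0) :
    ∀ k : ℕ, k ≤ K → VV y (pot (k + 1)) (k + 1) ≤
      ((k : ℝ) + 2) * ∑ ω, GG (pot 0) (y ω) - t * (∑ ω, GG p2T (y ω)) ^ 2 := by
  intro k
  induction k with
  | zero =>
    intro _
    rw [VV_succ]
    have hxd : ∀ η : Fin 1 → Ω, 0 < M3 (xk y 0 η) → InSx lb (cen (xk y 0 η)) := by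
      intro η h
      have e : η = fun _ => η 0 := by
        funext c
        rw [Subsingleton.elim c 0]
      rw [e, xk_zero] at h ⊢
      exact hyd _ h
    have := merge_fam hy (xk_nn hy.nn 0) h0 hlb0 hlb.le hlb0 hlb hxd hyd
    rw [mass_xk hy 0, one_mul] at this
    have e0 := VV_zero y (pot 0)
    have e1 := VV_zero y p2T
    simp only [VV] at e0 e1
    rw [e0, e1] at this
    push_cast
    nlinarith [this]
  | succ k ih =>
    intro hk
    have ih := ih (by omega)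
    rw [VV_succ]
    have hxd : ∀ η : Fin (k + 1 + 1) → Ω, 0 < M3 (xk y (k + 1) η) → InSx 1 (cen (xk y (k + 1) η)) :=
      fun η h => cen_inSx (xk_nn hy.nn _ η) h
    have := merge_fam hy (xk_nn hy.nn (k + 1)) (hj (k + 1) (by omega) hk) (by norm_num) le_rfl hlb0 hlb
      hxd hyd
    rw [mass_xk hy (k + 1), one_mul] at this
    have e : ∑ η, GG (pot (k + 1)) (xk y (k + 1) η) = VV y (pot (k + 1)) (k + 1) := rfl
    rw [e] at this
    push_cast
    nlinarith [this, ih]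

end many

end Vale.Agent.Lib.P154
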