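/-
Exact positivity checker for polynomials given by digit tensors packed in one big natural.
Nothing here imports Mathlib, so that certificate files stay light.
-/

namespace Vale.Agent.Lib.P154

/-- Subdivision tree: split along an axis, a certified leaf, or a box missing the domain. -/
inductive Tr where
  | nd : Nat → Tr → Tr → Tr
  | lf : Tr
  | ot : Tr

/-- Number of digits of a layout (list of degrees, outermost axis first). -/
def sz : List Nat → Nat
  | [] => 1
  | n :: ns => (n + 1) * sz ns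

/-- `M` repeated in `n + 1` consecutive slices of `b` bits. -/
def rep (b M : Nat) : Nat → Nat
  | 0 => M
  | n + 1 => M + 2 ^ b * rep b M n

/-- Masks of the right-child passes on a head axis (slices of `b` bits). -/
def rmasks (b : Nat) : Nat → Nat → List (Nat × Nat)
  | _, 0 => []
  | a, k + 1 =>
    ((2 ^ (b * (k + 1)) - 1) * 2 ^ (b * (a + 1)), (2 ^ (b * (k + 1)) - 1) * 2 ^ (b * a)) ::
      rmasks b (a + 1) k

/-- Masks of the left-child passes on a head axis. -/
def lmasks (b : Nat) : Nat → Nat → List (Nat × Nat)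
  | _, 0 => []
  | i, k + 1 => (2 ^ (b * i) - 1, (2 ^ (b * i) - 1) * 2 ^ b) :: lmasks b (i + 1) k

/-- Data of one axis of a layout. -/
structure Ax where
  sh : Nat
  rp : List (Nat × Nat)
  lp : List (Nat × Nat)
  top : Nat

def liftPair (b n : Nat) (m : Nat × Nat) : Nat × Nat := (rep b m.1 n, rep b m.2 n)

def axisOf (W : Nat) : List Nat → Nat → Ax
  | [], _ => ⟨0, [], [], 0⟩
  | n :: ns, 0 =>
    ⟨W * sz ns, rmasks (W * sz ns) 0 n, lmasks (W * sz ns) 1 n,
      (2 ^ (W * sz ns) - 1) * 2 ^ (W * sz ns * n)⟩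
  | n :: ns, j + 1 =>
    ⟨(axisOf W ns j).sh, (axisOf W ns j).rp.map (liftPair (W * sz ns) n),
      (axisOf W ns j).lp.map (liftPair (W * sz ns) n), rep (W * sz ns) (axisOf W ns j).top n⟩

/-- The value `v` in all digits of a layout. -/
def allDig (W v : Nat) : List Nat → Nat
  | [] => v
  | n :: ns => rep (W * sz ns) (allDig W v ns) n

def passR (sh : Nat) (m : Nat × Nat) (T : Nat) : Nat :=
  T + (T &&& m.1) + ((T >>> sh) &&& m.2)

def passL (sh : Nat) (m : Nat × Nat) (T : Nat) : Nat :=
  T + (T &&& m.1) + ((T <<< sh) &&& m.2)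

def passT (sh : Nat) (m : Nat × Nat) (T : Nat) : Nat :=
  T + ((T <<< sh) &&& m.2)

def runR (sh : Nat) : List (Nat × Nat) → Nat → Nat
  | [], T => T
  | m :: ms, T => passR sh m (runR sh ms T)

def runL (sh : Nat) : List (Nat × Nat) → Nat → Nat
  | [], T => T
  | m :: ms, T => runL sh ms (passL sh m T)

def runT (sh : Nat) : List (Nat × Nat) → Nat → Nat
  | [], T => T
  | m :: ms, T => runT sh ms (passT sh m T)

/-- Per layout data used by the checker. -/
structure Ctx where
  H1 : Nat
  HR : Nat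
  HS : Nat
  HT : Nat
  axes : List Ax

def axesFrom (W : Nat) (ns : List Nat) : Nat → Nat → List Ax
  | _, 0 => []
  | j, k + 1 => axisOf W ns j :: axesFrom W ns (j + 1) k

/-- Bits reserved for the scalar multiples in the polynomial assembly. -/
def smulBits : Nat := 64

def mkCtx (W room roomT : Nat) (ns : List Nat) : Ctx :=
  ⟨allDig W (2 ^ (W - 1)) ns,
   allDig W ((2 ^ room - 1) * 2 ^ (W - room)) ns,
   allDig W ((2 ^ smulBits - 1) * 2 ^ (W - smulBits)) ns,
   allDig W ((2 ^ roomT - 1) * 2 ^ (W - roomT)) ns,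
   axesFrom W ns 0 ns.length⟩

def Ctx.ax (C : Ctx) (j : Nat) : Ax := C.axes.getD j ⟨0, [], [], 0⟩

def leafOK (C : Ctx) (a b : Nat) : Bool := Nat.beq ((a + C.H1 - b) &&& C.H1) C.H1

def roomOK (C : Ctx) (a : Nat) : Bool := Nat.beq (a &&& C.HR) 0

def leftT (C : Ctx) (j T : Nat) : Nat := runL (C.ax j).sh (C.ax j).lp T

def rightT (C : Ctx) (j T : Nat) : Nat := runR (C.ax j).sh (C.ax j).rp T

def taylorT (C : Ctx) (j T : Nat) : Nat := runT (C.ax j).sh (C.ax j).lp T

abbrev Bx := List (Nat × Nat)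

def bxL : Bx → Nat → Bx
  | [], _ => []
  | p :: ps, 0 => (2 * p.1, p.2 + 1) :: ps
  | p :: ps, j + 1 => p :: bxL ps j

def bxR : Bx → Nat → Bx
  | [], _ => []
  | p :: ps, 0 => (2 * p.1 + 1, p.2 + 1) :: ps
  | p :: ps, j + 1 => p :: bxR ps j

/-- The subdivision check. -/
def chk (C : Ctx) (out : Bx → Bool) : Tr → Nat → Nat → Bx → Bool
  | .lf, a, b, _ => leafOK C a b
  | .ot, _, _, box => out box
  | .nd j l r, a, b, box =>
    Nat.blt j C.axes.length && (roomOK C a && (roomOK C b &&
      (chk C out l (leftT C j a) (leftT C j b) (bxL box j) &&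
        chk C out r (rightT C j a) (rightT C j b) (bxR box j))))

/-! ### Assembly of the polynomial -/

abbrev PP := Nat × Nat

def pNeg : Option PP → Option PP
  | some x => some (x.2, x.1)
  | none => none

def pSgn (s : Bool) (a : Option PP) : Option PP := if s then a else pNeg a

def pAdd (C : Ctx) : Option PP → Option PP → Option PP
  | some x, some y =>
    if Nat.beq (((x.1 + y.1) ||| (x.2 + y.2)) &&& C.H1) 0 then
      some (x.1 + y.1, x.2 + y.2)
    else none
  | _, _ => none

def pSmulN (C : Ctx) (k : Nat) : Option PP → Option PP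
  | some x =>
    if Nat.blt k (2 ^ (smulBits - 1)) && Nat.beq ((x.1 ||| x.2) &&& C.HS) 0 then
      some (k * x.1, k * x.2)
    else none
  | none => none

def pSmul (C : Ctx) : Int → Option PP → Option PP
  | .ofNat k, a => pSmulN C k a
  | .negSucc k, a => pNeg (pSmulN C (k + 1) a)

def pShift (C : Ctx) (j : Nat) : Option PP → Option PP
  | some x =>
    if Nat.beq ((x.1 ||| x.2) &&& (C.ax j).top) 0 then
      some (x.1 <<< (C.ax j).sh, x.2 <<< (C.ax j).sh)
    else none
  | none => none

def pConst (k : Int) : Option PP :=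
  match k with
  | .ofNat k => some (k, 0)
  | .negSucc k => some (0, k + 1)

/-- Module elements over the polynomial ring, in the basis `1, s, u, v, m, l`. -/
structure V6 where
  c1 : Option PP
  cs : Option PP
  cu : Option PP
  cv : Option PP
  cm : Option PP
  cl : Option PP

def mP (C : Ctx) (a : Option PP) : Option PP := pShift C 0 a
def mR (C : Ctx) (a : Option PP) : Option PP := pShift C 2 a
def mPp (C : Ctx) (sw : Bool) (a : Option PP) : Option PP := pSgn sw (pShift C 1 (pShift C 0 a))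
def mRp (C : Ctx) (sx : Bool) (a : Option PP) : Option PP := pSgn sx (pShift C 3 (pShift C 2 a))

/-- Multiplication by `s` in the module. -/
def mulS (C : Ctx) (sw sx : Bool) (E : V6) : V6 :=
  { c1 := pAdd C (pSmul C 2 (mP C (mR C E.cs)))
            (pAdd C (pSmul C 36 (mPp C sw (mR C E.cu)))
              (pAdd C (pSmul C 36 (mP C (mRp C sx E.cv)))
                (pSmul C 54 (mPp C sw (mRp C sx E.cm)))))
    cs := pAdd C E.c1 (pAdd C (mP C (mR C E.cm)) (pSmul C 54 (mPp C sw (mRp C sx E.cl))))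
    cu := pAdd C (mR C E.cv) (pSmul C (-3) (mP C (mRp C sx E.cl)))
    cv := pAdd C (mP C E.cu) (pSmul C (-3) (mPp C sw (mR C E.cl)))
    cm := pAdd C E.cs (pSmul C 2 (mP C (mR C E.cl)))
    cl := E.cm }

def zeroP : Option PP := some (0, 0)

/-- The element `1` of the module. -/
def eOne : V6 := ⟨pConst 1, zeroP, zeroP, zeroP, zeroP, zeroP⟩

/-- `x0 = 2 P + 2 R + 6 P R`. -/
def x0P (C : Ctx) : Option PP :=
  pAdd C (pSmul C 2 (mP C (pConst 1)))
    (pAdd C (pSmul C 2 (mR C (pConst 1))) (pSmul C 6 (mP C (mR C (pConst 1)))))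

/-- The element `X` of the module. -/
def eX (C : Ctx) : V6 := ⟨x0P C, pConst 2, pConst 1, pConst 1, zeroP, zeroP⟩

/-- Product of `a` and `2 P + 2 R + 6 P R`. -/
def mulX0 (C : Ctx) (a : Option PP) : Option PP :=
  pAdd C (pSmul C 2 (mP C a)) (pAdd C (pSmul C 2 (mR C a)) (pSmul C 6 (mP C (mR C a))))

/-- The element `X ^ 2` of the module. -/
def eXX (C : Ctx) (sw sx : Bool) : V6 :=
  let one := pConst 1
  ⟨pAdd C (mulX0 C (x0P C))
     (pAdd C (pSmul C 8 (mP C (mR C one)))
       (pAdd C (pSmul C 24 (mP C (mP C (mR C one))))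
         (pAdd C (pSmul C 24 (mP C (mR C (mR C one))))
           (pAdd C (pSmul C 144 (mPp C sw (mR C one)))
             (pAdd C (pSmul C 144 (mP C (mRp C sx one)))
               (pSmul C 1296 (mPp C sw (mRp C sx one)))))))),
   pAdd C (pSmul C 4 (x0P C)) (pSmul C 24 (mP C (mR C one))),
   pAdd C (pSmul C 2 (x0P C)) (pAdd C (pSmul C 36 (mRp C sx one)) (pSmul C 4 (mR C one))),
   pAdd C (pSmul C 2 (x0P C)) (pAdd C (pSmul C 36 (mPp C sw one)) (pSmul C 4 (mP C one))),
   pAdd C (pConst 4) (pAdd C (pSmul C (-12) (mP C one)) (pSmul C (-12) (mR C one))),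
   pConst (-24)⟩

/-- The sum of `q j` times the first coordinate of `s ^ j * E`. -/
def qsum (C : Ctx) (sw sx : Bool) : List Int → V6 → Option PP
  | [], _ => zeroP
  | q :: qs, E => pAdd C (pSmul C q E.c1) (qsum C sw sx qs (mulS C sw sx E))

/-- Multiplication by `D = (1 - 9 P + 54 P') * (1 - 9 R + 54 R')`. -/
def mulD (C : Ctx) (sw sx : Bool) (a : Option PP) : Option PP :=
  let b := pAdd C a (pAdd C (pSmul C (-9) (mR C a)) (pSmul C 54 (mRp C sx a)))
  pAdd C b (pAdd C (pSmul C (-9) (mP C b)) (pSmul C 54 (mPp C sw b)))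

/-- Numerators of the coefficients `α, β, δ` of a potential. -/
structure Pot where
  a : Int
  b : Int
  c : Int

/-- Data of one merge inequality. -/
structure KCfg where
  W : Nat
  room : Nat
  roomT : Nat
  ns : List Nat
  den : Nat
  pp : Pot
  p0 : Pot
  pY : Pot
  tn : Nat
  E : Nat
  q1 : List Int
  q2 : List Int
  q3 : List Int
  q4 : List Int
  q5 : List Int
  lamA : Nat × Nat
  lamB : Nat × Nat

def KCfg.ctx (K : KCfg) : Ctx := mkCtx K.W K.room K.roomT K.ns

/-- `den * ψ` in the variables `P, w`. -/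
def potA (C : Ctx) (sw : Bool) (den : Nat) (p : Pot) : Option PP :=
  let one := pConst 1
  let PP2 := mP C (mP C one)
  pAdd C (pSmul C (2 * (den : Int)) (mP C one))
    (pAdd C (pSmul C (4 * p.a) PP2)
      (pAdd C (pSmul C (12 * p.b) (mPp C sw (mP C one)))
        (pSmul C (36 * p.c) (mPp C sw (mPp C sw one)))))

/-- `den * ψ` in the variables `R, x`. -/
def potB (C : Ctx) (sx : Bool) (den : Nat) (p : Pot) : Option PP :=
  let one := pConst 1
  let RR2 := mR C (mR C one)
  pAdd C (pSmul C (2 * (den : Int)) (mR C one))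
    (pAdd C (pSmul C (4 * p.a) RR2)
      (pAdd C (pSmul C (12 * p.b) (mRp C sx (mR C one)))
        (pSmul C (36 * p.c) (mRp C sx (mRp C sx one)))))

/-- The scaled polynomial whose nonnegativity gives the merge inequality. -/
def rootPP (K : KCfg) (sw sx : Bool) : Option PP :=
  let C := K.ctx
  let one := pConst 1
  let d := (K.den : Int)
  let c1 : Int := 36 * (9 * d - K.pp.b - K.pp.c)
  let c2 : Int := 81 * (4 * K.pp.a + 2 * K.pp.b + K.pp.c)
  let c4 : Int := 36 * (K.pp.b + K.pp.c)
  let c5 : Int := 4 * K.pp.c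
  let big : Int := 324 * (K.E : Int)
  let S1 := qsum C sw sx K.q1 (eX C)
  let S2 := qsum C sw sx K.q2 eOne
  let S3 := qsum C sw sx K.q3 (eXX C sw sx)
  let S4 := qsum C sw sx K.q4 (eX C)
  let S5 := qsum C sw sx K.q5 eOne
  let rhs := pAdd C (potA C sw K.den K.p0)
    (pAdd C (potB C sx K.den K.pY) (pSmul C (-(4 * (K.tn : Int))) (mP C (mR C one))))
  let lhs := pAdd C (pSmul C c1 S1)
    (pAdd C (pSmul C c2 S3)
      (pAdd C (pSmul C c4 (mulD C sw sx S4))
        (pAdd C (pSmul C c5 (mulD C sw sx (mulD C sw sx S5)))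
          (pAdd C (pSmul C (-2 * c5) (mulD C sw sx S2))
            (pConst (c5 * (K.E : Int)))))))
  pAdd C (pSmul C big rhs) (pNeg lhs)

/-- Out of domain test for one pair `(P, w)`, with the rational scale `p / q`. -/
def outPair (l : Nat × Nat) (sg : Bool) (bP bw : Nat × Nat) : Bool :=
  let p := l.1
  let q := l.2
  let lP := bP.1
  let eP := bP.2
  let lw := bw.1
  let ew := bw.2
  (Nat.blt ((lP + 1) * 2 ^ (2 * ew)) (27 * lw * lw * 2 ^ eP)) ||
  (Nat.blt (p * p * 2 ^ eP) (3 * q * q * lP)) ||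
  (if sg then
      (Nat.blt (6 * (lw + 1) * q) (2 ^ ew * p)) &&
        Nat.blt (p * p * p * 2 ^ eP * 2 ^ ew) (9 * q * q * lP * (2 ^ ew * p - 6 * (lw + 1) * q))
    else
      Nat.blt (p * p * p * 2 ^ eP * 2 ^ ew) (9 * q * q * lP * (2 ^ ew * p + 6 * lw * q)))

def outK (K : KCfg) (sw sx : Bool) : Bx → Bool
  | [bP, bw, bR, bx] => outPair K.lamA sw bP bw || outPair K.lamB sx bR bx
  | _ => false

def taylorAll (C : Ctx) (a : Nat) : Nat :=
  taylorT C 0 (taylorT C 1 (taylorT C 2 (taylorT C 3 a)))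

/-- Side conditions on the data of a merge inequality. -/
def wfK (K : KCfg) : Bool :=
  match K.ns with
  | [n0, n1, n2, n3] =>
    Nat.ble 64 K.W && Nat.ble K.room K.W && Nat.ble K.roomT K.W &&
      Nat.ble (2 * n0 + 1) K.room && Nat.ble (2 * n1 + 1) K.room &&
      Nat.ble (2 * n2 + 1) K.room && Nat.ble (2 * n3 + 1) K.room &&
      Nat.ble (2 * (n0 + (n1 + (n2 + n3))) + 1) K.roomT &&
      Nat.blt (Int.natAbs (4 * K.pp.c * (K.E : Int))) (2 ^ (K.W - 1)) &&
      Nat.blt 0 K.den && Nat.blt 0 K.E &&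
      Nat.blt 0 K.lamA.1 && Nat.blt 0 K.lamA.2 && Nat.ble K.lamA.1 K.lamA.2 &&
      Nat.blt 0 K.lamB.1 && Nat.blt 0 K.lamB.2 && Nat.blt K.lamB.1 K.lamB.2
  | _ => false

/-- A path from the root of the subdivision: an axis and a side at each step. -/
abbrev Path := List (Nat × Bool)

/-- The box reached by a path. -/
def pathBox : Path → Bx → Bx
  | [], box => box
  | (j, false) :: p, box => pathBox p (bxL box j)
  | (j, true) :: p, box => pathBox p (bxR box j)

/-- The subdivision check of a subtree at the end of a path. -/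
def pathChk (C : Ctx) (out : Bx → Bool) : Path → Tr → Nat → Nat → Bx → Bool
  | [], t, a, b, box => chk C out t a b box
  | (j, false) :: p, t, a, b, box =>
    Nat.blt j C.axes.length && (roomOK C a && (roomOK C b &&
      pathChk C out p t (leftT C j a) (leftT C j b) (bxL box j)))
  | (j, true) :: p, t, a, b, box =>
    Nat.blt j C.axes.length && (roomOK C a && (roomOK C b &&
      pathChk C out p t (rightT C j a) (rightT C j b) (bxR box j)))

/-- The root box of a merge inequality. -/
def root4 : Bx := [(0, 0), (0, 0), (0, 0), (0, 0)]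

/-- The polynomial of a quadrant, given as two numbers, is the one assembled from the data. -/
def rootCheck (K : KCfg) (sw sx : Bool) (A B : Nat) : Bool :=
  match rootPP K sw sx with
  | some x => Nat.beq x.1 A && (Nat.beq x.2 B && Nat.beq ((x.1 ||| x.2) &&& K.ctx.HT) 0)
  | none => false

/-- The check of one piece of one sign quadrant of the merge inequality. -/
def subCheck (K : KCfg) (sw sx : Bool) (A B : Nat) (p : Path) (t : Tr) : Bool :=
  pathChk K.ctx (outK K sw sx) p t (taylorAll K.ctx A) (taylorAll K.ctx B) root4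

/-- All pieces of a list are checked. -/
def AllSub (K : KCfg) (sw sx : Bool) (A B : Nat) : List (Path × Tr) → Prop
  | [] => True
  | e :: es => subCheck K sw sx A B e.1 e.2 = true ∧ AllSub K sw sx A B es

theorem allSub_nil {K : KCfg} {sw sx : Bool} {A B : Nat} : AllSub K sw sx A B [] := True.intro

theorem allSub_cons {K : KCfg} {sw sx : Bool} {A B : Nat} {p : Path} {t : Tr} {es : List (Path × Tr)}
    (h : subCheck K sw sx A B p t = true) (hs : AllSub K sw sx A B es) :
    AllSub K sw sx A B ((p, t) :: es) :=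
  ⟨h, hs⟩

/-- Every point of a box lies in one of the listed boxes, by the splits of a tree. -/
def covers (L : List Bx) : Tr → Bx → Bool
  | .nd j l r, box => covers L l (bxL box j) && covers L r (bxR box j)
  | _, box => L.contains box

/-- The check of one sign quadrant of the merge inequality, in pieces. -/
def QuadChecked (K : KCfg) (sw sx : Bool) : Prop :=
  ∃ (A B : Nat) (L : List (Path × Tr)) (T : Tr), rootCheck K sw sx A B = true ∧
    covers (L.map (fun e => pathBox e.1 root4)) T root4 = true ∧ AllSub K sw sx A B L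

theorem quadChecked_intro {K : KCfg} {sw sx : Bool} {A B : Nat} {L : List (Path × Tr)} {T : Tr}
    (h0 : rootCheck K sw sx A B = true)
    (h1 : covers (L.map (fun e => pathBox e.1 root4)) T root4 = true) (h2 : AllSub K sw sx A B L) :
    QuadChecked K sw sx := ⟨A, B, L, T, h0, h1, h2⟩

/-! ### One variable bounds -/

/-- `c + (1 + 3 s) * l(s)` as a coefficient list. -/
def mulN3 : Int → List Int → List Int
  | c, [] => [c]
  | c, x :: xs => (x + c) :: mulN3 (3 * x) xs

def powN3 : Nat → List Int → List Int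
  | 0, l => l
  | k + 1, l => mulN3 0 (powN3 k l)

/-- Remove the four lowest coefficients of `l`, which must be `E, 0, 0, 0`. -/
def drop4 (E : Int) : List Int → Option (List Int)
  | a :: b :: c :: d :: g =>
    if a == E && b == 0 && c == 0 && d == 0 then some g else none
  | _ => none

/-- Substitute `-s` for `s`. -/
def flipOdd : Bool → List Int → List Int
  | _, [] => []
  | b, x :: xs => (if b then -x else x) :: flipOdd (!b) xs

def encI (W : Nat) : List Nat → Nat
  | [] => 0
  | c :: cs => c + 2 ^ W * encI W cs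

def outS (lim : Nat × Nat) : Bx → Bool
  | [b] => Nat.blt (lim.1 * 2 ^ b.2) (b.1 * lim.2)
  | _ => true

/-- Check that the polynomial with coefficients `g` is nonnegative for `0 ≤ s ≤ lim`. -/
def chk1 (W : Nat) (g : List Int) (lim : Nat × Nat) (t : Tr) : Bool :=
  match g.length with
  | 0 => true
  | n + 1 =>
    let C := mkCtx W (2 * n + 1) (2 * n + 1) [n]
    let lp := g.map Int.toNat
    let lm := g.map (fun x => Int.toNat (-x))
    let a := encI W lp
    let b := encI W lm
    Nat.ble (2 * n + 1) W && Nat.blt 0 lim.2 &&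
    (lp.all (fun x => Nat.blt x (2 ^ (W - (2 * n + 1)))) &&
      lm.all (fun x => Nat.blt x (2 ^ (W - (2 * n + 1))))) &&
      chk C (outS lim) t (taylorT C 0 a) (taylorT C 0 b) [(0, 0)]

/-- Check `sgn * (q(s) * (1 + 3 s)^k - E) ≥ 0` for `-limM ≤ s ≤ limP`. -/
def qCheck (W k E : Nat) (sgn : Bool) (q : List Int) (limP limM : Nat × Nat) (tP tM : Tr) : Bool :=
  match drop4 (E : Int) (powN3 k q) with
  | some g =>
    let g' := if sgn then g else g.map (fun x => -x)
    chk1 W g' limP tP && chk1 W (flipOdd false g') limM tM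
  | none => false

/-- Trees of the five one variable bounds. -/
structure QTrees where
  t1 : Tr × Tr
  t2 : Tr × Tr
  t3 : Tr × Tr
  t4 : Tr × Tr
  t5 : Tr × Tr

def KCfg.limP (K : KCfg) : Nat × Nat :=
  (2 * K.lamA.1 * K.lamB.1, 3 * K.lamA.2 * K.lamB.2)

def KCfg.limM (K : KCfg) : Nat × Nat :=
  (K.lamA.1 * K.lamB.1, 3 * K.lamA.2 * K.lamB.2)

/-- All one variable bounds of a merge inequality. -/
def allQ (K : KCfg) (W : Nat) (T : QTrees) : Bool :=
  let d := (K.den : Int)
  let c1 : Int := 36 * (9 * d - K.pp.b - K.pp.c)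
  let c2 : Int := 81 * (4 * K.pp.a + 2 * K.pp.b + K.pp.c)
  let c4 : Int := 36 * (K.pp.b + K.pp.c)
  let c5 : Int := 4 * K.pp.c
  qCheck W 1 K.E (decide (0 ≤ c1)) K.q1 K.limP K.limM T.t1.1 T.t1.2 &&
  qCheck W 3 K.E (decide (0 ≤ c2)) K.q3 K.limP K.limM T.t3.1 T.t3.2 &&
  qCheck W 4 K.E (decide (0 ≤ c4)) K.q4 K.limP K.limM T.t4.1 T.t4.2 &&
  qCheck W 5 K.E (decide (0 ≤ c5)) K.q5 K.limP K.limM T.t5.1 T.t5.2 &&
  qCheck W 2 K.E (decide (c5 ≤ 0)) K.q2 K.limP K.limM T.t2.1 T.t2.2

end Vale.Agent.Lib.P154
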