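import Mathlib

/-!
Broadcasting on the rooted `d`-ary tree. A vertex at depth `n` is a word `Fin n → Fin d`, the first
letter being the child of the root, and a spin configuration on depth `n` is a map from words to colours.
-/

namespace Vale.Agent.Lib.P154

/-- The Potts channel `P(j | i) = lam * 1_{i = j} + (1 - lam) / q` on `q` colours. -/
noncomputable def potts (q : ℕ) (lam : ℝ) (i j : Fin q) : ℝ :=
  lam * (if i = j then 1 else 0) + (1 - lam) / q

/-- `leafLaw q d lam n i ξ` is the probability that the spins at depth `n` of the `d`-ary tree equal `ξ`,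
given that the root has spin `i`. -/
noncomputable def leafLaw (q d : ℕ) (lam : ℝ) :
    (n : ℕ) → Fin q → ((Fin n → Fin d) → Fin q) → ℝ
  | 0, i, ξ => if ξ Fin.elim0 = i then 1 else 0
  | n + 1, i, ξ =>
    ∏ c : Fin d, ∑ k : Fin q, potts q lam i k * leafLaw q d lam n k (fun w => ξ (Fin.cons c w))

/-- The probability of the depth `n` configuration `ξ`, for a uniform root spin. -/
noncomputable def leafMarginal (q d : ℕ) (lam : ℝ) (n : ℕ) (ξ : (Fin n → Fin d) → Fin q) : ℝ :=
  ∑ i : Fin q, (1 / (q : ℝ)) * leafLaw q d lam n i ξ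

/-- The conditional probability of root spin `i` given the depth `n` configuration `ξ`. -/
noncomputable def rootPosterior (q d : ℕ) (lam : ℝ) (n : ℕ) (ξ : (Fin n → Fin d) → Fin q) (i : Fin q) : ℝ :=
  (1 / (q : ℝ)) * leafLaw q d lam n i ξ / leafMarginal q d lam n ξ

/-- The quantity `a_n`: expected total variation distance between the law of the root spin given
the depth `n` spins and the uniform law on colours. -/
noncomputable def reconDist (q d : ℕ) (lam : ℝ) (n : ℕ) : ℝ :=
  ∑ ξ : (Fin n → Fin d) → Fin q,
    leafMarginal q d lam n ξ * ((1 / 2) * ∑ i : Fin q, |rootPosterior q d lam n ξ i - 1 / (q : ℝ)|)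

end Vale.Agent.Lib.P154
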