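import Vale.Agent.Lib.P154.SemOne

/-! Algebra of the merge of two messages on three colours. -/

namespace Vale.Agent.Lib.P154

/-- A triple of reals. -/
@[ext] structure Tp where
  x : ℝ
  y : ℝ
  z : ℝ

namespace Tp

/-- The five nontrivial rearrangements. -/
def r1 (b : Tp) : Tp := ⟨b.y, b.z, b.x⟩
def r2 (b : Tp) : Tp := ⟨b.z, b.x, b.y⟩
def r3 (b : Tp) : Tp := ⟨b.x, b.z, b.y⟩
def r4 (b : Tp) : Tp := ⟨b.y, b.x, b.z⟩
def r5 (b : Tp) : Tp := ⟨b.z, b.y, b.x⟩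

/-- Half the second power sum. -/
noncomputable def hP (a : Tp) : ℝ := (a.x ^ 2 + a.y ^ 2 + a.z ^ 2) / 2
/-- A sixth of the third power sum. -/
noncomputable def hQ (a : Tp) : ℝ := (a.x ^ 3 + a.y ^ 3 + a.z ^ 3) / 6

end Tp

open Tp

/-- Average over the six rearrangements. -/
noncomputable def avg6 (F : Tp → ℝ) (b : Tp) : ℝ :=
  (F b + F b.r1 + F b.r2 + F b.r3 + F b.r4 + F b.r5) / 6

noncomputable def sF (a b : Tp) : ℝ := a.x * b.x + a.y * b.y + a.z * b.z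
noncomputable def uF (a b : Tp) : ℝ := 6 * (a.x ^ 2 * b.x + a.y ^ 2 * b.y + a.z ^ 2 * b.z)
noncomputable def vF (a b : Tp) : ℝ := 6 * (a.x * b.x ^ 2 + a.y * b.y ^ 2 + a.z * b.z ^ 2)
noncomputable def mF (a b : Tp) : ℝ :=
  3 * ((a.x ^ 2 - (2 * hP a) / 3) * (b.x ^ 2 - (2 * hP b) / 3) +
    (a.y ^ 2 - (2 * hP a) / 3) * (b.y ^ 2 - (2 * hP b) / 3) +
    (a.z ^ 2 - (2 * hP a) / 3) * (b.z ^ 2 - (2 * hP b) / 3))
noncomputable def lF (a b : Tp) : ℝ :=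
  (a.x - a.y) * (a.y - a.z) * (a.z - a.x) * ((b.x - b.y) * (b.y - b.z) * (b.z - b.x)) / 2

/-- Value of a module vector at a pair of triples. -/
noncomputable def ev (e : V6R) (a b : Tp) : ℝ :=
  e.c1 + e.cs * sF a b + e.cu * uF a b + e.cv * vF a b + e.cm * mF a b + e.cl * lF a b

/-- Zero sum triples. -/
def Tp.ZS (a : Tp) : Prop := a.x + a.y + a.z = 0

lemma ZS_z {a : Tp} (h : a.ZS) : a.z = - a.x - a.y := by
  unfold Tp.ZS at h; linarith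

lemma hP_r1 (b : Tp) : hP b.r1 = hP b := by simp only [hP, r1]; ring
lemma hP_r2 (b : Tp) : hP b.r2 = hP b := by simp only [hP, r2]; ring
lemma hP_r3 (b : Tp) : hP b.r3 = hP b := by simp only [hP, r3]; ring
lemma hP_r4 (b : Tp) : hP b.r4 = hP b := by simp only [hP, r4]; ring
lemma hP_r5 (b : Tp) : hP b.r5 = hP b := by simp only [hP, r5]; ring
lemma hQ_r1 (b : Tp) : hQ b.r1 = hQ b := by simp only [hQ, r1]; ring
lemma hQ_r2 (b : Tp) : hQ b.r2 = hQ b := by simp only [hQ, r2]; ring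
lemma hQ_r3 (b : Tp) : hQ b.r3 = hQ b := by simp only [hQ, r3]; ring
lemma hQ_r4 (b : Tp) : hQ b.r4 = hQ b := by simp only [hQ, r4]; ring
lemma hQ_r5 (b : Tp) : hQ b.r5 = hQ b := by simp only [hQ, r5]; ring
lemma ZS_r1 {b : Tp} (h : b.ZS) : b.r1.ZS := by simp only [Tp.ZS, r1] at *; linarith
lemma ZS_r2 {b : Tp} (h : b.ZS) : b.r2.ZS := by simp only [Tp.ZS, r2] at *; linarith
lemma ZS_r3 {b : Tp} (h : b.ZS) : b.r3.ZS := by simp only [Tp.ZS, r3] at *; linarith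
lemma ZS_r4 {b : Tp} (h : b.ZS) : b.r4.ZS := by simp only [Tp.ZS, r4] at *; linarith
lemma ZS_r5 {b : Tp} (h : b.ZS) : b.r5.ZS := by simp only [Tp.ZS, r5] at *; linarith

/-- The multiplication table of `s`. -/
lemma ev_mulS {a b : Tp} (ha : a.ZS) (hb : b.ZS) (e : V6R) :
    ev (mulSR (hP a) (hQ a) (hP b) (hQ b) e) a b = sF a b * ev e a b := by
  obtain ⟨a0, a1, a2⟩ := a
  obtain ⟨b0, b1, b2⟩ := b
  have h1 := ZS_z ha
  have h2 := ZS_z hb
  simp only at h1 h2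
  subst h1 h2
  obtain ⟨c1, cs, cu, cv, cm, cl⟩ := e
  simp only [ev, mulSR, sF, uF, vF, mF, lF, hP, hQ]
  ring

lemma avg_ev (a b : Tp) (ha : a.ZS) (hb : b.ZS) (e : V6R) :
    avg6 (fun b' => ev e a b') b = e.c1 := by
  obtain ⟨a0, a1, a2⟩ := a
  obtain ⟨b0, b1, b2⟩ := b
  have h1 := ZS_z ha
  have h2 := ZS_z hb
  simp only at h1 h2
  subst h1 h2
  obtain ⟨c1, cs, cu, cv, cm, cl⟩ := e
  simp only [avg6, ev, sF, uF, vF, mF, lF, hP, r1, r2, r3, r4, r5]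
  ring

/-- Averages of `q(s) * ev e` are computed by `qsumR`. -/
lemma avg_qsum {a b : Tp} (ha : a.ZS) (hb : b.ZS) : ∀ (q : List ℤ) (e : V6R),
    avg6 (fun b' => evalL q (sF a b') * ev e a b') b =
      qsumR (hP a) (hQ a) (hP b) (hQ b) q e := by
  intro q
  induction q with
  | nil =>
    intro e
    simp [avg6, qsumR]
  | cons c cs ih =>
    intro e
    have h0 := avg_ev a b ha hb e
    have h1 := ih (mulSR (hP a) (hQ a) (hP b) (hQ b) e)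
    simp only [qsumR]
    rw [← h0, ← h1]
    simp only [avg6, evalL_cons]
    rw [ev_mulS ha hb]
    have r1' := ev_mulS (e := e) ha (ZS_r1 hb)
    have r2' := ev_mulS (e := e) ha (ZS_r2 hb)
    have r3' := ev_mulS (e := e) ha (ZS_r3 hb)
    have r4' := ev_mulS (e := e) ha (ZS_r4 hb)
    have r5' := ev_mulS (e := e) ha (ZS_r5 hb)
    rw [hP_r1, hQ_r1] at r1'
    rw [hP_r2, hQ_r2] at r2'
    rw [hP_r3, hQ_r3] at r3'
    rw [hP_r4, hQ_r4] at r4'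
    rw [hP_r5, hQ_r5] at r5'
    rw [r1', r2', r3', r4', r5']
    ring

/-- The unnormalized merged coordinates. -/
noncomputable def cF (a b : Tp) : Tp :=
  ⟨a.x + b.x + 3 * (a.x * b.x) - sF a b, a.y + b.y + 3 * (a.y * b.y) - sF a b,
    a.z + b.z + 3 * (a.z * b.z) - sF a b⟩

/-- `X = Σ c_i ^ 2`. -/
noncomputable def XF (a b : Tp) : ℝ := (cF a b).x ^ 2 + (cF a b).y ^ 2 + (cF a b).z ^ 2

lemma XF_eq {a b : Tp} (ha : a.ZS) (hb : b.ZS) :
    XF a b = ev (eXR (hP a) (hP b)) a b := by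
  obtain ⟨a0, a1, a2⟩ := a
  obtain ⟨b0, b1, b2⟩ := b
  have h1 := ZS_z ha
  have h2 := ZS_z hb
  simp only at h1 h2
  subst h1 h2
  simp only [XF, cF, ev, eXR, x0R, sF, uF, vF, mF, lF, hP]
  ring

lemma XF_sq_eq {a b : Tp} (ha : a.ZS) (hb : b.ZS) :
    XF a b ^ 2 = ev (eXXR (hP a) (hQ a) (hP b) (hQ b)) a b := by
  obtain ⟨a0, a1, a2⟩ := a
  obtain ⟨b0, b1, b2⟩ := b
  have h1 := ZS_z ha
  have h2 := ZS_z hb
  simp only at h1 h2
  subst h1 h2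
  simp only [XF, cF, ev, eXXR, x0R, sF, uF, vF, mF, lF, hP, hQ]
  ring

lemma ev_one (a b : Tp) : ev eOneR a b = 1 := by
  simp [ev, eOneR]

/-- The cubic coordinate of the merged message. -/
lemma D_eq {a b : Tp} (ha : a.ZS) (hb : b.ZS) :
    (1 + 3 * sF a b) ^ 3 - 9 / 2 * ((1 + 3 * sF a b) * XF a b) +
      9 * ((cF a b).x ^ 3 + (cF a b).y ^ 3 + (cF a b).z ^ 3) =
    DR (hP a) (hQ a) (hP b) (hQ b) := by
  obtain ⟨a0, a1, a2⟩ := a
  obtain ⟨b0, b1, b2⟩ := b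
  have h1 := ZS_z ha
  have h2 := ZS_z hb
  simp only at h1 h2
  subst h1 h2
  simp only [XF, cF, DR, sF, hP, hQ]
  ring

end Vale.Agent.Lib.P154
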