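import Vale.Agent.Lib.P154.KAlg

/-! The merge inequality from its certificate. -/

namespace Vale.Agent.Lib.P154

open Tp

/-- The potential `p2 + α p2 ^ 2 + β p2 p3 + δ p3 ^ 2` with coefficients over `den`. -/
noncomputable def psiT (den : ℕ) (p : Pot) (c : Tp) : ℝ :=
  (c.x ^ 2 + c.y ^ 2 + c.z ^ 2) +
    (p.a : ℝ) / den * (c.x ^ 2 + c.y ^ 2 + c.z ^ 2) ^ 2 +
    (p.b : ℝ) / den * ((c.x ^ 2 + c.y ^ 2 + c.z ^ 2) * (c.x ^ 3 + c.y ^ 3 + c.z ^ 3)) +
    (p.c : ℝ) / den * (c.x ^ 3 + c.y ^ 3 + c.z ^ 3) ^ 2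

/-- The second power sum of a triple. -/
noncomputable def p2T (c : Tp) : ℝ := c.x ^ 2 + c.y ^ 2 + c.z ^ 2

/-- The merged message, centred. -/
noncomputable def wF (a b : Tp) : Tp :=
  ⟨(cF a b).x / (1 + 3 * sF a b), (cF a b).y / (1 + 3 * sF a b), (cF a b).z / (1 + 3 * sF a b)⟩

lemma den_psi {den : ℕ} (h : 0 < den) (p : Pot) (c : Tp) :
    (den : ℝ) * psiT den p c = potR den p (hP c) (hQ c) := by
  have hd : (den : ℝ) ≠ 0 := by positivity
  simp only [psiT, potR, hP, hQ]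
  field_simp
  ring

/-- The rational scale of a pair of naturals. -/
noncomputable def lamR (l : ℕ × ℕ) : ℝ := (l.1 : ℝ) / l.2

/-- The triple lies in the scaled simplex. -/
structure InSx (lam : ℝ) (a : Tp) : Prop where
  zs : a.ZS
  hx : -lam / 3 ≤ a.x
  hy : -lam / 3 ≤ a.y
  hz : -lam / 3 ≤ a.z

lemma InSx.prod {lam : ℝ} {a : Tp} (h : InSx lam a) :
    lam ^ 3 - 9 * lam * hP a + 54 * hQ a =
      27 * ((a.x + lam / 3) * (a.y + lam / 3) * (a.z + lam / 3)) := by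
  obtain ⟨a0, a1, a2⟩ := a
  have h1 := ZS_z h.zs
  simp only at h1
  subst h1
  simp only [hP, hQ]
  ring

lemma InSx.prod_nonneg {lam : ℝ} {a : Tp} (h : InSx lam a) :
    0 ≤ lam ^ 3 - 9 * lam * hP a + 54 * hQ a := by
  rw [h.prod]
  have h1 : 0 ≤ a.x + lam / 3 := by linarith [h.hx]
  have h2 : 0 ≤ a.y + lam / 3 := by linarith [h.hy]
  have h3 : 0 ≤ a.z + lam / 3 := by linarith [h.hz]
  positivity

lemma InSx.hP_le {lam : ℝ} {a : Tp} (h : InSx lam a) : 3 * hP a ≤ lam ^ 2 := by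
  obtain ⟨a0, a1, a2⟩ := a
  have h1 := ZS_z h.zs
  simp only at h1
  have hx : 0 ≤ a0 + lam / 3 := by linarith [h.hx]
  have hy : 0 ≤ a1 + lam / 3 := by linarith [h.hy]
  have hz : 0 ≤ a2 + lam / 3 := by linarith [h.hz]
  have e1 : 3 * hP ⟨a0, a1, a2⟩ = 3 * ((a0 ^ 2 + a1 ^ 2 + a2 ^ 2) / 2) := rfl
  have e2 : lam ^ 2 - 3 * hP ⟨a0, a1, a2⟩ =
      3 * ((a0 + lam / 3) * (a1 + lam / 3) + (a1 + lam / 3) * (a2 + lam / 3) +
        (a2 + lam / 3) * (a0 + lam / 3)) := by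
    rw [e1]
    subst h1
    ring
  have : 0 ≤ 3 * ((a0 + lam / 3) * (a1 + lam / 3) + (a1 + lam / 3) * (a2 + lam / 3) +
        (a2 + lam / 3) * (a0 + lam / 3)) := by positivity
  linarith

lemma hP_nonneg (a : Tp) : 0 ≤ hP a := by
  simp only [hP]; positivity

lemma disc_le {a : Tp} (ha : a.ZS) : 27 * (hQ a * hQ a) ≤ hP a * (hP a * hP a) := by
  obtain ⟨a0, a1, a2⟩ := a
  have h1 := ZS_z ha
  simp only at h1
  subst h1
  have e : hP ⟨a0, a1, -a0 - a1⟩ * (hP ⟨a0, a1, -a0 - a1⟩ * hP ⟨a0, a1, -a0 - a1⟩) -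
      27 * (hQ ⟨a0, a1, -a0 - a1⟩ * hQ ⟨a0, a1, -a0 - a1⟩) =
      (1 / 4) * ((a0 - a1) * (a1 - (-a0 - a1)) * ((-a0 - a1) - a0)) ^ 2 := by
    simp only [hP, hQ]
    ring
  have : 0 ≤ (1 / 4 : ℝ) * ((a0 - a1) * (a1 - (-a0 - a1)) * ((-a0 - a1) - a0)) ^ 2 := by positivity
  linarith

lemma hP_zero {a : Tp} (ha : hP a = 0) : hQ a = 0 := by
  obtain ⟨a0, a1, a2⟩ := a
  simp only [hP] at ha
  have h0 : a0 = 0 := by nlinarith [sq_nonneg a0, sq_nonneg a1, sq_nonneg a2]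
  have h1 : a1 = 0 := by nlinarith [sq_nonneg a0, sq_nonneg a1, sq_nonneg a2]
  have h2 : a2 = 0 := by nlinarith [sq_nonneg a0, sq_nonneg a1, sq_nonneg a2]
  subst h0 h1 h2
  simp [hQ]

/-- The chart of a triple of the scaled simplex. -/
lemma chart {l : ℕ × ℕ} (h1 : 0 < l.1) (h2 : 0 < l.2) (h3 : l.1 ≤ l.2) {a : Tp}
    (ha : InSx (lamR l) a) :
    ∃ (sg : Bool) (t : ℝ), (0 ≤ t ∧ t ≤ 1) ∧ (0 ≤ hP a ∧ hP a ≤ 1) ∧ DomP l sg (hP a) t ∧
      sgnR sg * (t * hP a) = hQ a := by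
  have hp : (0 : ℝ) < l.1 := by exact_mod_cast h1
  have hq : (0 : ℝ) < l.2 := by exact_mod_cast h2
  have hl : (l.1 : ℝ) ≤ l.2 := by exact_mod_cast h3
  have hlam0 : 0 < lamR l := by unfold lamR; positivity
  have hlam1 : lamR l ≤ 1 := by
    unfold lamR
    rw [div_le_one hq]
    exact hl
  have hP0 := hP_nonneg a
  have hP1 := ha.hP_le
  have hPle : hP a ≤ 1 / 3 := by nlinarith
  have h2' : 3 * ((l.2 : ℝ) * l.2) * hP a ≤ (l.1 : ℝ) * l.1 := by
    have e : (l.1 : ℝ) * l.1 = lamR l ^ 2 * ((l.2 : ℝ) * l.2) := by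
      unfold lamR
      field_simp
    rw [e]
    nlinarith [mul_pos hq hq]
  have h3' : ∀ z : ℝ, z = hQ a →
      0 ≤ (l.1 : ℝ) * l.1 * l.1 - 9 * l.1 * (l.2 * l.2) * hP a + 54 * ((l.2 : ℝ) * l.2 * l.2) * z := by
    intro z hz
    subst hz
    have e : (l.1 : ℝ) * l.1 * l.1 - 9 * l.1 * (l.2 * l.2) * hP a +
        54 * ((l.2 : ℝ) * l.2 * l.2) * hQ a =
        ((l.2 : ℝ) * l.2 * l.2) * (lamR l ^ 3 - 9 * lamR l * hP a + 54 * hQ a) := by
      unfold lamR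
      field_simp
    rw [e]
    exact mul_nonneg (by positivity) ha.prod_nonneg
  rcases eq_or_lt_of_le hP0 with h0 | h0
  · refine ⟨true, 0, by norm_num, ⟨hP0, by linarith⟩, ⟨by rw [← h0]; norm_num, h2', ?_⟩, ?_⟩
    · have := h3' 0 (hP_zero h0.symm).symm
      simpa using this
    · rw [hP_zero h0.symm, ← h0]; simp
  · set t : ℝ := |hQ a| / hP a with ht
    have ht0 : 0 ≤ t := by positivity
    have hdisc := disc_le ha.zs
    have ht2 : 27 * (t * t) ≤ hP a := by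
      have e : t * t = (hQ a * hQ a) / (hP a * hP a) := by
        rw [ht, div_mul_div_comm, abs_mul_abs_self]
      rw [e, ← mul_div_assoc, div_le_iff₀ (by positivity)]
      exact hdisc
    have ht1 : t ≤ 1 := by nlinarith
    have hsgn : ∀ sg : Bool, (sg = true ↔ 0 ≤ hQ a) → sgnR sg * (t * hP a) = hQ a := by
      intro sg hs
      have e : t * hP a = |hQ a| := by
        rw [ht]; field_simp
      rw [e]
      cases sg with
      | true =>
        have := hs.mp rfl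
        simp [sgnR, abs_of_nonneg this]
      | false =>
        have : ¬ 0 ≤ hQ a := fun h' => by simpa using hs.mpr h'
        simp [sgnR, abs_of_neg (not_le.mp this)]
    refine ⟨decide (0 ≤ hQ a), t, ⟨ht0, ht1⟩, ⟨hP0, by linarith⟩, ⟨ht2, h2', ?_⟩, hsgn _ (by simp)⟩
    have e : hP a * (sgnR (decide (0 ≤ hQ a)) * t) = hQ a := by
      have := hsgn (decide (0 ≤ hQ a)) (by simp)
      calc hP a * (sgnR (decide (0 ≤ hQ a)) * t) = sgnR (decide (0 ≤ hQ a)) * (t * hP a) := by ring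
        _ = hQ a := this
    simp only [e]
    exact h3' _ rfl

lemma InSx.mono {lam lam' : ℝ} {a : Tp} (h : InSx lam a) (hl : lam ≤ lam') : InSx lam' a :=
  ⟨h.zs, by linarith [h.hx], by linarith [h.hy], by linarith [h.hz]⟩

lemma sF_range {la lb : ℝ} {a b : Tp} (ha : InSx la a) (hb : InSx lb b) (_hla : 0 ≤ la) (_hlb : 0 ≤ lb) :
    -(la * lb) / 3 ≤ sF a b ∧ sF a b ≤ 2 * (la * lb) / 3 := by
  obtain ⟨a0, a1, a2⟩ := a
  obtain ⟨b0, b1, b2⟩ := b
  have h1 := ZS_z ha.zs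
  have h2 := ZS_z hb.zs
  have ax : 0 ≤ a0 + la / 3 := by linarith [ha.hx]
  have ay : 0 ≤ a1 + la / 3 := by linarith [ha.hy]
  have az : 0 ≤ a2 + la / 3 := by linarith [ha.hz]
  have bx : 0 ≤ b0 + lb / 3 := by linarith [hb.hx]
  have by' : 0 ≤ b1 + lb / 3 := by linarith [hb.hy]
  have bz : 0 ≤ b2 + lb / 3 := by linarith [hb.hz]
  simp only at h1 h2
  have e : sF ⟨a0, a1, a2⟩ ⟨b0, b1, b2⟩ + la * lb / 3 =
      (a0 + la / 3) * (b0 + lb / 3) + (a1 + la / 3) * (b1 + lb / 3) + (a2 + la / 3) * (b2 + lb / 3) := by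
    simp only [sF]
    subst h1 h2
    ring
  have e2 : la * lb - (sF ⟨a0, a1, a2⟩ ⟨b0, b1, b2⟩ + la * lb / 3) =
      (a0 + la / 3) * (b1 + lb / 3) + (a0 + la / 3) * (b2 + lb / 3) +
      (a1 + la / 3) * (b0 + lb / 3) + (a1 + la / 3) * (b2 + lb / 3) +
      (a2 + la / 3) * (b0 + lb / 3) + (a2 + la / 3) * (b1 + lb / 3) := by
    simp only [sF]
    subst h1 h2
    ring
  have p1 : 0 ≤ (a0 + la / 3) * (b0 + lb / 3) + (a1 + la / 3) * (b1 + lb / 3) +
      (a2 + la / 3) * (b2 + lb / 3) := by positivity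
  have p2 : 0 ≤ (a0 + la / 3) * (b1 + lb / 3) + (a0 + la / 3) * (b2 + lb / 3) +
      (a1 + la / 3) * (b0 + lb / 3) + (a1 + la / 3) * (b2 + lb / 3) +
      (a2 + la / 3) * (b0 + lb / 3) + (a2 + la / 3) * (b1 + lb / 3) := by positivity
  constructor <;> linarith

/-- The pointwise bound for one rearrangement. -/
lemma point_bound (K : KCfg) (hd : 0 < K.den) {a b : Tp} (ha : a.ZS) (hb : b.ZS)
    (hN : 0 < 1 + 3 * sF a b) (hQB : QB K (sF a b))
    (hD : 0 ≤ DR (hP a) (hQ a) (hP b) (hQ b)) :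
    324 * (K.den : ℝ) * K.E * ((1 + 3 * sF a b) * psiT K.den K.pp (wF a b)) ≤
      K.c1 * (evalL K.q1 (sF a b) * XF a b) + K.c2 * (evalL K.q3 (sF a b) * XF a b ^ 2) +
      K.c4 * (DR (hP a) (hQ a) (hP b) (hQ b) * (evalL K.q4 (sF a b) * XF a b)) +
      K.c5 * (DR (hP a) (hQ a) (hP b) (hQ b) * (DR (hP a) (hQ a) (hP b) (hQ b) * evalL K.q5 (sF a b)) -
        2 * (DR (hP a) (hQ a) (hP b) (hQ b) * evalL K.q2 (sF a b)) + K.E * (1 + 3 * sF a b)) := by
  set s := sF a b with hs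
  set N := 1 + 3 * s with hNdef
  set X := XF a b with hX
  set D := DR (hP a) (hQ a) (hP b) (hQ b) with hDdef
  have hdR : (K.den : ℝ) ≠ 0 := by positivity
  have hX0 : 0 ≤ X := by
    rw [hX]; unfold XF; positivity
  have hNne : N ≠ 0 := ne_of_gt hN
  -- the two power sums of the merged message
  set n := 1 / N with hn
  have hn0 : 0 < n := by positivity
  have hNn : N * n = 1 := by rw [hn]; field_simp
  have hp2 : (wF a b).x ^ 2 + (wF a b).y ^ 2 + (wF a b).z ^ 2 = X * n ^ 2 := by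
    simp only [wF, hX, XF, ← hs, ← hNdef, hn]
    field_simp
  have hD' := D_eq ha hb
  rw [← hs, ← hNdef, ← hX, ← hDdef] at hD'
  have hp3 : (wF a b).x ^ 3 + (wF a b).y ^ 3 + (wF a b).z ^ 3 =
      (D - N ^ 3 + 9 / 2 * (N * X)) / 9 * n ^ 3 := by
    have e : (wF a b).x ^ 3 + (wF a b).y ^ 3 + (wF a b).z ^ 3 =
        ((cF a b).x ^ 3 + (cF a b).y ^ 3 + (cF a b).z ^ 3) * n ^ 3 := by
      simp only [wF, ← hs, ← hNdef, hn]
      field_simp
    rw [e, ← hD']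
    ring
  -- the exact expression of the potential
  have hpsi : 324 * (K.den : ℝ) * (N * psiT K.den K.pp (wF a b)) =
      K.c1 * (X * n) + K.c2 * (X ^ 2 * n ^ 3) + K.c4 * (X * D * n ^ 4) +
        K.c5 * (N - 2 * D * n ^ 2 + D ^ 2 * n ^ 5) := by
    simp only [psiT]
    rw [hp2, hp3, hn]
    simp only [KCfg.c1, KCfg.c2, KCfg.c4, KCfg.c5]
    push_cast
    field_simp
    ring
  -- bounds from the one variable checks
  have hn1 : ∀ k : ℕ, N ^ k * n ^ k = 1 := by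
    intro k
    rw [← mul_pow, hNn, one_pow]
  have bd : ∀ (c Q : ℝ) (k : ℕ), c * K.E ≤ c * (Q * N ^ k) → c * K.E * n ^ k ≤ c * Q := by
    intro c Q k h
    have h2 := mul_le_mul_of_nonneg_right h (pow_nonneg hn0.le k)
    have e : c * (Q * N ^ k) * n ^ k = c * Q := by
      have := hn1 k
      calc c * (Q * N ^ k) * n ^ k = c * Q * (N ^ k * n ^ k) := by ring
        _ = c * Q := by rw [this, mul_one]
    rwa [e] at h2
  have b1 := bd _ _ 1 hQB.b1
  have b2 := bd _ _ 2 hQB.b2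
  have b3 := bd _ _ 3 hQB.b3
  have b4 := bd _ _ 4 hQB.b4
  have b5 := bd _ _ 5 hQB.b5
  have t1 := mul_le_mul_of_nonneg_left b1 hX0
  have t3 := mul_le_mul_of_nonneg_left b3 (pow_nonneg hX0 2)
  have t4 := mul_le_mul_of_nonneg_left b4 (mul_nonneg hX0 hD)
  have t5 := mul_le_mul_of_nonneg_left b5 (pow_nonneg hD 2)
  have t2 := mul_le_mul_of_nonneg_left b2 (mul_nonneg (by norm_num : (0 : ℝ) ≤ 2) hD)
  have e : 324 * (K.den : ℝ) * K.E * (N * psiT K.den K.pp (wF a b)) =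
      K.E * (324 * (K.den : ℝ) * (N * psiT K.den K.pp (wF a b))) := by ring
  rw [e, hpsi]
  have e1 : (K.E : ℝ) * (K.c1 * (X * n) + K.c2 * (X ^ 2 * n ^ 3) + K.c4 * (X * D * n ^ 4) +
        K.c5 * (N - 2 * D * n ^ 2 + D ^ 2 * n ^ 5)) =
      X * (K.c1 * K.E * n ^ 1) + X ^ 2 * (K.c2 * K.E * n ^ 3) + (X * D) * (K.c4 * K.E * n ^ 4) +
      D ^ 2 * (K.c5 * K.E * n ^ 5) + (2 * D) * ((-(K.c5 : ℝ)) * K.E * n ^ 2) + K.c5 * (K.E * N) := by
    ring
  rw [e1]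
  have e2 : (K.c1 : ℝ) * (evalL K.q1 s * X) + K.c2 * (evalL K.q3 s * X ^ 2) +
      K.c4 * (D * (evalL K.q4 s * X)) +
      K.c5 * (D * (D * evalL K.q5 s) - 2 * (D * evalL K.q2 s) + K.E * N) =
      X * (K.c1 * evalL K.q1 s) + X ^ 2 * (K.c2 * evalL K.q3 s) + (X * D) * (K.c4 * evalL K.q4 s) +
      D ^ 2 * (K.c5 * evalL K.q5 s) + (2 * D) * ((-(K.c5 : ℝ)) * evalL K.q2 s) + K.c5 * (K.E * N) := by
    ring
  rw [e2]
  linarith

/-- `b'` is a rearrangement of `b`. -/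
def Orb (b b' : Tp) : Prop := b' = b ∨ b' = b.r1 ∨ b' = b.r2 ∨ b' = b.r3 ∨ b' = b.r4 ∨ b' = b.r5

lemma avg6_congr {F G : Tp → ℝ} {b : Tp} (h : ∀ b', Orb b b' → F b' = G b') :
    avg6 F b = avg6 G b := by
  simp only [avg6]
  rw [h b (Or.inl rfl), h b.r1 (by simp [Orb]), h b.r2 (by simp [Orb]), h b.r3 (by simp [Orb]),
    h b.r4 (by simp [Orb]), h b.r5 (by simp [Orb])]

lemma avg6_le {F G : Tp → ℝ} {b : Tp} (h : ∀ b', Orb b b' → F b' ≤ G b') :
    avg6 F b ≤ avg6 G b := by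
  simp only [avg6]
  have h0 := h b (Or.inl rfl)
  have h1 := h b.r1 (by simp [Orb])
  have h2 := h b.r2 (by simp [Orb])
  have h3 := h b.r3 (by simp [Orb])
  have h4 := h b.r4 (by simp [Orb])
  have h5 := h b.r5 (by simp [Orb])
  linarith

lemma Orb.hP {b b' : Tp} (h : Orb b b') : hP b' = hP b := by
  rcases h with rfl | rfl | rfl | rfl | rfl | rfl
  · rfl
  · exact hP_r1 b
  · exact hP_r2 b
  · exact hP_r3 b
  · exact hP_r4 b
  · exact hP_r5 b

lemma Orb.hQ {b b' : Tp} (h : Orb b b') : hQ b' = hQ b := by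
  rcases h with rfl | rfl | rfl | rfl | rfl | rfl
  · rfl
  · exact hQ_r1 b
  · exact hQ_r2 b
  · exact hQ_r3 b
  · exact hQ_r4 b
  · exact hQ_r5 b

lemma Orb.inSx {b b' : Tp} {lam : ℝ} (h : Orb b b') (hb : InSx lam b) : InSx lam b' := by
  obtain ⟨hz, hx, hy, hz'⟩ := hb
  rcases h with rfl | rfl | rfl | rfl | rfl | rfl
  · exact ⟨hz, hx, hy, hz'⟩
  · exact ⟨ZS_r1 hz, hy, hz', hx⟩
  · exact ⟨ZS_r2 hz, hz', hx, hy⟩
  · exact ⟨ZS_r3 hz, hx, hz', hy⟩
  · exact ⟨ZS_r4 hz, hy, hx, hz'⟩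
  · exact ⟨ZS_r5 hz, hz', hy, hx⟩

lemma wf_parts {K : KCfg} (hwf : wfK K = true) :
    0 < K.den ∧ 0 < K.E ∧ 0 < K.lamA.1 ∧ 0 < K.lamA.2 ∧ K.lamA.1 ≤ K.lamA.2 ∧
      0 < K.lamB.1 ∧ 0 < K.lamB.2 ∧ K.lamB.1 < K.lamB.2 := by
  unfold wfK at hwf
  split at hwf
  · simp only [Bool.and_eq_true, Nat.ble_eq, Nat.blt_eq] at hwf
    obtain ⟨⟨⟨⟨⟨⟨⟨⟨_, h1⟩, h2⟩, h3⟩, h4⟩, h5⟩, h6⟩, h7⟩, h8⟩ := hwf
    exact ⟨h1, h2, h3, h4, h5, h6, h7, h8⟩
  · simp at hwf

/-- The merge inequality obtained from its certificate. -/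
theorem kstep_real {K : KCfg} {WQ : ℕ} {T : QTrees} (hwf : wfK K = true)
    (hq : allQ K WQ T = true) (hpp : QuadChecked K true true)
    (hpm : QuadChecked K true false) (hmp : QuadChecked K false true)
    (hmm : QuadChecked K false false) {a b : Tp}
    (ha : InSx (lamR K.lamA) a) (hb : InSx (lamR K.lamB) b) :
    avg6 (fun b' => (1 + 3 * sF a b') * psiT K.den K.pp (wF a b')) b ≤
      psiT K.den K.p0 a + psiT K.den K.pY b - (K.tn : ℝ) / K.den * (p2T a * p2T b) := by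
  obtain ⟨hden, hE, hA1, hA2, hA3, hB1, hB2, hB3⟩ := wf_parts hwf
  have hdenR : (0 : ℝ) < K.den := by exact_mod_cast hden
  have hER : (0 : ℝ) < K.E := by exact_mod_cast hE
  have hA1R : (0 : ℝ) < K.lamA.1 := by exact_mod_cast hA1
  have hA2R : (0 : ℝ) < K.lamA.2 := by exact_mod_cast hA2
  have hA3R : (K.lamA.1 : ℝ) ≤ K.lamA.2 := by exact_mod_cast hA3
  have hB1R : (0 : ℝ) < K.lamB.1 := by exact_mod_cast hB1
  have hB2R : (0 : ℝ) < K.lamB.2 := by exact_mod_cast hB2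
  have hB3R : (K.lamB.1 : ℝ) < K.lamB.2 := by exact_mod_cast hB3
  have hla0 : 0 < lamR K.lamA := by unfold lamR; positivity
  have hlb0 : 0 < lamR K.lamB := by unfold lamR; positivity
  have hla1 : lamR K.lamA ≤ 1 := by
    unfold lamR; rw [div_le_one hA2R]; exact hA3R
  have hlb1 : lamR K.lamB < 1 := by
    unfold lamR; rw [div_lt_one hB2R]; exact hB3R
  -- the polynomial inequality
  have hroot : 0 ≤ rootR K (hP a) (hQ a) (hP b) (hQ b) := by
    obtain ⟨sa, ta, hta, hPa, hDa, hsa⟩ := chart hA1 hA2 hA3 ha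
    obtain ⟨sb, tb, htb, hPb, hDb, hsb⟩ := chart hB1 hB2 hB3.le hb
    rw [← hsa, ← hsb]
    cases sa <;> cases sb
    · exact quad_sound hwf hmm hPa hta hPb htb hDa hDb
    · exact quad_sound hwf hmp hPa hta hPb htb hDa hDb
    · exact quad_sound hwf hpm hPa hta hPb htb hDa hDb
    · exact quad_sound hwf hpp hPa hta hPb htb hDa hDb
  -- the cubic factors
  have hD0 : 0 ≤ DR (hP a) (hQ a) (hP b) (hQ b) := by
    have h1 := (ha.mono hla1).prod_nonneg
    have h2 := (hb.mono hlb1.le).prod_nonneg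
    unfold DR
    apply mul_nonneg
    · linarith
    · linarith
  set D := DR (hP a) (hQ a) (hP b) (hQ b) with hD
  -- pointwise bounds
  have hpt : ∀ b', Orb b b' →
      324 * (K.den : ℝ) * K.E * ((1 + 3 * sF a b') * psiT K.den K.pp (wF a b')) ≤
      K.c1 * (evalL K.q1 (sF a b') * XF a b') + K.c2 * (evalL K.q3 (sF a b') * XF a b' ^ 2) +
      K.c4 * (D * (evalL K.q4 (sF a b') * XF a b')) +
      K.c5 * (D * (D * evalL K.q5 (sF a b')) - 2 * (D * evalL K.q2 (sF a b')) +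
        K.E * (1 + 3 * sF a b')) := by
    intro b' hb'
    have hb'' := hb'.inSx hb
    obtain ⟨r1, r2⟩ := sF_range ha hb'' hla0.le hlb0.le
    have hprod : lamR K.lamA * lamR K.lamB < 1 := by
      have := mul_le_mul_of_nonneg_right hla1 hlb0.le
      linarith
    have hprod0 : 0 < lamR K.lamA * lamR K.lamB := mul_pos hla0 hlb0
    have hN : 0 < 1 + 3 * sF a b' := by linarith
    have hlim : lamR K.lamA * lamR K.lamB * (K.lamA.2 * K.lamB.2) = K.lamA.1 * K.lamB.1 := by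
      unfold lamR
      field_simp
    have hq2 : (0 : ℝ) < K.lamA.2 * K.lamB.2 := mul_pos hA2R hB2R
    have hQB : QB K (sF a b') := by
      apply allQ_sound hq (by linarith) (by linarith)
      · simp only [KCfg.limP]
        push_cast
        have := mul_le_mul_of_nonneg_right r2 hq2.le
        nlinarith [this, hlim]
      · simp only [KCfg.limM]
        push_cast
        have := mul_le_mul_of_nonneg_right r1 hq2.le
        nlinarith [this, hlim]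
    have := point_bound K hden ha.zs hb''.zs hN hQB (by rw [hb'.hP, hb'.hQ]; exact hD0)
    rw [hb'.hP, hb'.hQ] at this
    exact this
  -- averages
  have hS1 : avg6 (fun b' => evalL K.q1 (sF a b') * XF a b') b =
      qsumR (hP a) (hQ a) (hP b) (hQ b) K.q1 (eXR (hP a) (hP b)) := by
    rw [← avg_qsum ha.zs hb.zs]
    apply avg6_congr
    intro b' hb'
    rw [XF_eq ha.zs (hb'.inSx hb).zs, hb'.hP]
  have hS4 : avg6 (fun b' => evalL K.q4 (sF a b') * XF a b') b =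
      qsumR (hP a) (hQ a) (hP b) (hQ b) K.q4 (eXR (hP a) (hP b)) := by
    rw [← avg_qsum ha.zs hb.zs]
    apply avg6_congr
    intro b' hb'
    rw [XF_eq ha.zs (hb'.inSx hb).zs, hb'.hP]
  have hS3 : avg6 (fun b' => evalL K.q3 (sF a b') * XF a b' ^ 2) b =
      qsumR (hP a) (hQ a) (hP b) (hQ b) K.q3 (eXXR (hP a) (hQ a) (hP b) (hQ b)) := by
    rw [← avg_qsum ha.zs hb.zs]
    apply avg6_congr
    intro b' hb'
    rw [XF_sq_eq ha.zs (hb'.inSx hb).zs, hb'.hP, hb'.hQ]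
  have hS2 : avg6 (fun b' => evalL K.q2 (sF a b')) b =
      qsumR (hP a) (hQ a) (hP b) (hQ b) K.q2 eOneR := by
    rw [← avg_qsum ha.zs hb.zs]
    apply avg6_congr
    intro b' _
    rw [ev_one, mul_one]
  have hS5 : avg6 (fun b' => evalL K.q5 (sF a b')) b =
      qsumR (hP a) (hQ a) (hP b) (hQ b) K.q5 eOneR := by
    rw [← avg_qsum ha.zs hb.zs]
    apply avg6_congr
    intro b' _
    rw [ev_one, mul_one]
  have hSN : avg6 (fun b' => 1 + 3 * sF a b') b = 1 := by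
    have h1 := avg_ev a b ha.zs hb.zs ⟨1, 3, 0, 0, 0, 0⟩
    have h2 : avg6 (fun b' => 1 + 3 * sF a b') b =
        avg6 (fun b' => ev ⟨1, 3, 0, 0, 0, 0⟩ a b') b := by
      apply avg6_congr
      intro b' _
      simp [ev]
    rw [h2, h1]
  have hle := avg6_le hpt
  have hsum : avg6 (fun b' => K.c1 * (evalL K.q1 (sF a b') * XF a b') +
      K.c2 * (evalL K.q3 (sF a b') * XF a b' ^ 2) +
      K.c4 * (D * (evalL K.q4 (sF a b') * XF a b')) +
      K.c5 * (D * (D * evalL K.q5 (sF a b')) - 2 * (D * evalL K.q2 (sF a b')) +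
        K.E * (1 + 3 * sF a b'))) b =
      K.c1 * qsumR (hP a) (hQ a) (hP b) (hQ b) K.q1 (eXR (hP a) (hP b)) +
      K.c2 * qsumR (hP a) (hQ a) (hP b) (hQ b) K.q3 (eXXR (hP a) (hQ a) (hP b) (hQ b)) +
      K.c4 * (D * qsumR (hP a) (hQ a) (hP b) (hQ b) K.q4 (eXR (hP a) (hP b))) +
      K.c5 * (D * (D * qsumR (hP a) (hQ a) (hP b) (hQ b) K.q5 eOneR) -
        2 * (D * qsumR (hP a) (hQ a) (hP b) (hQ b) K.q2 eOneR) + K.E) := by
    rw [← hS1, ← hS2, ← hS3, ← hS4, ← hS5]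
    simp only [avg6] at hSN ⊢
    linear_combination (K.c5 : ℝ) * K.E * hSN
  rw [hsum] at hle
  have hmul : avg6 (fun b' => 324 * (K.den : ℝ) * K.E * ((1 + 3 * sF a b') * psiT K.den K.pp (wF a b'))) b =
      324 * (K.den : ℝ) * K.E * avg6 (fun b' => (1 + 3 * sF a b') * psiT K.den K.pp (wF a b')) b := by
    simp only [avg6]
    ring
  rw [hmul] at hle
  have hroot' := hroot
  simp only [rootR] at hroot'
  rw [← hD] at hroot'
  rw [← den_psi hden K.p0 a, ← den_psi hden K.pY b] at hroot'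
  -- conclude
  have hP2a : p2T a = 2 * hP a := by simp only [p2T, hP]; ring
  have hP2b : p2T b = 2 * hP b := by simp only [p2T, hP]; ring
  have hk : (0 : ℝ) < 324 * K.E * K.den := by positivity
  have hfinal : 324 * (K.E : ℝ) * K.den * avg6 (fun b' => (1 + 3 * sF a b') * psiT K.den K.pp (wF a b')) b ≤
      324 * (K.E : ℝ) * K.den *
        (psiT K.den K.p0 a + psiT K.den K.pY b - (K.tn : ℝ) / K.den * (p2T a * p2T b)) := by
    have e : 324 * (K.E : ℝ) * K.den *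
        (psiT K.den K.p0 a + psiT K.den K.pY b - (K.tn : ℝ) / K.den * (p2T a * p2T b)) =
        324 * (K.E : ℝ) * ((K.den : ℝ) * psiT K.den K.p0 a + (K.den : ℝ) * psiT K.den K.pY b -
          4 * (K.tn : ℝ) * (hP a * hP b)) := by
      rw [hP2a, hP2b]
      field_simp
      ring
    rw [e]
    linarith
  exact le_of_mul_le_mul_left hfinal hk

end Vale.Agent.Lib.P154
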