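import Vale.Agent.Lib.P154.Pots
import Vale.Agent.Lib.P154.Cert.K3s1
import Vale.Agent.Lib.P154.Cert.K3s2

namespace Vale.Agent.Lib.P154

open Filter Topology

/-- Potentials of the chain for 3 children. -/
def potsD3 : List Pot := [⟨2580, (-39475), 203059⟩, ⟨1271, (-13387), 55756⟩, ⟨864, (-7628), 22685⟩]

/-- Nonreconstruction for 3 children per vertex. -/
theorem nonrecon_d3 {lam : ℝ} (hl0 : 0 ≤ lam) (hd : (((1 : ℕ) : ℝ) + 2) * lam ^ 2 ≤ 1) :
    Tendsto (reconDist 3 (1 + 2) lam) atTop (𝓝 0) := by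
  have hl : lam ≤ lamR (37, 64) := by
    refine lam_le_of (D := ((1 : ℕ) : ℝ) + 2) (by norm_num) (by norm_num [lamR]) hd ?_
    norm_num [lamR]
  refine tendsto_of_chain (k := 1) (pot := fun j => psiT 4096 (potsD3.getD j ⟨0, 0, 0⟩))
    (lb := lamR (37, 64)) (t := ((K3s1.tn : ℕ) : ℝ) / (K3s1.den : ℕ)) (by norm_num [lamR]) (by norm_num [lamR])
    (t_pos (by decide) (by decide)) ?_ ?_ ?_ ?_ hl0 hl hd
  · exact merge_of_cert K3s1_hwf K3s1_hq K3s1_hpp K3s1_hpm K3s1_hmp K3s1_hmm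
  · intro j hj1 hj2
    interval_cases j
    · exact (Merge.la_one (merge_of_cert K3s2_hwf K3s2_hq K3s2_hpp K3s2_hpm K3s2_hmp K3s2_hmm) rfl Nat.one_pos).drop (by positivity)
  · intro c _ s hs0 hsl
    refine dom_lemma (pY := ⟨2580, (-39475), 203059⟩) (pd := ⟨864, (-7628), 22685⟩) (den := 4096) (by norm_num)
      (l := lamR (37, 64)) (by norm_num [lamR]) ?_ ?_ ?_ ?_ ?_ ?_ c s hs0 hsl <;> norm_num [lamR]
  · intro c
    refine ge_p2 (den := 4096) (p := ⟨864, (-7628), 22685⟩) (by norm_num) ?_ ?_ ?_ c <;> norm_num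

end Vale.Agent.Lib.P154
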