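import Vale.Agent.Lib.P154.Pots
import Vale.Agent.Lib.P154.Cert.K4s1
import Vale.Agent.Lib.P154.Cert.K4s2
import Vale.Agent.Lib.P154.Cert.K4s3

namespace Vale.Agent.Lib.P154

open Filter Topology

/-- Potentials of the chain for 4 children. -/
def potsD4 : List Pot := [⟨2954, (-49457), 287072⟩, ⟨1475, (-15722), 78029⟩, ⟨1102, (-8948), 26000⟩, ⟨740, (-6182), 17943⟩]

/-- Nonreconstruction for 4 children per vertex. -/
theorem nonrecon_d4 {lam : ℝ} (hl0 : 0 ≤ lam) (hd : (((2 : ℕ) : ℝ) + 2) * lam ^ 2 ≤ 1) :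
    Tendsto (reconDist 3 (2 + 2) lam) atTop (𝓝 0) := by
  have hl : lam ≤ lamR (1, 2) := by
    refine lam_le_of (D := ((2 : ℕ) : ℝ) + 2) (by norm_num) (by norm_num [lamR]) hd ?_
    norm_num [lamR]
  refine tendsto_of_chain (k := 2) (pot := fun j => psiT 4096 (potsD4.getD j ⟨0, 0, 0⟩))
    (lb := lamR (1, 2)) (t := ((K4s1.tn : ℕ) : ℝ) / (K4s1.den : ℕ)) (by norm_num [lamR]) (by norm_num [lamR])
    (t_pos (by decide) (by decide)) ?_ ?_ ?_ ?_ hl0 hl hd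
  · exact merge_of_cert K4s1_hwf K4s1_hq K4s1_hpp K4s1_hpm K4s1_hmp K4s1_hmm
  · intro j hj1 hj2
    interval_cases j
    · exact (Merge.la_one (merge_of_cert K4s2_hwf K4s2_hq K4s2_hpp K4s2_hpm K4s2_hmp K4s2_hmm) rfl Nat.one_pos).drop (by positivity)
    · exact (Merge.la_one (merge_of_cert K4s3_hwf K4s3_hq K4s3_hpp K4s3_hpm K4s3_hmp K4s3_hmm) rfl Nat.one_pos).drop (by positivity)
  · intro c _ s hs0 hsl
    refine dom_lemma (pY := ⟨2954, (-49457), 287072⟩) (pd := ⟨740, (-6182), 17943⟩) (den := 4096) (by norm_num)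
      (l := lamR (1, 2)) (by norm_num [lamR]) ?_ ?_ ?_ ?_ ?_ ?_ c s hs0 hsl <;> norm_num [lamR]
  · intro c
    refine ge_p2 (den := 4096) (p := ⟨740, (-6182), 17943⟩) (by norm_num) ?_ ?_ ?_ c <;> norm_num

end Vale.Agent.Lib.P154
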