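import Vale.Agent.Lib.P154.Pots
import Vale.Agent.Lib.P154.Cert.K5s1
import Vale.Agent.Lib.P154.Cert.K5s2
import Vale.Agent.Lib.P154.Cert.K5s3
import Vale.Agent.Lib.P154.Cert.K5s4

namespace Vale.Agent.Lib.P154

open Filter Topology

/-- Potentials of the chain for 5 children. -/
def potsD5 : List Pot := [⟨3148, (-66807), 521191⟩, ⟨1475, (-13998), 79992⟩, ⟨1150, (-9468), 30653⟩, ⟨849, (-7402), 25290⟩, ⟨637, (-6056), 21226⟩]

/-- Nonreconstruction for 5 children per vertex. -/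
theorem nonrecon_d5 {lam : ℝ} (hl0 : 0 ≤ lam) (hd : (((3 : ℕ) : ℝ) + 2) * lam ^ 2 ≤ 1) :
    Tendsto (reconDist 3 (3 + 2) lam) atTop (𝓝 0) := by
  have hl : lam ≤ lamR (115, 256) := by
    refine lam_le_of (D := ((3 : ℕ) : ℝ) + 2) (by norm_num) (by norm_num [lamR]) hd ?_
    norm_num [lamR]
  refine tendsto_of_chain (k := 3) (pot := fun j => psiT 4096 (potsD5.getD j ⟨0, 0, 0⟩))
    (lb := lamR (115, 256)) (t := ((K5s1.tn : ℕ) : ℝ) / (K5s1.den : ℕ)) (by norm_num [lamR]) (by norm_num [lamR])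
    (t_pos (by decide) (by decide)) ?_ ?_ ?_ ?_ hl0 hl hd
  · exact merge_of_cert K5s1_hwf K5s1_hq K5s1_hpp K5s1_hpm K5s1_hmp K5s1_hmm
  · intro j hj1 hj2
    interval_cases j
    · exact (Merge.la_one (merge_of_cert K5s2_hwf K5s2_hq K5s2_hpp K5s2_hpm K5s2_hmp K5s2_hmm) rfl Nat.one_pos).drop (by positivity)
    · exact (Merge.la_one (merge_of_cert K5s3_hwf K5s3_hq K5s3_hpp K5s3_hpm K5s3_hmp K5s3_hmm) rfl Nat.one_pos).drop (by positivity)
    · exact (Merge.la_one (merge_of_cert K5s4_hwf K5s4_hq K5s4_hpp K5s4_hpm K5s4_hmp K5s4_hmm) rfl Nat.one_pos).drop (by positivity)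
  · intro c _ s hs0 hsl
    refine dom_lemma (pY := ⟨3148, (-66807), 521191⟩) (pd := ⟨637, (-6056), 21226⟩) (den := 4096) (by norm_num)
      (l := lamR (115, 256)) (by norm_num [lamR]) ?_ ?_ ?_ ?_ ?_ ?_ c s hs0 hsl <;> norm_num [lamR]
  · intro c
    refine ge_p2 (den := 4096) (p := ⟨637, (-6056), 21226⟩) (by norm_num) ?_ ?_ ?_ c <;> norm_num

end Vale.Agent.Lib.P154
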