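import Vale.Agent.Lib.P154.Pots
import Vale.Agent.Lib.P154.Cert.K6s1
import Vale.Agent.Lib.P154.Cert.K6s2
import Vale.Agent.Lib.P154.Cert.K6s3
import Vale.Agent.Lib.P154.Cert.K6s4
import Vale.Agent.Lib.P154.Cert.K6s5

namespace Vale.Agent.Lib.P154

open Filter Topology

/-- Potentials of the chain for 6 children. -/
def potsD6 : List Pot := [⟨3328, (-79946), 716008⟩, ⟨1475, (-12948), 81261⟩, ⟨1188, (-9406), 31584⟩, ⟨916, (-7574), 26826⟩, ⟨716, (-6413), 23580⟩, ⟨561, (-5516), 20265⟩]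

/-- Nonreconstruction for 6 children per vertex. -/
theorem nonrecon_d6 {lam : ℝ} (hl0 : 0 ≤ lam) (hd : (((4 : ℕ) : ℝ) + 2) * lam ^ 2 ≤ 1) :
    Tendsto (reconDist 3 (4 + 2) lam) atTop (𝓝 0) := by
  have hl : lam ≤ lamR (105, 256) := by
    refine lam_le_of (D := ((4 : ℕ) : ℝ) + 2) (by norm_num) (by norm_num [lamR]) hd ?_
    norm_num [lamR]
  refine tendsto_of_chain (k := 4) (pot := fun j => psiT 4096 (potsD6.getD j ⟨0, 0, 0⟩))
    (lb := lamR (105, 256)) (t := ((K6s1.tn : ℕ) : ℝ) / (K6s1.den : ℕ)) (by norm_num [lamR]) (by norm_num [lamR])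
    (t_pos (by decide) (by decide)) ?_ ?_ ?_ ?_ hl0 hl hd
  · exact merge_of_cert K6s1_hwf K6s1_hq K6s1_hpp K6s1_hpm K6s1_hmp K6s1_hmm
  · intro j hj1 hj2
    interval_cases j
    · exact (Merge.la_one (merge_of_cert K6s2_hwf K6s2_hq K6s2_hpp K6s2_hpm K6s2_hmp K6s2_hmm) rfl Nat.one_pos).drop (by positivity)
    · exact (Merge.la_one (merge_of_cert K6s3_hwf K6s3_hq K6s3_hpp K6s3_hpm K6s3_hmp K6s3_hmm) rfl Nat.one_pos).drop (by positivity)
    · exact (Merge.la_one (merge_of_cert K6s4_hwf K6s4_hq K6s4_hpp K6s4_hpm K6s4_hmp K6s4_hmm) rfl Nat.one_pos).drop (by positivity)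
    · exact (Merge.la_one (merge_of_cert K6s5_hwf K6s5_hq K6s5_hpp K6s5_hpm K6s5_hmp K6s5_hmm) rfl Nat.one_pos).drop (by positivity)
  · intro c _ s hs0 hsl
    refine dom_lemma (pY := ⟨3328, (-79946), 716008⟩) (pd := ⟨561, (-5516), 20265⟩) (den := 4096) (by norm_num)
      (l := lamR (105, 256)) (by norm_num [lamR]) ?_ ?_ ?_ ?_ ?_ ?_ c s hs0 hsl <;> norm_num [lamR]
  · intro c
    refine ge_p2 (den := 4096) (p := ⟨561, (-5516), 20265⟩) (by norm_num) ?_ ?_ ?_ c <;> norm_num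

end Vale.Agent.Lib.P154
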