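import Vale.Agent.Lib.P154.Pots
import Vale.Agent.Lib.P154.Cert.K7s1
import Vale.Agent.Lib.P154.Cert.K7s2
import Vale.Agent.Lib.P154.Cert.K7s3
import Vale.Agent.Lib.P154.Cert.K7s4
import Vale.Agent.Lib.P154.Cert.K7s5
import Vale.Agent.Lib.P154.Cert.K7s6

namespace Vale.Agent.Lib.P154

open Filter Topology

/-- Potentials of the chain for 7 children. -/
def potsD7 : List Pot := [⟨3663, (-98432), 957457⟩, ⟨1475, (-12259), 76401⟩, ⟨1233, (-9241), 30972⟩, ⟨989, (-7658), 26859⟩, ⟨805, (-6613), 23910⟩, ⟨655, (-5911), 21789⟩, ⟨527, (-5355), 19737⟩]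

/-- Nonreconstruction for 7 children per vertex. -/
theorem nonrecon_d7 {lam : ℝ} (hl0 : 0 ≤ lam) (hd : (((5 : ℕ) : ℝ) + 2) * lam ^ 2 ≤ 1) :
    Tendsto (reconDist 3 (5 + 2) lam) atTop (𝓝 0) := by
  have hl : lam ≤ lamR (97, 256) := by
    refine lam_le_of (D := ((5 : ℕ) : ℝ) + 2) (by norm_num) (by norm_num [lamR]) hd ?_
    norm_num [lamR]
  refine tendsto_of_chain (k := 5) (pot := fun j => psiT 4096 (potsD7.getD j ⟨0, 0, 0⟩))
    (lb := lamR (97, 256)) (t := ((K7s1.tn : ℕ) : ℝ) / (K7s1.den : ℕ)) (by norm_num [lamR]) (by norm_num [lamR])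
    (t_pos (by decide) (by decide)) ?_ ?_ ?_ ?_ hl0 hl hd
  · exact merge_of_cert K7s1_hwf K7s1_hq K7s1_hpp K7s1_hpm K7s1_hmp K7s1_hmm
  · intro j hj1 hj2
    interval_cases j
    · exact (Merge.la_one (merge_of_cert K7s2_hwf K7s2_hq K7s2_hpp K7s2_hpm K7s2_hmp K7s2_hmm) rfl Nat.one_pos).drop (by positivity)
    · exact (Merge.la_one (merge_of_cert K7s3_hwf K7s3_hq K7s3_hpp K7s3_hpm K7s3_hmp K7s3_hmm) rfl Nat.one_pos).drop (by positivity)
    · exact (Merge.la_one (merge_of_cert K7s4_hwf K7s4_hq K7s4_hpp K7s4_hpm K7s4_hmp K7s4_hmm) rfl Nat.one_pos).drop (by positivity)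
    · exact (Merge.la_one (merge_of_cert K7s5_hwf K7s5_hq K7s5_hpp K7s5_hpm K7s5_hmp K7s5_hmm) rfl Nat.one_pos).drop (by positivity)
    · exact (Merge.la_one (merge_of_cert K7s6_hwf K7s6_hq K7s6_hpp K7s6_hpm K7s6_hmp K7s6_hmm) rfl Nat.one_pos).drop (by positivity)
  · intro c _ s hs0 hsl
    refine dom_lemma (pY := ⟨3663, (-98432), 957457⟩) (pd := ⟨527, (-5355), 19737⟩) (den := 4096) (by norm_num)
      (l := lamR (97, 256)) (by norm_num [lamR]) ?_ ?_ ?_ ?_ ?_ ?_ c s hs0 hsl <;> norm_num [lamR]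
  · intro c
    refine ge_p2 (den := 4096) (p := ⟨527, (-5355), 19737⟩) (by norm_num) ?_ ?_ ?_ c <;> norm_num

end Vale.Agent.Lib.P154
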