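import Vale.Agent.Lib.P154.Pots
import Vale.Agent.Lib.P154.Cert.K8s1
import Vale.Agent.Lib.P154.Cert.K8s2
import Vale.Agent.Lib.P154.Cert.K8s3
import Vale.Agent.Lib.P154.Cert.K8s4
import Vale.Agent.Lib.P154.Cert.K8s5
import Vale.Agent.Lib.P154.Cert.K8s6
import Vale.Agent.Lib.P154.Cert.K8s7

namespace Vale.Agent.Lib.P154

open Filter Topology

/-- Potentials of the chain for 8 children. -/
def potsD8 : List Pot := [⟨3856, (-114251), 1213068⟩, ⟨1475, (-11469), 67683⟩, ⟨1257, (-8932), 30099⟩, ⟨1032, (-7553), 26675⟩, ⟨858, (-6633), 24296⟩, ⟨719, (-5981), 22330⟩, ⟨598, (-5513), 20774⟩, ⟨489, (-5132), 19370⟩]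

/-- Nonreconstruction for 8 children per vertex. -/
theorem nonrecon_d8 {lam : ℝ} (hl0 : 0 ≤ lam) (hd : (((6 : ℕ) : ℝ) + 2) * lam ^ 2 ≤ 1) :
    Tendsto (reconDist 3 (6 + 2) lam) atTop (𝓝 0) := by
  have hl : lam ≤ lamR (91, 256) := by
    refine lam_le_of (D := ((6 : ℕ) : ℝ) + 2) (by norm_num) (by norm_num [lamR]) hd ?_
    norm_num [lamR]
  refine tendsto_of_chain (k := 6) (pot := fun j => psiT 4096 (potsD8.getD j ⟨0, 0, 0⟩))
    (lb := lamR (91, 256)) (t := ((K8s1.tn : ℕ) : ℝ) / (K8s1.den : ℕ)) (by norm_num [lamR]) (by norm_num [lamR])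
    (t_pos (by decide) (by decide)) ?_ ?_ ?_ ?_ hl0 hl hd
  · exact merge_of_cert K8s1_hwf K8s1_hq K8s1_hpp K8s1_hpm K8s1_hmp K8s1_hmm
  · intro j hj1 hj2
    interval_cases j
    · exact (Merge.la_one (merge_of_cert K8s2_hwf K8s2_hq K8s2_hpp K8s2_hpm K8s2_hmp K8s2_hmm) rfl Nat.one_pos).drop (by positivity)
    · exact (Merge.la_one (merge_of_cert K8s3_hwf K8s3_hq K8s3_hpp K8s3_hpm K8s3_hmp K8s3_hmm) rfl Nat.one_pos).drop (by positivity)
    · exact (Merge.la_one (merge_of_cert K8s4_hwf K8s4_hq K8s4_hpp K8s4_hpm K8s4_hmp K8s4_hmm) rfl Nat.one_pos).drop (by positivity)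
    · exact (Merge.la_one (merge_of_cert K8s5_hwf K8s5_hq K8s5_hpp K8s5_hpm K8s5_hmp K8s5_hmm) rfl Nat.one_pos).drop (by positivity)
    · exact (Merge.la_one (merge_of_cert K8s6_hwf K8s6_hq K8s6_hpp K8s6_hpm K8s6_hmp K8s6_hmm) rfl Nat.one_pos).drop (by positivity)
    · exact (Merge.la_one (merge_of_cert K8s7_hwf K8s7_hq K8s7_hpp K8s7_hpm K8s7_hmp K8s7_hmm) rfl Nat.one_pos).drop (by positivity)
  · intro c _ s hs0 hsl
    refine dom_lemma (pY := ⟨3856, (-114251), 1213068⟩) (pd := ⟨489, (-5132), 19370⟩) (den := 4096) (by norm_num)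
      (l := lamR (91, 256)) (by norm_num [lamR]) ?_ ?_ ?_ ?_ ?_ ?_ c s hs0 hsl <;> norm_num [lamR]
  · intro c
    refine ge_p2 (den := 4096) (p := ⟨489, (-5132), 19370⟩) (by norm_num) ?_ ?_ ?_ c <;> norm_num

end Vale.Agent.Lib.P154
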