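import Vale.Agent.Lib.P154.Pots
import Vale.Agent.Lib.P154.Cert.K9s1

namespace Vale.Agent.Lib.P154

open Filter Topology

lemma psiT_inv (den : ℕ) (p : Pot) (b : Tp) :
    psiT den p b.r1 = psiT den p b ∧ psiT den p b.r2 = psiT den p b ∧ psiT den p b.r3 = psiT den p b ∧
      psiT den p b.r4 = psiT den p b ∧ psiT den p b.r5 = psiT den p b := by
  refine ⟨?_, ?_, ?_, ?_, ?_⟩ <;> simp only [psiT, Tp.r1, Tp.r2, Tp.r3, Tp.r4, Tp.r5] <;> ring

lemma psiT_zero (den : ℕ) (p : Pot) : psiT den p ⟨0, 0, 0⟩ = 0 := by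
  simp [psiT]

/-- Nonreconstruction for at least nine children per vertex. -/
theorem nonrecon_large {k : ℕ} (hk : 7 ≤ k) {lam : ℝ} (hl0 : 0 ≤ lam)
    (hd : ((k : ℝ) + 2) * lam ^ 2 ≤ 1) :
    Tendsto (reconDist 3 (k + 2) lam) atTop (𝓝 0) := by
  have hk' : (7 : ℝ) ≤ k := by exact_mod_cast hk
  have hl : lam ≤ lamR (1, 3) := by
    have h9 : 9 * lam ^ 2 ≤ 1 := by
      have := mul_le_mul_of_nonneg_right (show (9 : ℝ) ≤ (k : ℝ) + 2 by linarith) (sq_nonneg lam)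
      linarith
    exact lam_le_of (D := 9) (by norm_num) (by norm_num [lamR]) h9 (by norm_num [lamR])
  refine tendsto_stationary k (Y := psiT 4096 ⟨3834, (-164345), 1981748⟩)
    (ψ := psiT 4096 ⟨427, (-6087), 24468⟩) (lb := lamR (1, 3))
    (t := ((K9s1.tn : ℕ) : ℝ) / (K9s1.den : ℕ)) (by norm_num [lamR]) (by norm_num [lamR])
    (t_pos (by decide) (by decide)) ?_ ?_ ?_ (psiT_zero _ _) (psiT_inv _ _) hl0 hl hd
  · exact Merge.la_one (merge_of_cert K9s1_hwf K9s1_hq K9s1_hpp K9s1_hpm K9s1_hmp K9s1_hmm) rfl Nat.one_pos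
  · intro c s hs0 hsl
    refine dom_lemma (pY := ⟨3834, (-164345), 1981748⟩) (pd := ⟨427, (-6087), 24468⟩) (den := 4096)
      (by norm_num) (l := lamR (1, 3)) (by norm_num [lamR]) ?_ ?_ ?_ ?_ ?_ ?_ c s hs0 hsl <;> norm_num [lamR]
  · intro c
    refine ge_p2 (den := 4096) (p := ⟨427, (-6087), 24468⟩) (by norm_num) ?_ ?_ ?_ c <;> norm_num

end Vale.Agent.Lib.P154
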