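import Vale.Agent.Lib.P154.NR2
import Vale.Agent.Lib.P154.NR3
import Vale.Agent.Lib.P154.NR4
import Vale.Agent.Lib.P154.NR5
import Vale.Agent.Lib.P154.NR6
import Vale.Agent.Lib.P154.NR7
import Vale.Agent.Lib.P154.NR8
import Vale.Agent.Lib.P154.NR9

namespace Vale.Agent.Lib.P154

open Filter Topology

/-- Nonreconstruction for the ferromagnetic three state Potts channel on every `d`-ary tree. -/
theorem nonrecon_ferro_three (d : ℕ) (hd : 2 ≤ d) (lam : ℝ) (h0 : 0 ≤ lam) (h : (d : ℝ) * lam ^ 2 ≤ 1) :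
    Tendsto (reconDist 3 d lam) atTop (𝓝 0) := by
  obtain ⟨k, rfl⟩ : ∃ k, d = k + 2 := ⟨d - 2, by omega⟩
  have h' : ((k : ℝ) + 2) * lam ^ 2 ≤ 1 := by
    push_cast at h
    exact h
  by_cases hk : 7 ≤ k
  · exact nonrecon_large hk h0 h'
  · have hk' : k < 7 := by omega
    interval_cases k
    · exact nonrecon_d2 h0 h'
    · exact nonrecon_d3 h0 h'
    · exact nonrecon_d4 h0 h'
    · exact nonrecon_d5 h0 h'
    · exact nonrecon_d6 h0 h'
    · exact nonrecon_d7 h0 h'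
    · exact nonrecon_d8 h0 h'

end Vale.Agent.Lib.P154
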