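import Vale.Agent.Lib.P154.Pots
import Vale.Agent.Lib.P154.Cert.K2s1

namespace Vale.Agent.Lib.P154

open Filter Topology

/-- Potentials of the chain for 2 children. -/
def potsD2 : List Pot := [⟨1696, (-29852), 177222⟩, ⟨856, (-10684), 45037⟩]

/-- Nonreconstruction for 2 children per vertex. -/
theorem nonrecon_d2 {lam : ℝ} (hl0 : 0 ≤ lam) (hd : (((0 : ℕ) : ℝ) + 2) * lam ^ 2 ≤ 1) :
    Tendsto (reconDist 3 (0 + 2) lam) atTop (𝓝 0) := by
  have hl : lam ≤ lamR (71, 100) := by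
    refine lam_le_of (D := ((0 : ℕ) : ℝ) + 2) (by norm_num) (by norm_num [lamR]) hd ?_
    norm_num [lamR]
  refine tendsto_of_chain (k := 0) (pot := fun j => psiT 4096 (potsD2.getD j ⟨0, 0, 0⟩))
    (lb := lamR (71, 100)) (t := ((K2s1.tn : ℕ) : ℝ) / (K2s1.den : ℕ)) (by norm_num [lamR]) (by norm_num [lamR])
    (t_pos (by decide) (by decide)) ?_ ?_ ?_ ?_ hl0 hl hd
  · exact merge_of_cert K2s1_hwf K2s1_hq K2s1_hpp K2s1_hpm K2s1_hmp K2s1_hmm
  · intro j hj1 hj2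
    omega
  · intro c _ s hs0 hsl
    refine dom_lemma (pY := ⟨1696, (-29852), 177222⟩) (pd := ⟨856, (-10684), 45037⟩) (den := 4096) (by norm_num)
      (l := lamR (71, 100)) (by norm_num [lamR]) ?_ ?_ ?_ ?_ ?_ ?_ c s hs0 hsl <;> norm_num [lamR]
  · intro c
    refine ge_p2 (den := 4096) (p := ⟨856, (-10684), 45037⟩) (by norm_num) ?_ ?_ ?_ c <;> norm_num

end Vale.Agent.Lib.P154
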