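import Vale.Agent.Lib.P154.Tree

/-! Properties of the potentials needed for the chain. -/

namespace Vale.Agent.Lib.P154

open Filter Topology

lemma quad_nonneg {A B C : ℝ} (hA : 0 ≤ A) (hC : 0 ≤ C) (h : B ^ 2 ≤ 4 * A * C) (p q : ℝ) :
    0 ≤ A * p ^ 2 + B * (p * q) + C * q ^ 2 := by
  rcases hA.eq_or_lt with h0 | hpos
  · rw [← h0] at h ⊢
    have hB : B = 0 := by nlinarith [sq_nonneg B]
    rw [hB]
    simp only [zero_mul, zero_add]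
    positivity
  · have key : A * (A * p ^ 2 + B * (p * q) + C * q ^ 2) =
        (A * p + B * q / 2) ^ 2 + (4 * A * C - B ^ 2) * q ^ 2 / 4 := by ring
    have h2 : 0 ≤ (A * p + B * q / 2) ^ 2 + (4 * A * C - B ^ 2) * q ^ 2 / 4 := by
      have : 0 ≤ (4 * A * C - B ^ 2) * q ^ 2 := mul_nonneg (by linarith) (sq_nonneg q)
      positivity
    rw [← key] at h2
    exact nonneg_of_mul_nonneg_right h2 hpos

/-- Second and third power sums of a scaled triple, and the potential in terms of them. -/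
lemma psiT_eq (den : ℕ) (p : Pot) (c : Tp) :
    psiT den p c = p2T c + (p.a : ℝ) / den * p2T c ^ 2 +
      (p.b : ℝ) / den * (p2T c * (c.x ^ 3 + c.y ^ 3 + c.z ^ 3)) +
      (p.c : ℝ) / den * (c.x ^ 3 + c.y ^ 3 + c.z ^ 3) ^ 2 := rfl

lemma psiT_scale (den : ℕ) (p : Pot) (s : ℝ) (c : Tp) :
    psiT den p (scale s c) = s ^ 2 * p2T c + (p.a : ℝ) / den * (s ^ 4 * p2T c ^ 2) +
      (p.b : ℝ) / den * (s ^ 5 * (p2T c * (c.x ^ 3 + c.y ^ 3 + c.z ^ 3))) +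
      (p.c : ℝ) / den * (s ^ 6 * (c.x ^ 3 + c.y ^ 3 + c.z ^ 3) ^ 2) := by
  simp only [psiT, scale, p2T]
  ring

/-- Monotonicity along rays. -/
lemma ray_mono {den : ℕ} (hden : 0 < den) {p : Pot} (h1 : 0 ≤ (p.a : ℝ)) (h2 : 0 ≤ (p.c : ℝ))
    (h3 : 9 * (p.b : ℝ) ^ 2 ≤ 32 * p.a * p.c) (c : Tp) {s : ℝ} (hs0 : 0 ≤ s) (hs1 : s ≤ 1) :
    psiT den p (scale s c) ≤ s ^ 2 * psiT den p c := by
  have hd : (0 : ℝ) < den := by exact_mod_cast hden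
  rw [psiT_scale, psiT_eq]
  set P := p2T c
  set Q := c.x ^ 3 + c.y ^ 3 + c.z ^ 3
  have hA : 0 ≤ (p.a : ℝ) * (1 - s ^ 2) := mul_nonneg h1 (by nlinarith)
  have hC : 0 ≤ (p.c : ℝ) * (1 - s ^ 4) := by
    apply mul_nonneg h2
    have : s ^ 2 ≤ 1 := by nlinarith
    nlinarith [sq_nonneg s]
  have hB : ((p.b : ℝ) * (1 - s ^ 3)) ^ 2 ≤ 4 * ((p.a : ℝ) * (1 - s ^ 2)) * ((p.c : ℝ) * (1 - s ^ 4)) := by
    have e : 9 * (1 - s ^ 2) * (1 - s ^ 4) - 8 * (1 - s ^ 3) ^ 2 = (1 - s) ^ 4 * (1 + 4 * s + s ^ 2) := by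
      ring
    have e1 : 0 ≤ (1 - s) ^ 4 * (1 + 4 * s + s ^ 2) := by positivity
    have e2 : 8 * (1 - s ^ 3) ^ 2 ≤ 9 * (1 - s ^ 2) * (1 - s ^ 4) := by linarith
    have h4 : 9 * (p.b : ℝ) ^ 2 * (1 - s ^ 3) ^ 2 ≤ 32 * p.a * p.c * (1 - s ^ 3) ^ 2 :=
      mul_le_mul_of_nonneg_right h3 (sq_nonneg _)
    have h5 : (p.a : ℝ) * p.c * (8 * (1 - s ^ 3) ^ 2) ≤ (p.a : ℝ) * p.c * (9 * (1 - s ^ 2) * (1 - s ^ 4)) :=
      mul_le_mul_of_nonneg_left e2 (mul_nonneg h1 h2)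
    nlinarith [h4, h5]
  have hq := quad_nonneg hA hC hB P Q
  have hs2 : 0 ≤ s ^ 2 := sq_nonneg s
  have := mul_nonneg (mul_nonneg hs2 (div_nonneg zero_le_one hd.le)) hq
  have e : s ^ 2 * (1 / (den : ℝ)) * ((p.a : ℝ) * (1 - s ^ 2) * P ^ 2 + (p.b : ℝ) * (1 - s ^ 3) * (P * Q) +
      (p.c : ℝ) * (1 - s ^ 4) * Q ^ 2) =
      s ^ 2 * (P + (p.a : ℝ) / den * P ^ 2 + (p.b : ℝ) / den * (P * Q) + (p.c : ℝ) / den * Q ^ 2) -
      (s ^ 2 * P + (p.a : ℝ) / den * (s ^ 4 * P ^ 2) + (p.b : ℝ) / den * (s ^ 5 * (P * Q)) +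
        (p.c : ℝ) / den * (s ^ 6 * Q ^ 2)) := by
    field_simp
    ring
  rw [e] at this
  linarith

/-- Domination of the one child potential by the potential of all children. -/
lemma dom_lemma {den : ℕ} (hden : 0 < den) {pY pd : Pot} {l : ℝ} (hl : 0 < l)
    (h1 : 0 ≤ (pY.a : ℝ)) (h2 : 0 ≤ (pY.c : ℝ)) (h3 : 9 * (pY.b : ℝ) ^ 2 ≤ 32 * pY.a * pY.c)
    (e1 : 0 ≤ (pd.a : ℝ) - l ^ 2 * pY.a) (e3 : 0 ≤ (pd.c : ℝ) - l ^ 4 * pY.c)
    (e2 : ((pd.b : ℝ) - l ^ 3 * pY.b) ^ 2 ≤ 4 * ((pd.a : ℝ) - l ^ 2 * pY.a) * ((pd.c : ℝ) - l ^ 4 * pY.c))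
    (c : Tp) (s : ℝ) (hs0 : 0 ≤ s) (hsl : s ≤ l) :
    psiT den pY (scale s c) ≤ s ^ 2 * psiT den pd c := by
  have hd : (0 : ℝ) < den := by exact_mod_cast hden
  -- first at the end point
  have hend : psiT den pY (scale l c) ≤ l ^ 2 * psiT den pd c := by
    rw [psiT_scale, psiT_eq]
    set P := p2T c
    set Q := c.x ^ 3 + c.y ^ 3 + c.z ^ 3
    have hq := quad_nonneg e1 e3 e2 P Q
    have hl2 : 0 ≤ l ^ 2 := sq_nonneg l
    have := mul_nonneg (mul_nonneg hl2 (div_nonneg zero_le_one hd.le)) hq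
    have e : l ^ 2 * (1 / (den : ℝ)) * (((pd.a : ℝ) - l ^ 2 * pY.a) * P ^ 2 +
        ((pd.b : ℝ) - l ^ 3 * pY.b) * (P * Q) + ((pd.c : ℝ) - l ^ 4 * pY.c) * Q ^ 2) =
        l ^ 2 * (P + (pd.a : ℝ) / den * P ^ 2 + (pd.b : ℝ) / den * (P * Q) + (pd.c : ℝ) / den * Q ^ 2) -
        (l ^ 2 * P + (pY.a : ℝ) / den * (l ^ 4 * P ^ 2) + (pY.b : ℝ) / den * (l ^ 5 * (P * Q)) +
          (pY.c : ℝ) / den * (l ^ 6 * Q ^ 2)) := by
      field_simp
      ring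
    rw [e] at this
    linarith
  -- then along the ray
  set r := s / l with hr
  have hr0 : 0 ≤ r := by positivity
  have hr1 : r ≤ 1 := by
    rw [hr, div_le_one hl]
    exact hsl
  have hs : s = r * l := by
    rw [hr]; field_simp
  have e0 : scale s c = scale r (scale l c) := by
    simp only [scale, hs]
    ext <;> simp <;> ring
  rw [e0]
  have hray := ray_mono hden h1 h2 h3 (scale l c) hr0 hr1
  have := mul_le_mul_of_nonneg_left hend (sq_nonneg r)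
  have e2' : s ^ 2 = r ^ 2 * l ^ 2 := by rw [hs]; ring
  rw [e2']
  linarith

/-- A potential with nonnegative form dominates the second power sum. -/
lemma ge_p2 {den : ℕ} (hden : 0 < den) {p : Pot} (h1 : 0 ≤ (p.a : ℝ)) (h2 : 0 ≤ (p.c : ℝ))
    (h3 : (p.b : ℝ) ^ 2 ≤ 4 * p.a * p.c) (c : Tp) : p2T c ≤ psiT den p c := by
  have hd : (0 : ℝ) < den := by exact_mod_cast hden
  rw [psiT_eq]
  have hq := quad_nonneg h1 h2 h3 (p2T c) (c.x ^ 3 + c.y ^ 3 + c.z ^ 3)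
  have := mul_nonneg (div_nonneg zero_le_one hd.le) hq
  have e : 1 / (den : ℝ) * ((p.a : ℝ) * p2T c ^ 2 + (p.b : ℝ) * (p2T c * (c.x ^ 3 + c.y ^ 3 + c.z ^ 3)) +
      (p.c : ℝ) * (c.x ^ 3 + c.y ^ 3 + c.z ^ 3) ^ 2) =
      (p.a : ℝ) / den * p2T c ^ 2 + (p.b : ℝ) / den * (p2T c * (c.x ^ 3 + c.y ^ 3 + c.z ^ 3)) +
      (p.c : ℝ) / den * (c.x ^ 3 + c.y ^ 3 + c.z ^ 3) ^ 2 := by
    field_simp
  rw [e] at this
  linarith

/-- The merge inequality from the checks of a certificate. -/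
theorem merge_of_cert {K : KCfg} {WQ : ℕ} {T : QTrees} (hwf : wfK K = true)
    (hq : allQ K WQ T = true) (hpp : QuadChecked K true true)
    (hpm : QuadChecked K true false) (hmp : QuadChecked K false true)
    (hmm : QuadChecked K false false) :
    Merge (psiT K.den K.pp) (psiT K.den K.p0) (psiT K.den K.pY) (lamR K.lamA) (lamR K.lamB)
      ((K.tn : ℝ) / K.den) :=
  fun _ _ ha hb => kstep_real hwf hq hpp hpm hmp hmm ha hb

lemma t_pos {K : KCfg} (h1 : 0 < K.tn) (h2 : 0 < K.den) : 0 < (K.tn : ℝ) / K.den := by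
  have a1 : (0 : ℝ) < K.tn := by exact_mod_cast h1
  have a2 : (0 : ℝ) < K.den := by exact_mod_cast h2
  positivity

lemma Merge.drop {ψp ψ0 Y : Tp → ℝ} {la lb t : ℝ} (h : Merge ψp ψ0 Y la lb t) (ht : 0 ≤ t) :
    Merge ψp ψ0 Y la lb 0 := by
  intro a b ha hb
  have := h a b ha hb
  have h2 : 0 ≤ t * (p2T a * p2T b) := mul_nonneg ht (mul_nonneg (p2T_nonneg a) (p2T_nonneg b))
  linarith

lemma Merge.la_one {ψp ψ0 Y : Tp → ℝ} {l : ℕ × ℕ} {lb t : ℝ} (h : Merge ψp ψ0 Y (lamR l) lb t)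
    (hl : l.1 = l.2) (hl0 : 0 < l.2) : Merge ψp ψ0 Y 1 lb t := by
  have e : lamR l = 1 := by
    unfold lamR
    rw [hl]
    have : (l.2 : ℝ) ≠ 0 := by positivity
    exact div_self this
  rwa [e] at h

lemma lam_le_of {D lam lb : ℝ} (hD : 0 < D) (hlb : 0 ≤ lb) (h : D * lam ^ 2 ≤ 1) (hl : 1 ≤ D * lb ^ 2) :
    lam ≤ lb := by
  by_contra hc
  have hc' : lb < lam := not_le.mp hc
  have : lb ^ 2 < lam ^ 2 := by nlinarith
  have := mul_lt_mul_of_pos_left this hD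
  linarith

/-- Stationary form of the chain, used for large degrees. -/
theorem tendsto_stationary (k : ℕ) {Y ψ : Tp → ℝ} {lb t : ℝ} (hlb0 : 0 ≤ lb) (hlb : lb < 1) (ht : 0 < t)
    (hM : Merge ψ ψ Y 1 lb t)
    (hdom : ∀ c, ∀ s, 0 ≤ s → s ≤ lb → Y (scale s c) ≤ s ^ 2 * ψ c)
    (hge : ∀ c, p2T c ≤ ψ c) (hzero : ψ ⟨0, 0, 0⟩ = 0)
    (hinv : ∀ b : Tp, ψ b.r1 = ψ b ∧ ψ b.r2 = ψ b ∧ ψ b.r3 = ψ b ∧ ψ b.r4 = ψ b ∧ ψ b.r5 = ψ b)
    {lam : ℝ} (hl0 : 0 ≤ lam) (hl : lam ≤ lb) (hd : ((k : ℝ) + 2) * lam ^ 2 ≤ 1) :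
    Tendsto (reconDist 3 (k + 2) lam) atTop (𝓝 0) := by
  -- the potential of one child against the potential `Y`
  have hle : ∀ b, InSx lb b → ψ b ≤ Y b := by
    intro b hb
    have h0 : InSx 1 (⟨0, 0, 0⟩ : Tp) :=
      ⟨by simp [Tp.ZS], by norm_num, by norm_num, by norm_num⟩
    have key := hM ⟨0, 0, 0⟩ b h0 hb
    have hs : ∀ b' : Tp, b'.ZS → sF ⟨0, 0, 0⟩ b' = 0 ∧ wF ⟨0, 0, 0⟩ b' = b' := by
      intro b' hb'
      have e : sF ⟨0, 0, 0⟩ b' = 0 := by simp [sF]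
      refine ⟨e, ?_⟩
      simp only [wF, cF, e]
      ext <;> simp
    have hz := hb.zs
    simp only [avg6] at key
    rw [(hs b hz).1, (hs b hz).2, (hs _ (ZS_r1 hz)).1, (hs _ (ZS_r1 hz)).2, (hs _ (ZS_r2 hz)).1,
      (hs _ (ZS_r2 hz)).2, (hs _ (ZS_r3 hz)).1, (hs _ (ZS_r3 hz)).2, (hs _ (ZS_r4 hz)).1,
      (hs _ (ZS_r4 hz)).2, (hs _ (ZS_r5 hz)).1, (hs _ (ZS_r5 hz)).2] at key
    obtain ⟨i1, i2, i3, i4, i5⟩ := hinv b
    rw [i1, i2, i3, i4, i5, hzero] at key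
    have hp : p2T (⟨0, 0, 0⟩ : Tp) = 0 := by simp [p2T]
    rw [hp] at key
    simp only [mul_zero, zero_mul, sub_zero, zero_add] at key
    linarith
  set pot : ℕ → Tp → ℝ := fun j => if j = 0 then Y else ψ with hpot
  have h1 : Merge (pot 1) (pot 0) (pot 0) lb lb t := by
    intro a b ha hb
    have := hM a b (ha.mono (le_of_lt hlb)) hb
    have h2 := hle a ha
    simp only [hpot, if_true, one_ne_zero, if_false]
    linarith
  refine tendsto_of_chain k (pot := pot) hlb0 hlb ht h1 ?_ ?_ ?_ hl0 hl hd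
  · intro j hj _
    have e1 : pot j = ψ := by simp only [hpot]; rw [if_neg (by omega)]
    have e2 : pot (j + 1) = ψ := by simp only [hpot]; rw [if_neg (by omega)]
    have e3 : pot 0 = Y := by simp [hpot]
    rw [e1, e2, e3]
    exact hM.drop ht.le
  · intro c _ s hs0 hs1
    have e2 : pot (k + 1) = ψ := by simp only [hpot]; rw [if_neg (by omega)]
    have e3 : pot 0 = Y := by simp [hpot]
    rw [e2, e3]
    exact hdom c s hs0 hs1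
  · intro c
    have e2 : pot (k + 1) = ψ := by simp only [hpot]; rw [if_neg (by omega)]
    rw [e2]
    exact hge c

end Vale.Agent.Lib.P154
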