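import Vale.Agent.Lib.P154.SemRun

/-! The passes on a general axis of a layout. -/

namespace Vale.Agent.Lib.P154

open List

def deg (ns : List ℕ) (j : ℕ) : ℕ := ns.getD j 0

def envMap (f : ℝ × ℝ → ℝ × ℝ) : ℕ → List (ℝ × ℝ) → List (ℝ × ℝ)
  | _, [] => []
  | 0, e :: es => f e :: es
  | j + 1, e :: es => e :: envMap f j es

@[simp] lemma length_envMap (f : ℝ × ℝ → ℝ × ℝ) (j : ℕ) (env : List (ℝ × ℝ)) :
    (envMap f j env).length = env.length := by
  induction env generalizing j with
  | nil => cases j <;> rfl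
  | cons e es ih =>
    cases j with
    | zero => rfl
    | succ j => simp [envMap, ih]

noncomputable def fR (e : ℝ × ℝ) : ℝ × ℝ := (2 * e.1 + e.2, e.2)
noncomputable def fL (κ : ℕ) (e : ℝ × ℝ) : ℝ × ℝ := (e.1, e.1 + (1 + (κ : ℝ)) * e.2)

/-- What is needed of one mask pair of a right pass. -/
structure PR (W : ℕ) (ns : List ℕ) (sh : ℕ) (m : ℕ × ℕ) : Prop where
  h1 : m.1 < 2 ^ (W * sz ns)
  h2 : m.2 < 2 ^ (W * sz ns - sh)
  hf : ∀ T r, 2 ≤ r → r ≤ W → Fits W ns r T → Fits W ns (r - 2) (passR sh m T)

/-- What is needed of one mask pair of a left pass. -/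
structure PL (W : ℕ) (ns : List ℕ) (sh : ℕ) (m : ℕ × ℕ) : Prop where
  h1 : m.1 < 2 ^ (W * sz ns)
  h2 : m.2 < 2 ^ (W * sz ns)
  low : LowZero sh m.2
  hf : ∀ T r, 2 ≤ r → r ≤ W → Fits W ns r T → Fits W ns (r - 2) (passL sh m T)

lemma rep_lt' {b u M : ℕ} (hu : u ≤ b) (hM : M < 2 ^ (b - u)) (n : ℕ) :
    rep b M n < 2 ^ (b * (n + 1) - u) := by
  induction n with
  | zero => simpa [rep] using hM
  | succ n ih =>
    rw [rep]
    have hM' : M < 2 ^ b := lt_of_lt_of_le hM (Nat.pow_le_pow_right (by norm_num) (by omega))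
    have e : b * (n + 1 + 1) - u = b + (b * (n + 1) - u) := by
      have : b * (n + 1 + 1) = b * (n + 1) + b := by ring
      have h2 : u ≤ b * (n + 1) := by nlinarith
      omega
    rw [e, pow_add]
    have h1 : rep b M n + 1 ≤ 2 ^ (b * (n + 1) - u) := ih
    calc M + 2 ^ b * rep b M n < 2 ^ b + 2 ^ b * rep b M n := by omega
      _ = 2 ^ b * (rep b M n + 1) := by ring
      _ ≤ 2 ^ b * 2 ^ (b * (n + 1) - u) := Nat.mul_le_mul_left _ h1

lemma passR_lift {b sh n : ℕ} {m : ℕ × ℕ} (hsh : sh ≤ b) (h1 : m.1 < 2 ^ b) (h2 : m.2 < 2 ^ (b - sh))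
    {l : List ℕ} (hl : l.length = n + 1) (h : ∀ x ∈ l, x < 2 ^ b) :
    passR sh (liftPair b n m) (enc b l) = enc b (l.map (passR sh m)) := by
  simp only [passR, liftPair]
  rw [enc_land_rep h1 n hl h, enc_shr_land hsh h2 n hl h]
  have e : enc b l = enc b (l.map (fun x => x)) := by simp
  rw [e, enc_map_add, enc_map_add]
  rfl

lemma passL_lift {b sh n : ℕ} {m : ℕ × ℕ} (hsh : sh ≤ b) (h1 : m.1 < 2 ^ b) (h2 : m.2 < 2 ^ b)
    (hlow : LowZero sh m.2) {l : List ℕ} (hl : l.length = n + 1) (h : ∀ x ∈ l, x < 2 ^ b) :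
    passL sh (liftPair b n m) (enc b l) = enc b (l.map (passL sh m)) := by
  simp only [passL, liftPair]
  rw [enc_land_rep h1 n hl h, enc_shl_land hsh h2 hlow n hl h]
  have e : enc b l = enc b (l.map (fun x => x)) := by simp
  rw [e, enc_map_add, enc_map_add]
  rfl

lemma PR.lift {W n : ℕ} {ns : List ℕ} {sh : ℕ} {m : ℕ × ℕ} (hsh : sh ≤ W * sz ns) (h : PR W ns sh m) :
    PR W (n :: ns) sh (liftPair (W * sz ns) n m) := by
  have e : W * sz (n :: ns) = W * sz ns * (n + 1) := by simp only [sz_cons]; ring
  refine ⟨?_, ?_, ?_⟩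
  · rw [e]; exact rep_lt h.h1 n
  · rw [e]; exact rep_lt' hsh h.h2 n
  · intro T r hr hrW hT
    obtain ⟨l, hl, hS, rfl⟩ := hT
    have h1 : ∀ x ∈ l, x < 2 ^ (W * sz ns) := fun x hx => fits_lt (hS x hx)
    rw [passR_lift hsh h.h1 h.h2 hl h1]
    refine ⟨l.map (passR sh m), by simp [hl], ?_, rfl⟩
    intro S hS'
    obtain ⟨a, ha, rfl⟩ := List.mem_map.mp hS'
    exact h.hf a r hr hrW (hS a ha)

lemma PL.lift {W n : ℕ} {ns : List ℕ} {sh : ℕ} {m : ℕ × ℕ} (hsh : sh ≤ W * sz ns) (h : PL W ns sh m) :
    PL W (n :: ns) sh (liftPair (W * sz ns) n m) := by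
  have e : W * sz (n :: ns) = W * sz ns * (n + 1) := by simp only [sz_cons]; ring
  refine ⟨?_, ?_, ?_, ?_⟩
  · rw [e]; exact rep_lt h.h1 n
  · rw [e]; exact rep_lt h.h2 n
  · exact lowZero_rep hsh h.low h.h2 n
  · intro T r hr hrW hT
    obtain ⟨l, hl, hS, rfl⟩ := hT
    have h1 : ∀ x ∈ l, x < 2 ^ (W * sz ns) := fun x hx => fits_lt (hS x hx)
    rw [passL_lift hsh h.h1 h.h2 h.low hl h1]
    refine ⟨l.map (passL sh m), by simp [hl], ?_, rfl⟩
    intro S hS'
    obtain ⟨a, ha, rfl⟩ := List.mem_map.mp hS'
    exact h.hf a r hr hrW (hS a ha)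

lemma runR_fits {W : ℕ} {ns : List ℕ} {sh : ℕ} :
    ∀ (ms : List (ℕ × ℕ)), (∀ m ∈ ms, PR W ns sh m) → ∀ (T r : ℕ), 2 * ms.length ≤ r → r ≤ W →
      Fits W ns r T → Fits W ns (r - 2 * ms.length) (runR sh ms T) := by
  intro ms
  induction ms with
  | nil => intro _ T r _ _ h; simpa [runR] using h
  | cons m ms ih =>
    intro hm T r hk hW hT
    simp only [List.length_cons] at hk ⊢
    simp only [runR]
    have h1 := ih (fun x hx => hm x (by simp [hx])) T r (by omega) hW hT
    have h2 := (hm m (by simp)).hf _ (r - 2 * ms.length) (by omega) (by omega) h1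
    have e : r - 2 * ms.length - 2 = r - 2 * (ms.length + 1) := by omega
    rwa [e] at h2

lemma runL_fits {W : ℕ} {ns : List ℕ} {sh : ℕ} :
    ∀ (ms : List (ℕ × ℕ)), (∀ m ∈ ms, PL W ns sh m) → ∀ (T r : ℕ), 2 * ms.length ≤ r → r ≤ W →
      Fits W ns r T → Fits W ns (r - 2 * ms.length) (runL sh ms T) := by
  intro ms
  induction ms with
  | nil => intro _ T r _ _ h; simpa [runL] using h
  | cons m ms ih =>
    intro hm T r hk hW hT
    simp only [List.length_cons] at hk ⊢
    simp only [runL]
    have h1 := (hm m (by simp)).hf _ r (by omega) hW hT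
    have h2 := ih (fun x hx => hm x (by simp [hx])) _ (r - 2) (by omega) (by omega) h1
    have e : r - 2 - 2 * ms.length = r - 2 * (ms.length + 1) := by omega
    rwa [e] at h2

lemma runR_lift {W n : ℕ} {ns : List ℕ} {sh : ℕ} (hsh : sh ≤ W * sz ns) {l : List ℕ}
    (hl : l.length = n + 1) {r : ℕ} (hrW : r ≤ W) (hS : ∀ S ∈ l, Fits W ns r S) :
    ∀ (ms : List (ℕ × ℕ)), (∀ m ∈ ms, PR W ns sh m) → 2 * ms.length ≤ r →
      runR sh (ms.map (liftPair (W * sz ns) n)) (enc (W * sz ns) l) =
        enc (W * sz ns) (l.map (runR sh ms)) := by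
  intro ms
  induction ms with
  | nil => intro _ _; simp [runR]
  | cons m ms ih =>
    intro hm hk
    simp only [List.length_cons] at hk
    simp only [List.map_cons, runR]
    rw [ih (fun x hx => hm x (by simp [hx])) (by omega)]
    have hmm := hm m (by simp)
    rw [passR_lift hsh hmm.h1 hmm.h2 (by simp [hl]) ?_]
    · simp [List.map_map, Function.comp_def]
    · intro x hx
      obtain ⟨a, ha, rfl⟩ := List.mem_map.mp hx
      exact fits_lt (runR_fits ms (fun x hx => hm x (by simp [hx])) a r (by omega) hrW (hS a ha))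

lemma runL_lift {W n : ℕ} {ns : List ℕ} {sh : ℕ} (hsh : sh ≤ W * sz ns) :
    ∀ (ms : List (ℕ × ℕ)), (∀ m ∈ ms, PL W ns sh m) → ∀ (l : List ℕ) (r : ℕ),
      l.length = n + 1 → r ≤ W → (∀ S ∈ l, Fits W ns r S) → 2 * ms.length ≤ r →
      runL sh (ms.map (liftPair (W * sz ns) n)) (enc (W * sz ns) l) =
        enc (W * sz ns) (l.map (runL sh ms)) := by
  intro ms
  induction ms with
  | nil => intro _ l r _ _ _ _; simp [runL]
  | cons m ms ih =>
    intro hm l r hl hrW hS hk
    simp only [List.length_cons] at hk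
    simp only [List.map_cons, runL]
    have hmm := hm m (by simp)
    have h1 : ∀ x ∈ l, x < 2 ^ (W * sz ns) := fun x hx => fits_lt (hS x hx)
    rw [passL_lift hsh hmm.h1 hmm.h2 hmm.low hl h1]
    rw [ih (fun x hx => hm x (by simp [hx])) (l.map (passL sh m)) (r - 2) (by simp [hl]) (by omega)
      ?_ (by omega)]
    · simp [List.map_map, Function.comp_def]
    · intro x hx
      obtain ⟨a, ha, rfl⟩ := List.mem_map.mp hx
      exact hmm.hf a r (by omega) hrW (hS a ha)

/-! ### Head axis masks -/

lemma mem_rmasks {b : ℕ} : ∀ (cnt a : ℕ) (m : ℕ × ℕ), m ∈ rmasks b a cnt →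
    ∃ a' k', m = ((2 ^ (b * (k' + 1)) - 1) * 2 ^ (b * (a' + 1)), (2 ^ (b * (k' + 1)) - 1) * 2 ^ (b * a'))
      ∧ a' + k' + 1 = a + cnt := by
  intro cnt
  induction cnt with
  | zero => intro a m h; simp [rmasks] at h
  | succ k ih =>
    intro a m h
    simp only [rmasks, List.mem_cons] at h
    rcases h with rfl | h
    · exact ⟨a, k, rfl, by omega⟩
    · obtain ⟨a', k', h1, h2⟩ := ih (a + 1) m h
      exact ⟨a', k', h1, by omega⟩

lemma length_rmasks (b cnt a : ℕ) : (rmasks b a cnt).length = cnt := by
  induction cnt generalizing a with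
  | zero => rfl
  | succ k ih => simp [rmasks, ih]

lemma mem_lmasks {b : ℕ} : ∀ (cnt i : ℕ) (m : ℕ × ℕ), m ∈ lmasks b i cnt →
    ∃ i', m = (2 ^ (b * i') - 1, (2 ^ (b * i') - 1) * 2 ^ b) ∧ i ≤ i' ∧ i' < i + cnt := by
  intro cnt
  induction cnt with
  | zero => intro i m h; simp [lmasks] at h
  | succ k ih =>
    intro i m h
    simp only [lmasks, List.mem_cons] at h
    rcases h with rfl | h
    · exact ⟨i, rfl, le_refl _, by omega⟩
    · obtain ⟨i', h1, h2, h3⟩ := ih (i + 1) m h
      exact ⟨i', h1, by omega, by omega⟩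

lemma length_lmasks (b cnt i : ℕ) : (lmasks b i cnt).length = cnt := by
  induction cnt generalizing i with
  | zero => rfl
  | succ k ih => simp [lmasks, ih]

lemma PR_head {W n : ℕ} {ns : List ℕ} {a k : ℕ} (hk : a + k + 1 = n) :
    PR W (n :: ns) (W * sz ns)
      ((2 ^ (W * sz ns * (k + 1)) - 1) * 2 ^ (W * sz ns * (a + 1)),
        (2 ^ (W * sz ns * (k + 1)) - 1) * 2 ^ (W * sz ns * a)) := by
  set b := W * sz ns with hb
  have e : W * sz (n :: ns) = b * (n + 1) := by simp only [sz_cons, hb]; ring
  have hp : ∀ u v : ℕ, (2 ^ u - 1) * 2 ^ v < 2 ^ (u + v) := by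
    intro u v
    rw [pow_add]
    have h1 : 0 < 2 ^ u := by positivity
    have h2 : 0 < 2 ^ v := by positivity
    exact Nat.mul_lt_mul_of_pos_right (by omega) h2
  refine ⟨?_, ?_, ?_⟩
  · rw [e]
    refine lt_of_lt_of_le (hp _ _) (Nat.pow_le_pow_right (by norm_num) (le_of_eq ?_))
    subst hk; ring
  · rw [e]
    refine lt_of_lt_of_le (hp _ _) (Nat.pow_le_pow_right (by norm_num) (le_of_eq ?_))
    subst hk
    have : b * (a + k + 1 + 1) - b = b * (a + k + 1) := by
      have : b * (a + k + 1 + 1) = b * (a + k + 1) + b := by ring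
      omega
    rw [this]; ring
  · intro T r hr hrW hT
    obtain ⟨l, hl, hS, rfl⟩ := hT
    obtain ⟨pre, c, g, rfl, hpre, hg⟩ := split_list (l := l) (a := a) (k := k + 1) (by omega)
    have hc : c < 2 ^ b := fits_lt (hS c (by simp))
    have hpreb : enc b pre < 2 ^ (b * a) := by
      have := enc_lt (b := b) (l := pre) (fun x hx => fits_lt (hS x (by simp [hx])))
      rwa [hpre] at this
    have hgb : enc b g < 2 ^ (b * (k + 1)) := by
      have := enc_lt (b := b) (l := g) (fun x hx => fits_lt (hS x (by simp [hx])))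
      rwa [hg] at this
    have hT' : enc b (pre ++ c :: g) = enc b pre + 2 ^ (b * a) * (c + 2 ^ b * enc b g) := by
      rw [enc_append, hpre]; rfl
    rw [hT', passR_head hpreb hc hgb]
    refine ⟨pre ++ mulLin c g, ?_, ?_, ?_⟩
    · simp [hpre, hg]; try omega
    · intro S hS'
      rcases List.mem_append.mp hS' with h1 | h1
      · exact fits_mono (by omega) (hS S (by simp [h1]))
      · exact mulLin_fits (by omega) hrW g c (fits_mono (by omega) (hS c (by simp)))
          (fun x hx => hS x (by simp [hx])) S h1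
    · rw [enc_append, hpre, enc_mulLin]

lemma PL_head {W n : ℕ} {ns : List ℕ} {κ i : ℕ} (hκ : κ ≤ 1) (hi : i ≤ n) :
    PL W (n :: ns) (W * sz ns)
      (selK κ (2 ^ (W * sz ns * i) - 1, (2 ^ (W * sz ns * i) - 1) * 2 ^ (W * sz ns))) := by
  set b := W * sz ns with hb
  have e : W * sz (n :: ns) = b * (n + 1) := by simp only [sz_cons, hb]; ring
  have hp : ∀ u : ℕ, 2 ^ u - 1 < 2 ^ u := by
    intro u
    have h1 : 0 < 2 ^ u := by positivity
    omega
  have hle : b * i ≤ b * (n + 1) := Nat.mul_le_mul_left _ (by omega)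
  have hle2 : b * i + b ≤ b * (n + 1) := by nlinarith
  refine ⟨?_, ?_, ?_, ?_⟩
  · rw [e]
    simp only [selK]
    calc κ * (2 ^ (b * i) - 1) ≤ 1 * (2 ^ (b * i) - 1) := Nat.mul_le_mul_right _ hκ
      _ = 2 ^ (b * i) - 1 := one_mul _
      _ < 2 ^ (b * i) := hp _
      _ ≤ 2 ^ (b * (n + 1)) := Nat.pow_le_pow_right (by norm_num) hle
  · rw [e]
    simp only [selK]
    calc (2 ^ (b * i) - 1) * 2 ^ b < 2 ^ (b * i) * 2 ^ b :=
          Nat.mul_lt_mul_of_pos_right (hp _) (by positivity)
      _ = 2 ^ (b * i + b) := by rw [pow_add]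
      _ ≤ 2 ^ (b * (n + 1)) := Nat.pow_le_pow_right (by norm_num) hle2
  · intro j hj
    simp only [selK]
    rw [mul_comm, Nat.testBit_two_pow_mul]
    simp only [Bool.and_eq_false_iff, decide_eq_false_iff_not]
    left; omega
  · intro T r hr hrW hT
    obtain ⟨l, hl, hS, rfl⟩ := hT
    obtain ⟨pre, c, g, rfl, hpre, hg⟩ := split_list (l := l) (a := i) (k := n - i) (by omega)
    have hpreb : enc b pre < 2 ^ (b * i) := by
      have := enc_lt (b := b) (l := pre) (fun x hx => fits_lt (hS x (by simp [hx])))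
      rwa [hpre] at this
    have hT' : enc b (pre ++ c :: g) = enc b pre + 2 ^ (b * i) * enc b (c :: g) := by
      rw [enc_append, hpre]
    rw [hT', passL_head hκ hpreb]
    refine ⟨stepL κ 0 pre c ++ g, ?_, ?_, ?_⟩
    · simp [hpre, hg]; omega
    · intro S hS'
      rcases List.mem_append.mp hS' with h1 | h1
      · exact stepL_fits hκ hr hrW (hS c (by simp)) pre 0 (fits_zero W ns r)
          (fun x hx => hS x (by simp [hx])) S h1
      · exact fits_mono (by omega) (hS S (by simp [h1]))
    · rw [enc_append, enc_stepL, length_stepL, hpre]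
      have : 2 ^ (b * (i + 1)) = 2 ^ b * 2 ^ (b * i) := by rw [← pow_add]; congr 1; ring
      rw [this]
      simp only [enc_cons]
      ring

/-! ### The axes of a layout -/

lemma rep_smul (b k M n : ℕ) : rep b (k * M) n = k * rep b M n := by
  induction n with
  | zero => rfl
  | succ n ih => simp only [rep, ih]; ring

lemma selK_lift (κ b n : ℕ) (m : ℕ × ℕ) :
    selK κ (liftPair b n m) = liftPair b n (selK κ m) := by
  simp [selK, liftPair, rep_smul]

theorem axis_sh (W : ℕ) : ∀ (ns : List ℕ) (j : ℕ), j < ns.length →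
    (axisOf W ns j).sh ≤ W * sz ns := by
  intro ns
  induction ns with
  | nil => intro j h; simp at h
  | cons n ns ih =>
    intro j hj
    have e : W * sz (n :: ns) = W * sz ns * (n + 1) := by simp only [sz_cons]; ring
    rw [e]
    cases j with
    | zero => simp only [axisOf]; nlinarith [Nat.zero_le (W * sz ns), Nat.zero_le n]
    | succ j =>
      simp only [axisOf]
      have := ih j (by simpa using hj)
      nlinarith [Nat.zero_le (W * sz ns), Nat.zero_le n]

theorem axis_PR (W : ℕ) : ∀ (ns : List ℕ) (j : ℕ), j < ns.length →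
    (∀ m ∈ (axisOf W ns j).rp, PR W ns (axisOf W ns j).sh m) ∧ (axisOf W ns j).rp.length = deg ns j := by
  intro ns
  induction ns with
  | nil => intro j h; simp at h
  | cons n ns ih =>
    intro j hj
    cases j with
    | zero =>
      simp only [axisOf]
      refine ⟨?_, by simp [length_rmasks, deg]⟩
      intro m hm
      obtain ⟨a', k', rfl, h2⟩ := mem_rmasks n 0 m hm
      exact PR_head (by omega)
    | succ j =>
      obtain ⟨h1, h2⟩ := ih j (by simpa using hj)
      simp only [axisOf]
      refine ⟨?_, by simpa [deg] using h2⟩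
      intro m hm
      obtain ⟨m', hm', rfl⟩ := List.mem_map.mp hm
      exact (h1 m' hm').lift (axis_sh W ns j (by simpa using hj))

theorem axis_PL (W κ : ℕ) (hκ : κ ≤ 1) : ∀ (ns : List ℕ) (j : ℕ), j < ns.length →
    (∀ m ∈ (axisOf W ns j).lp.map (selK κ), PL W ns (axisOf W ns j).sh m) ∧
      (axisOf W ns j).lp.length = deg ns j := by
  intro ns
  induction ns with
  | nil => intro j h; simp at h
  | cons n ns ih =>
    intro j hj
    cases j with
    | zero =>
      simp only [axisOf]
      refine ⟨?_, by simp [length_lmasks, deg]⟩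
      intro m hm
      obtain ⟨m', hm', rfl⟩ := List.mem_map.mp hm
      obtain ⟨i', rfl, h2, h3⟩ := mem_lmasks n 1 m' hm'
      exact PL_head hκ (by omega)
    | succ j =>
      obtain ⟨h1, h2⟩ := ih j (by simpa using hj)
      simp only [axisOf]
      refine ⟨?_, by simpa [deg] using h2⟩
      intro m hm
      obtain ⟨m', hm', rfl⟩ := List.mem_map.mp hm
      obtain ⟨m'', hm'', rfl⟩ := List.mem_map.mp hm'
      rw [selK_lift]
      exact (h1 _ (List.mem_map_of_mem hm'')).lift (axis_sh W ns j (by simpa using hj))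

theorem val_runR (W : ℕ) : ∀ (ns : List ℕ) (j : ℕ), j < ns.length →
    ∀ (T r : ℕ) (env : List (ℝ × ℝ)), Fits W ns r T → 2 * deg ns j ≤ r → r ≤ W →
      env.length = ns.length →
      val W ns (runR (axisOf W ns j).sh (axisOf W ns j).rp T) env =
        val W ns T (envMap fR j env) := by
  intro ns
  induction ns with
  | nil => intro j h; simp at h
  | cons n ns ih =>
    intro j hj T r env hT hr hrW henv
    cases env with
    | nil => simp at henv
    | cons e env =>
      have henv' : env.length = ns.length := by simpa using henv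
      cases j with
      | zero =>
        simp only [deg, List.getD_cons_zero] at hr
        obtain ⟨l, hl, hS, rfl⟩ := hT
        simp only [axisOf]
        set b := W * sz ns with hb
        have hb0 := runR_head b l n 0 0 hl (by simp) (fun x hx => fits_lt (hS x hx))
          (RR_suffix_fits hrW l n hl hr hS)
        simp only [mul_zero, pow_zero, one_mul, zero_add] at hb0
        rw [hb0, val_cons_enc (n := n) e env (by simp [hl]) (fun x hx =>
          fits_lt (RR_fits hrW l n hl hr hS x hx)), hom_RR hrW e.1 e.2 env l n hl hr hS]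
        simp only [envMap]
        rw [val_cons_enc (n := n) (fR e) env hl (fun x hx => fits_lt (hS x hx))]
        rfl
      | succ j =>
        have hj' : j < ns.length := by simpa using hj
        have hr' : 2 * deg ns j ≤ r := by simpa [deg] using hr
        obtain ⟨h1, h2⟩ := axis_PR W ns j hj'
        have hsh := axis_sh W ns j hj'
        obtain ⟨l, hl, hS, rfl⟩ := hT
        simp only [axisOf]
        rw [runR_lift hsh hl hrW hS _ h1 (by omega)]
        rw [val_cons_enc (n := n) e env (by simp [hl]) ?_]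
        · simp only [envMap]
          rw [val_cons_enc (n := n) e (envMap fR j env) hl (fun x hx => fits_lt (hS x hx))]
          rw [List.map_map]
          congr 1
          apply List.map_congr_left
          intro S hS'
          exact ih j hj' S r env (hS S hS') hr' hrW henv'
        · intro x hx
          obtain ⟨a, ha, rfl⟩ := List.mem_map.mp hx
          exact fits_lt (runR_fits _ h1 a r (by omega) hrW (hS a ha))

theorem val_runL (W κ : ℕ) (hκ : κ ≤ 1) : ∀ (ns : List ℕ) (j : ℕ), j < ns.length →
    ∀ (T r : ℕ) (env : List (ℝ × ℝ)), Fits W ns r T → 2 * deg ns j ≤ r → r ≤ W →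
      env.length = ns.length →
      val W ns (runL (axisOf W ns j).sh ((axisOf W ns j).lp.map (selK κ)) T) env =
        val W ns T (envMap (fL κ) j env) := by
  intro ns
  induction ns with
  | nil => intro j h; simp at h
  | cons n ns ih =>
    intro j hj T r env hT hr hrW henv
    cases env with
    | nil => simp at henv
    | cons e env =>
      have henv' : env.length = ns.length := by simpa using henv
      cases j with
      | zero =>
        simp only [deg, List.getD_cons_zero] at hr
        obtain ⟨l, hl, hS, rfl⟩ := hT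
        simp only [axisOf]
        set b := W * sz ns with hb
        match l, hl, hS with
        | c0 :: rest, hl, hS =>
          have hrest : rest.length = n := by simpa using hl
          have hps : ∀ S ∈ [c0], Fits W ns r S := by
            intro S hS'
            rw [List.mem_singleton] at hS'
            subst hS'
            exact hS _ (by simp)
          have hrs : ∀ S ∈ rest, Fits W ns r S := fun S hS' => hS S (by simp [hS'])
          have hb0 := runL_head b κ hκ rest [c0] (by
              intro ds hds S hS'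
              have hlen : ds.length ≤ rest.length := hds.length_le
              exact fits_lt (LL_fits hκ ds [c0] r (by omega) hrW
                (fun x hx => hrs x (hds.subset hx)) hps S hS'))
            (fun x hx => fits_lt (hps x hx))
          simp only [List.length_cons, List.length_nil, zero_add, mul_one, hrest] at hb0
          have hb1 : enc b [c0] + 2 ^ b * enc b rest = enc b (c0 :: rest) := by simp
          rw [hb1] at hb0
          rw [hb0]
          have hfit := LL_fits hκ rest [c0] r (by omega) hrW hrs hps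
          rw [val_cons_enc (n := n) e env (by simp [hrest, add_comm]) (fun x hx => fits_lt (hfit x hx))]
          rw [hom_LL hκ e.1 e.2 env rest [c0] [c0] r (by omega) hrW rfl hrs hps rfl]
          simp only [envMap]
          rw [val_cons_enc (n := n) (fL κ e) env hl (fun x hx => fits_lt (hS x hx))]
          rfl
      | succ j =>
        have hj' : j < ns.length := by simpa using hj
        have hr' : 2 * deg ns j ≤ r := by simpa [deg] using hr
        obtain ⟨h1, h2⟩ := axis_PL W κ hκ ns j hj'
        have hsh := axis_sh W ns j hj'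
        have hlen : ((axisOf W ns j).lp.map (selK κ)).length = deg ns j := by simpa using h2
        obtain ⟨l, hl, hS, rfl⟩ := hT
        simp only [axisOf]
        have e1 : ((axisOf W ns j).lp.map (liftPair (W * sz ns) n)).map (selK κ) =
            ((axisOf W ns j).lp.map (selK κ)).map (liftPair (W * sz ns) n) := by
          simp [List.map_map, Function.comp_def, selK_lift]
        rw [e1, runL_lift hsh _ h1 l r hl hrW hS (by omega)]
        rw [val_cons_enc (n := n) e env (by simp [hl]) ?_]
        · simp only [envMap]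
          rw [val_cons_enc (n := n) e (envMap (fL κ) j env) hl (fun x hx => fits_lt (hS x hx))]
          rw [List.map_map]
          congr 1
          apply List.map_congr_left
          intro S hS'
          exact ih j hj' S r env (hS S hS') hr' hrW henv'
        · intro x hx
          obtain ⟨a, ha, rfl⟩ := List.mem_map.mp hx
          exact fits_lt (runL_fits _ h1 a r (by omega) hrW (hS a ha))

end Vale.Agent.Lib.P154
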