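import Mathlib
import Vale.Agent.Lib.P154.Checker

/-! Bit level facts about digit expansions in base `2 ^ b`. -/

namespace Vale.Agent.Lib.P154

open List

/-- Little endian expansion in base `2 ^ b`. -/
def enc (b : ℕ) : List ℕ → ℕ
  | [] => 0
  | c :: cs => c + 2 ^ b * enc b cs

@[simp] lemma enc_nil (b : ℕ) : enc b [] = 0 := rfl
@[simp] lemma enc_cons (b c : ℕ) (cs : List ℕ) : enc b (c :: cs) = c + 2 ^ b * enc b cs := rfl

lemma encI_eq (W : ℕ) (l : List ℕ) : encI W l = enc W l := by
  induction l with
  | nil => rfl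
  | cons c cs ih => simp [encI, ih]

lemma enc_lt {b : ℕ} {l : List ℕ} (h : ∀ x ∈ l, x < 2 ^ b) : enc b l < 2 ^ (b * l.length) := by
  induction l with
  | nil => simp
  | cons c cs ih =>
    have hc : c < 2 ^ b := h c (by simp)
    have hcs := ih (fun x hx => h x (by simp [hx]))
    simp only [enc_cons, List.length_cons]
    have : 2 ^ (b * (cs.length + 1)) = 2 ^ b * 2 ^ (b * cs.length) := by
      rw [← pow_add]; congr 1; ring
    rw [this]
    have h1 : enc b cs + 1 ≤ 2 ^ (b * cs.length) := hcs
    calc c + 2 ^ b * enc b cs < 2 ^ b + 2 ^ b * enc b cs := by omega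
      _ = 2 ^ b * (enc b cs + 1) := by ring
      _ ≤ 2 ^ b * 2 ^ (b * cs.length) := Nat.mul_le_mul_left _ h1

lemma land_cons {b c d t u : ℕ} (hc : c < 2 ^ b) (hd : d < 2 ^ b) :
    (c + 2 ^ b * t) &&& (d + 2 ^ b * u) = (c &&& d) + 2 ^ b * (t &&& u) := by
  apply Nat.eq_of_testBit_eq
  intro j
  have hcd : c &&& d < 2 ^ b := lt_of_le_of_lt Nat.and_le_left hc
  rw [Nat.testBit_and, add_comm c, add_comm d, add_comm (c &&& d),
    Nat.testBit_two_pow_mul_add _ hc, Nat.testBit_two_pow_mul_add _ hd,
    Nat.testBit_two_pow_mul_add _ hcd]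
  by_cases hj : j < b
  · simp [hj]
  · simp [hj]

lemma rep_eq_enc (b M n : ℕ) : rep b M n = enc b (List.replicate (n + 1) M) := by
  induction n with
  | zero => simp [rep, enc]
  | succ n ih =>
    rw [rep, ih, List.replicate_succ (n := n + 1)]
    rfl

lemma rep_lt {b M : ℕ} (hM : M < 2 ^ b) (n : ℕ) : rep b M n < 2 ^ (b * (n + 1)) := by
  rw [rep_eq_enc]
  have := enc_lt (b := b) (l := List.replicate (n + 1) M) (by
    intro x hx; rw [List.eq_of_mem_replicate hx]; exact hM)
  simpa using this

lemma enc_map_add (b : ℕ) (l : List ℕ) (f g : ℕ → ℕ) :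
    enc b (l.map f) + enc b (l.map g) = enc b (l.map (fun x => f x + g x)) := by
  induction l with
  | nil => simp
  | cons c cs ih =>
    simp only [List.map_cons, enc_cons, ← ih]
    ring

lemma enc_map_id (b : ℕ) (l : List ℕ) : enc b (l.map (fun x => x)) = enc b l := by simp

lemma enc_land_rep {b M : ℕ} (hM : M < 2 ^ b) {l : List ℕ} (n : ℕ) (hl : l.length = n + 1)
    (h : ∀ x ∈ l, x < 2 ^ b) :
    enc b l &&& rep b M n = enc b (l.map (fun x => x &&& M)) := by
  induction n generalizing l with
  | zero =>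
    match l, hl with
    | [c], _ =>
      simp [enc, rep]
  | succ n ih =>
    match l, hl with
    | c :: cs, hl =>
      have hcs : cs.length = n + 1 := by simpa using hl
      simp only [enc_cons, rep, List.map_cons]
      rw [land_cons (h c (by simp)) hM, ih hcs (fun x hx => h x (by simp [hx]))]

lemma enc_eq_zero {b : ℕ} {l : List ℕ} (h : enc b l = 0) : ∀ x ∈ l, x = 0 := by
  induction l with
  | nil => simp
  | cons c cs ih =>
    simp only [enc_cons] at h
    have h1 : c = 0 := by omega
    have h2 : 2 ^ b * enc b cs = 0 := by omega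
    have h3 : enc b cs = 0 := by
      rcases Nat.mul_eq_zero.mp h2 with h4 | h4
      · exact absurd h4 (by positivity)
      · exact h4
    intro x hx
    rcases List.mem_cons.mp hx with rfl | hx
    · exact h1
    · exact ih h3 x hx

lemma enc_inj {b : ℕ} {l m : List ℕ} (hlen : l.length = m.length)
    (hl : ∀ x ∈ l, x < 2 ^ b) (hm : ∀ x ∈ m, x < 2 ^ b) (h : enc b l = enc b m) : l = m := by
  induction l generalizing m with
  | nil =>
    cases m with
    | nil => rfl
    | cons d ds => simp at hlen
  | cons c cs ih =>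
    cases m with
    | nil => simp at hlen
    | cons d ds =>
      simp only [enc_cons] at h
      have hc : c < 2 ^ b := hl c (by simp)
      have hd : d < 2 ^ b := hm d (by simp)
      have hp : 0 < 2 ^ b := by positivity
      have h1 : c = d := by
        have := congrArg (· % 2 ^ b) h
        simpa [Nat.add_mul_mod_self_left, Nat.mod_eq_of_lt hc, Nat.mod_eq_of_lt hd] using this
      subst h1
      have h2 : enc b cs = enc b ds := by
        have : 2 ^ b * enc b cs = 2 ^ b * enc b ds := by omega
        exact Nat.eq_of_mul_eq_mul_left hp this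
      have := ih (by simpa using hlen) (fun x hx => hl x (by simp [hx]))
        (fun x hx => hm x (by simp [hx])) h2
      rw [this]

/-- Low bits and a field. -/
lemma land_range {e f Low G : ℕ} (hL : Low < 2 ^ e) (hG : G < 2 ^ f) :
    (Low + 2 ^ e * G) &&& ((2 ^ f - 1) * 2 ^ e) = 2 ^ e * G := by
  apply Nat.eq_of_testBit_eq
  intro j
  rw [Nat.testBit_and, add_comm Low, Nat.testBit_two_pow_mul_add _ hL, mul_comm (2 ^ f - 1),
    Nat.testBit_two_pow_mul, Nat.testBit_two_pow_mul, Nat.testBit_two_pow_sub_one]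
  by_cases hj : e ≤ j
  · have hj' : ¬ j < e := by omega
    simp only [hj, hj', if_false, decide_true, Bool.true_and]
    by_cases h2 : j - e < f
    · simp [h2]
    · simp [h2, Nat.testBit_lt_two_pow (lt_of_lt_of_le hG (Nat.pow_le_pow_right (by norm_num) (by omega : f ≤ j - e)))]
  · have hj' : j < e := by omega
    simp [hj]

lemma shr_land_cons {b u c E M R : ℕ} (hc : c < 2 ^ b) (hu : u ≤ b) (hM : M < 2 ^ (b - u)) :
    ((c + 2 ^ b * E) >>> u) &&& (M + 2 ^ b * R) = ((c >>> u) &&& M) + 2 ^ b * ((E >>> u) &&& R) := by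
  apply Nat.eq_of_testBit_eq
  intro j
  have hM' : M < 2 ^ b := lt_of_lt_of_le hM (Nat.pow_le_pow_right (by norm_num) (by omega))
  have hcd : (c >>> u) &&& M < 2 ^ b := lt_of_le_of_lt Nat.and_le_right hM'
  rw [Nat.testBit_and, Nat.testBit_shiftRight, add_comm c, add_comm M, add_comm ((c >>> u) &&& M),
    Nat.testBit_two_pow_mul_add _ hc, Nat.testBit_two_pow_mul_add _ hM',
    Nat.testBit_two_pow_mul_add _ hcd]
  by_cases hj : j < b
  · simp only [hj, if_true, Nat.testBit_and, Nat.testBit_shiftRight]
    by_cases h2 : u + j < b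
    · simp [h2]
    · have : M.testBit j = false :=
        Nat.testBit_lt_two_pow (lt_of_lt_of_le hM (Nat.pow_le_pow_right (by norm_num) (by omega)))
      simp [this]
  · have h2 : ¬ u + j < b := by omega
    simp only [hj, h2, if_false, Nat.testBit_and, Nat.testBit_shiftRight]
    have : u + j - b = u + (j - b) := by omega
    rw [this]

lemma enc_shr_land {b u M : ℕ} (hu : u ≤ b) (hM : M < 2 ^ (b - u)) {l : List ℕ} (n : ℕ)
    (hl : l.length = n + 1) (h : ∀ x ∈ l, x < 2 ^ b) :
    (enc b l >>> u) &&& rep b M n = enc b (l.map (fun x => (x >>> u) &&& M)) := by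
  induction n generalizing l with
  | zero =>
    match l, hl with
    | [c], _ => simp [enc, rep]
  | succ n ih =>
    match l, hl with
    | c :: cs, hl =>
      have hcs : cs.length = n + 1 := by simpa using hl
      simp only [enc_cons, rep, List.map_cons]
      rw [shr_land_cons (h c (by simp)) hu hM, ih hcs (fun x hx => h x (by simp [hx]))]

/-- `M` has its `u` lowest bits equal to zero. -/
def LowZero (u M : ℕ) : Prop := ∀ i, i < u → M.testBit i = false

lemma shl_land_cons {b u c E M R : ℕ} (hc : c < 2 ^ b) (hu : u ≤ b) (hM : M < 2 ^ b)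
    (hR : LowZero u R) :
    ((c + 2 ^ b * E) <<< u) &&& (M + 2 ^ b * R) = ((c <<< u) &&& M) + 2 ^ b * ((E <<< u) &&& R) := by
  apply Nat.eq_of_testBit_eq
  intro j
  have hcd : (c <<< u) &&& M < 2 ^ b := lt_of_le_of_lt Nat.and_le_right hM
  rw [Nat.testBit_and, Nat.testBit_shiftLeft, add_comm c, add_comm M, add_comm ((c <<< u) &&& M),
    Nat.testBit_two_pow_mul_add _ hM, Nat.testBit_two_pow_mul_add _ hcd]
  by_cases hj : j < b
  · simp only [hj, if_true, Nat.testBit_and, Nat.testBit_shiftLeft]
    by_cases h2 : u ≤ j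
    · have h3 : j - u < b := by omega
      rw [Nat.testBit_two_pow_mul_add _ hc]
      simp [h2, h3]
    · simp [h2]
  · simp only [hj, if_false, Nat.testBit_and, Nat.testBit_shiftLeft]
    have h2 : u ≤ j := by omega
    by_cases h3 : j - b < u
    · have := hR _ h3
      simp [this]
    · have h4 : ¬ j - u < b := by omega
      have h5 : u ≤ j - b := by omega
      rw [Nat.testBit_two_pow_mul_add _ hc]
      simp only [h2, h4, h5, if_false, decide_true, Bool.true_and]
      have : j - u - b = j - b - u := by omega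
      rw [this]

lemma lowZero_rep {u b M : ℕ} (hu : u ≤ b) (hM : LowZero u M) (hM' : M < 2 ^ b) (n : ℕ) :
    LowZero u (rep b M n) := by
  induction n with
  | zero => simpa [rep] using hM
  | succ n ih =>
    intro i hi
    rw [rep, add_comm, Nat.testBit_two_pow_mul_add _ hM']
    have : i < b := by omega
    simp [this, hM i hi]

lemma enc_shl_land {b u M : ℕ} (hu : u ≤ b) (hM : M < 2 ^ b) (hL : LowZero u M) {l : List ℕ} (n : ℕ)
    (hl : l.length = n + 1) (h : ∀ x ∈ l, x < 2 ^ b) :
    (enc b l <<< u) &&& rep b M n = enc b (l.map (fun x => (x <<< u) &&& M)) := by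
  induction n generalizing l with
  | zero =>
    match l, hl with
    | [c], _ => simp [enc, rep]
  | succ n ih =>
    match l, hl with
    | c :: cs, hl =>
      have hcs : cs.length = n + 1 := by simpa using hl
      simp only [enc_cons, rep, List.map_cons]
      rw [shl_land_cons (h c (by simp)) hu hM (lowZero_rep hu hL hM n), ih hcs (fun x hx => h x (by simp [hx]))]

lemma lor_land_zero {x y H : ℕ} (h : (x ||| y) &&& H = 0) : x &&& H = 0 ∧ y &&& H = 0 := by
  constructor
  · apply Nat.eq_of_testBit_eq
    intro j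
    have := congrArg (fun n => Nat.testBit n j) h
    simp only [Nat.testBit_and, Nat.testBit_or, Nat.zero_testBit] at this ⊢
    cases hx : x.testBit j <;> cases hy : y.testBit j <;> cases hH : H.testBit j <;> simp_all
  · apply Nat.eq_of_testBit_eq
    intro j
    have := congrArg (fun n => Nat.testBit n j) h
    simp only [Nat.testBit_and, Nat.testBit_or, Nat.zero_testBit] at this ⊢
    cases hx : x.testBit j <;> cases hy : y.testBit j <;> cases hH : H.testBit j <;> simp_all

lemma land_lt_of_lt {y e : ℕ} (h : y < 2 ^ e) : y &&& 2 ^ e = 0 := by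
  apply Nat.eq_of_testBit_eq
  intro j
  rw [Nat.testBit_and, Nat.testBit_two_pow]
  by_cases hj : e = j
  · subst hj
    simp [Nat.testBit_lt_two_pow h]
  · simp [hj]

/-- Splitting the digits of a number. -/
def slices (b : ℕ) : ℕ → ℕ → List ℕ
  | 0, _ => []
  | k + 1, T => (T % 2 ^ b) :: slices b k (T / 2 ^ b)

lemma slices_enc {b : ℕ} {l : List ℕ} (h : ∀ x ∈ l, x < 2 ^ b) :
    slices b l.length (enc b l) = l := by
  induction l with
  | nil => rfl
  | cons c cs ih =>
    have hc : c < 2 ^ b := h c (by simp)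
    have hp : 0 < 2 ^ b := by positivity
    simp only [List.length_cons, slices, enc_cons]
    have h1 : (c + 2 ^ b * enc b cs) % 2 ^ b = c := by
      rw [Nat.add_mul_mod_self_left, Nat.mod_eq_of_lt hc]
    have h2 : (c + 2 ^ b * enc b cs) / 2 ^ b = enc b cs := by
      rw [Nat.add_mul_div_left _ _ hp, Nat.div_eq_of_lt hc, zero_add]
    rw [h1, h2, ih (fun x hx => h x (by simp [hx]))]

end Vale.Agent.Lib.P154
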