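import Vale.Agent.Lib.P154.SemAxis

/-! Soundness of the subdivision check. -/

namespace Vale.Agent.Lib.P154

open List

/-! ### Headroom tests -/

lemma allDig_lt {W v : ℕ} (hv : v < 2 ^ W) (ns : List ℕ) : allDig W v ns < 2 ^ (W * sz ns) := by
  induction ns with
  | nil => simpa [allDig] using hv
  | cons n ns ih =>
    have e : W * sz (n :: ns) = W * sz ns * (n + 1) := by simp only [sz_cons]; ring
    rw [e]
    exact rep_lt ih n

lemma fits_of_land {W R : ℕ} (hR : R ≤ W) : ∀ (ns : List ℕ) (T : ℕ), Fits W ns 0 T →
    T &&& allDig W ((2 ^ R - 1) * 2 ^ (W - R)) ns = 0 → Fits W ns R T := by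
  have hv : (2 ^ R - 1) * 2 ^ (W - R) < 2 ^ W := by
    have e : 2 ^ W = 2 ^ R * 2 ^ (W - R) := by rw [← pow_add]; congr 1; omega
    rw [e]
    exact Nat.mul_lt_mul_of_pos_right (by have : 0 < 2 ^ R := by positivity
                                          omega) (by positivity)
  intro ns
  induction ns with
  | nil =>
    intro T hT h
    have hT' : T < 2 ^ W := by simpa using (show T < 2 ^ (W - 0) from hT)
    show T < 2 ^ (W - R)
    simp only [allDig] at h
    have hp : 0 < 2 ^ (W - R) := by positivity
    have hG : T / 2 ^ (W - R) < 2 ^ R := by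
      rw [Nat.div_lt_iff_lt_mul hp, ← pow_add]
      have : R + (W - R) = W := by omega
      rwa [this]
    have hT2 : T = T % 2 ^ (W - R) + 2 ^ (W - R) * (T / 2 ^ (W - R)) := (Nat.mod_add_div _ _).symm
    have h2 := land_range (Nat.mod_lt T hp) hG
    rw [← hT2, h] at h2
    have h3 : T / 2 ^ (W - R) = 0 := by
      rcases Nat.mul_eq_zero.mp h2.symm with h4 | h4
      · exact absurd h4 (by positivity)
      · exact h4
    exact (Nat.div_eq_zero_iff_lt hp).mp h3
  | cons n ns ih =>
    intro T hT h
    obtain ⟨l, hl, hS, rfl⟩ := hT
    simp only [allDig] at h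
    rw [enc_land_rep (allDig_lt hv ns) n hl (fun x hx => fits_lt (hS x hx))] at h
    refine ⟨l, hl, ?_, rfl⟩
    intro S hS'
    exact ih S (hS S hS') (enc_eq_zero h _ (List.mem_map_of_mem hS'))

/-! ### The leaf test -/

lemma val_mono_hom {x y : ℝ} (hx : 0 ≤ x) (hy : 0 ≤ y) {la lb : List ℝ}
    (h : List.Forall₂ (· ≤ ·) lb la) : hom x y lb ≤ hom x y la := by
  induction h with
  | nil => simp
  | @cons a b as bs hab _ ih =>
    simp only [hom_cons]
    have hlen : as.length = bs.length := by
      rename_i h'
      exact h'.length_eq
    rw [hlen]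
    have h1 := mul_le_mul_of_nonneg_right hab (pow_nonneg hy bs.length)
    have h2 := mul_le_mul_of_nonneg_left ih hx
    linarith

lemma fits1_le {W : ℕ} (hW : 1 ≤ W) : ∀ (ns : List ℕ) (T : ℕ), Fits W ns 1 T →
    T ≤ allDig W (2 ^ (W - 1)) ns := by
  intro ns
  induction ns with
  | nil =>
    intro T h
    exact le_of_lt h
  | cons n ns ih =>
    intro T h
    obtain ⟨l, hl, hS, rfl⟩ := h
    simp only [allDig]
    rw [rep_eq_enc]
    have aux : ∀ (l : List ℕ), (∀ S ∈ l, Fits W ns 1 S) →
        enc (W * sz ns) l ≤ enc (W * sz ns) (List.replicate l.length (allDig W (2 ^ (W - 1)) ns)) := by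
      intro l
      induction l with
      | nil => simp
      | cons c cs ihl =>
        intro h
        simp only [List.length_cons, List.replicate_succ, enc_cons]
        have h1 := ih c (h c (by simp))
        have h2 := ihl (fun x hx => h x (by simp [hx]))
        exact add_le_add h1 (Nat.mul_le_mul_left _ h2)
    have := aux l hS
    rwa [hl] at this

lemma add_H_lt {W : ℕ} (hW : 1 ≤ W) : ∀ (ns : List ℕ) (T : ℕ), Fits W ns 1 T →
    T + allDig W (2 ^ (W - 1)) ns < 2 ^ (W * sz ns) := by
  intro ns
  induction ns with
  | nil =>
    intro T h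
    have h' : T < 2 ^ (W - 1) := h
    simp only [allDig, sz_nil, mul_one]
    have e : 2 ^ W = 2 * 2 ^ (W - 1) := by
      rw [← pow_succ']; congr 1; omega
    omega
  | cons n ns ih =>
    intro T h
    obtain ⟨l, hl, hS, rfl⟩ := h
    simp only [allDig]
    have e : W * sz (n :: ns) = W * sz ns * (n + 1) := by simp only [sz_cons]; ring
    rw [e, rep_eq_enc]
    have aux : ∀ (l : List ℕ), (∀ S ∈ l, Fits W ns 1 S) →
        enc (W * sz ns) l + enc (W * sz ns) (List.replicate l.length (allDig W (2 ^ (W - 1)) ns)) <
          2 ^ (W * sz ns * l.length) := by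
      intro l hS
      rw [enc_zip_add _ (by simp)]
      have := enc_lt (b := W * sz ns)
        (l := List.zipWith (· + ·) l (List.replicate l.length (allDig W (2 ^ (W - 1)) ns))) (by
          intro x hx
          obtain ⟨a, ha, b, hb, rfl⟩ := mem_zip_add hx
          rw [List.eq_of_mem_replicate hb]
          exact ih a (hS a ha))
      simpa using this
    have := aux l hS
    rwa [hl] at this

/-- Digit wise differences. -/
def zipY (H : ℕ) : List ℕ → List ℕ → List ℕ
  | x :: xs, y :: ys => (x + H - y) :: zipY H xs ys
  | _, _ => []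

lemma zipY_add {b H : ℕ} : ∀ {la lb : List ℕ}, la.length = lb.length → (∀ y ∈ lb, y ≤ H) →
    enc b (zipY H la lb) + enc b lb = enc b la + enc b (List.replicate la.length H) := by
  intro la
  induction la with
  | nil =>
    intro lb h _
    cases lb with
    | nil => simp [zipY]
    | cons _ _ => simp at h
  | cons x xs ih =>
    intro lb h hy
    cases lb with
    | nil => simp at h
    | cons y ys =>
      have hys : xs.length = ys.length := by simpa using h
      have hyH : y ≤ H := hy y (by simp)
      simp only [zipY, enc_cons, List.length_cons, List.replicate_succ]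
      have := ih hys (fun z hz => hy z (by simp [hz]))
      have h2 : x + H - y + y = x + H := by omega
      calc x + H - y + 2 ^ b * enc b (zipY H xs ys) + (y + 2 ^ b * enc b ys)
          = (x + H - y + y) + 2 ^ b * (enc b (zipY H xs ys) + enc b ys) := by ring
        _ = x + H + 2 ^ b * (enc b xs + enc b (List.replicate xs.length H)) := by rw [h2, this]
        _ = _ := by ring

lemma leaf_aux {b H : ℕ} (hH : H < 2 ^ b) : ∀ {la lb : List ℕ} (n : ℕ), la.length = n + 1 →
    lb.length = n + 1 → (∀ x ∈ la, ∀ y ∈ lb, x + H - y < 2 ^ b) →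
    enc b (zipY H la lb) &&& rep b H n = rep b H n →
    List.Forall₂ (fun x y => (x + H - y) &&& H = H) la lb := by
  intro la
  induction la with
  | nil => intro lb n h; simp at h
  | cons x xs ih =>
    intro lb n hla hlb hlt h
    match lb, hlb with
    | y :: ys, hlb =>
      have h0 : x + H - y < 2 ^ b := hlt x (by simp) y (by simp)
      have h1 : (x + H - y) &&& H < 2 ^ b := lt_of_le_of_lt Nat.and_le_right hH
      cases n with
      | zero =>
        have hxs : xs = [] := by simpa using hla
        have hys : ys = [] := by simpa using hlb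
        subst hxs; subst hys
        simp only [zipY, enc_cons, enc_nil, mul_zero, add_zero, rep] at h
        exact List.Forall₂.cons h List.Forall₂.nil
      | succ n =>
        have hxs : xs.length = n + 1 := by simpa using hla
        have hys : ys.length = n + 1 := by simpa using hlb
        simp only [zipY, enc_cons, rep] at h
        rw [land_cons h0 hH] at h
        have hp : 0 < 2 ^ b := by positivity
        have h2 : (x + H - y) &&& H = H := by
          have := congrArg (· % 2 ^ b) h
          simpa [Nat.add_mul_mod_self_left, Nat.mod_eq_of_lt h1, Nat.mod_eq_of_lt hH] using this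
        have h3 : enc b (zipY H xs ys) &&& rep b H n = rep b H n := by
          rw [h2] at h
          have : 2 ^ b * (enc b (zipY H xs ys) &&& rep b H n) = 2 ^ b * rep b H n := by omega
          exact Nat.eq_of_mul_eq_mul_left hp this
        exact List.Forall₂.cons h2 (ih n hxs hys
          (fun u hu v hv => hlt u (by simp [hu]) v (by simp [hv])) h3)

lemma zipY_lt {b H : ℕ} : ∀ {la lb : List ℕ}, (∀ x ∈ la, ∀ y ∈ lb, x + H - y < 2 ^ b) →
    ∀ z ∈ zipY H la lb, z < 2 ^ b := by
  intro la
  induction la with
  | nil => intro lb _ z hz; simp [zipY] at hz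
  | cons x xs ih =>
    intro lb h z hz
    cases lb with
    | nil => simp [zipY] at hz
    | cons y ys =>
      simp only [zipY, List.mem_cons] at hz
      rcases hz with rfl | hz
      · exact h x (by simp) y (by simp)
      · exact ih (fun u hu v hv => h u (by simp [hu]) v (by simp [hv])) z hz

lemma leaf_le {W : ℕ} (hW : 1 ≤ W) : ∀ (ns : List ℕ) (a b : ℕ) (env : List (ℝ × ℝ)),
    Fits W ns 1 a → Fits W ns 1 b →
    (∀ e ∈ env, 0 ≤ e.1 ∧ 0 ≤ e.2) →
    (a + allDig W (2 ^ (W - 1)) ns - b) &&& allDig W (2 ^ (W - 1)) ns = allDig W (2 ^ (W - 1)) ns →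
    val W ns b env ≤ val W ns a env := by
  intro ns
  induction ns with
  | nil =>
    intro a b env ha hb _ h
    have ha' : a < 2 ^ (W - 1) := ha
    have hb' : b < 2 ^ (W - 1) := hb
    simp only [allDig] at h
    simp only [val]
    have : b ≤ a := by
      by_contra hlt
      have h1 : a + 2 ^ (W - 1) - b < 2 ^ (W - 1) := by omega
      rw [land_lt_of_lt h1] at h
      have : 0 < 2 ^ (W - 1) := by positivity
      omega
    exact_mod_cast this
  | cons n ns ih =>
    intro a b env ha hb henv h
    cases env with
    | nil => simp [val]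
    | cons e env =>
      obtain ⟨la, hla, hSa, rfl⟩ := ha
      obtain ⟨lb, hlb, hSb, rfl⟩ := hb
      set H' := allDig W (2 ^ (W - 1)) ns with hH'
      set B := W * sz ns with hB
      have hv : (2:ℕ) ^ (W - 1) < 2 ^ W := Nat.pow_lt_pow_right (by norm_num) (by omega)
      have hHlt : H' < 2 ^ B := allDig_lt hv ns
      have hyle : ∀ y ∈ lb, y ≤ H' := fun y hy => fits1_le hW ns y (hSb y hy)
      have hlt : ∀ x ∈ la, ∀ y ∈ lb, x + H' - y < 2 ^ B := by
        intro x hx y _
        exact lt_of_le_of_lt (Nat.sub_le _ _) (add_H_lt hW ns x (hSa x hx))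
      simp only [allDig] at h
      rw [← hH', ← hB] at h
      have hadd := zipY_add (b := B) (H := H') (la := la) (lb := lb) (by omega) hyle
      have e1 : enc B la + rep B H' n - enc B lb = enc B (zipY H' la lb) := by
        rw [rep_eq_enc, ← hla, ← hadd]
        omega
      rw [e1] at h
      have hF := leaf_aux hHlt n hla hlb hlt h
      rw [val_cons_enc (n := n) e env hla (fun x hx => fits_lt (hSa x hx)),
        val_cons_enc (n := n) e env hlb (fun x hx => fits_lt (hSb x hx))]
      have he := henv e (by simp)
      apply val_mono_hom he.1 he.2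
      have henv' : ∀ e ∈ env, 0 ≤ e.1 ∧ 0 ≤ e.2 := fun x hx => henv x (by simp [hx])
      have key : ∀ {la lb : List ℕ}, (∀ S ∈ la, Fits W ns 1 S) → (∀ S ∈ lb, Fits W ns 1 S) →
          List.Forall₂ (fun x y => (x + H' - y) &&& H' = H') la lb →
          List.Forall₂ (· ≤ ·) (lb.map (fun S => val W ns S env)) (la.map (fun S => val W ns S env)) := by
        intro la lb hA hB hF
        induction hF with
        | nil => exact List.Forall₂.nil
        | @cons x y xs ys hxy _ ihF =>
          simp only [List.map_cons]
          exact List.Forall₂.cons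
            (ih x y env (hA x (by simp)) (hB y (by simp)) henv' hxy)
            (ihF (fun S hS => hA S (by simp [hS])) (fun S hS => hB S (by simp [hS])))
      exact key hSa hSb hF

/-! ### Multiplication by a variable -/

lemma val_shift (W : ℕ) : ∀ (ns : List ℕ) (j : ℕ), j < ns.length →
    ((axisOf W ns j).top < 2 ^ (W * sz ns)) ∧
    ∀ (T r : ℕ) (env : List (ℝ × ℝ)), Fits W ns r T → T &&& (axisOf W ns j).top = 0 →
      Fits W ns r (T <<< (axisOf W ns j).sh) ∧
      (env.length = ns.length → (∀ e ∈ env, e.2 = 1) →
        val W ns (T <<< (axisOf W ns j).sh) env = (env.getD j (0, 1)).1 * val W ns T env) := by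
  intro ns
  induction ns with
  | nil => intro j h; simp at h
  | cons n ns ih =>
    intro j hj
    have e0 : W * sz (n :: ns) = W * sz ns * (n + 1) := by simp only [sz_cons]; ring
    cases j with
    | zero =>
      simp only [axisOf]
      set b := W * sz ns with hb
      refine ⟨?_, ?_⟩
      · rw [e0]
        have e1 : b * (n + 1) = b + b * n := by ring
        rw [e1, pow_add]
        exact Nat.mul_lt_mul_of_pos_right (by have : 0 < 2 ^ b := by positivity
                                              omega) (by positivity)
      · intro T r env hT hT0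
        obtain ⟨l, hl, hS, rfl⟩ := hT
        obtain ⟨pre, c, g, rfl, hpre, hg⟩ := split_list (l := l) (a := n) (k := 0) (by omega)
        have hg' : g = [] := by simpa using hg
        subst hg'
        have hc : c < 2 ^ b := fits_lt (hS c (by simp))
        have hpreb : enc b pre < 2 ^ (b * n) := by
          have := enc_lt (b := b) (l := pre) (fun x hx => fits_lt (hS x (by simp [hx])))
          rwa [hpre] at this
        have hT' : enc b (pre ++ [c]) = enc b pre + 2 ^ (b * n) * c := by
          rw [enc_append, hpre]; simp
        rw [hT'] at hT0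
        rw [land_range hpreb hc] at hT0
        have hc0 : c = 0 := by
          rcases Nat.mul_eq_zero.mp hT0 with h4 | h4
          · exact absurd h4 (by positivity)
          · exact h4
        subst hc0
        have hT2 : enc b (pre ++ [0]) = enc b pre := by rw [hT']; simp
        have hT3 : enc b (pre ++ [0]) <<< b = enc b (0 :: pre) := by
          rw [hT2, Nat.shiftLeft_eq]; simp; ring
        rw [hT3]
        have hF : ∀ S ∈ (0 :: pre), Fits W ns r S := by
          intro S hS'
          rcases List.mem_cons.mp hS' with rfl | h1
          · exact fits_zero W ns r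
          · exact hS S (by simp [h1])
        refine ⟨⟨0 :: pre, by simp [hpre], hF, rfl⟩, ?_⟩
        intro henv hy
        cases env with
        | nil => simp at henv
        | cons e env =>
          have hey : e.2 = 1 := hy e (by simp)
          rw [val_cons_enc (n := n) e env (by simp [hpre]) (fun x hx => fits_lt (hF x hx)),
            val_cons_enc (n := n) e env hl (fun x hx => fits_lt (hS x hx))]
          simp only [List.map_cons, hom_cons, List.map_append, List.map_nil, hom_snoc, val_zero, hey,
            List.getD_cons_zero]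
          simp
      | succ j =>
        have hj' : j < ns.length := by simpa using hj
        obtain ⟨h1, h2⟩ := ih j hj'
        simp only [axisOf]
        set b := W * sz ns with hb
        refine ⟨by rw [e0]; exact rep_lt h1 n, ?_⟩
        intro T r env hT hT0
        obtain ⟨l, hl, hS, rfl⟩ := hT
        rw [enc_land_rep h1 n hl (fun x hx => fits_lt (hS x hx))] at hT0
        have hz : ∀ S ∈ l, S &&& (axisOf W ns j).top = 0 := fun S hS' =>
          enc_eq_zero hT0 _ (List.mem_map_of_mem hS')
        have hT3 : enc b l <<< (axisOf W ns j).sh =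
            enc b (l.map (fun S => S <<< (axisOf W ns j).sh)) := by
          rw [Nat.shiftLeft_eq, mul_comm, enc_smul]
          congr 1
          apply List.map_congr_left
          intro S _
          rw [Nat.shiftLeft_eq, mul_comm]
        rw [hT3]
        have hF : ∀ S ∈ l.map (fun S => S <<< (axisOf W ns j).sh), Fits W ns r S := by
          intro S hS'
          obtain ⟨a, ha, rfl⟩ := List.mem_map.mp hS'
          exact (h2 a r [] (hS a ha) (hz a ha)).1
        refine ⟨⟨_, by simp [hl], hF, rfl⟩, ?_⟩
        intro henv hy
        cases env with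
        | nil => simp at henv
        | cons e env =>
          have henv' : env.length = ns.length := by simpa using henv
          have hy' : ∀ e ∈ env, e.2 = 1 := fun x hx => hy x (by simp [hx])
          rw [val_cons_enc (n := n) e env (by simp [hl]) (fun x hx => fits_lt (hF x hx)),
            val_cons_enc (n := n) e env hl (fun x hx => fits_lt (hS x hx))]
          simp only [List.getD_cons_succ]
          have key : ∀ (l : List ℕ), (∀ S ∈ l, Fits W ns r S) →
              (∀ S ∈ l, S &&& (axisOf W ns j).top = 0) →
              hom e.1 e.2 ((l.map (fun S => S <<< (axisOf W ns j).sh)).map (fun S => val W ns S env)) =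
                (env.getD j (0, 1)).1 * hom e.1 e.2 (l.map (fun S => val W ns S env)) := by
            intro l
            induction l with
            | nil => simp
            | cons c cs ihl =>
              intro h3 h4
              simp only [List.map_cons, hom_cons, List.length_map,
                (h2 c r env (h3 c (by simp)) (h4 c (by simp))).2 henv' hy',
                ihl (fun x hx => h3 x (by simp [hx])) (fun x hx => h4 x (by simp [hx]))]
              ring
          exact key l hS hz

/-! ### The context -/

lemma axes_getD (W : ℕ) (ns : List ℕ) : ∀ (k a j : ℕ), j < k →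
    (axesFrom W ns a k).getD j ⟨0, [], [], 0⟩ = axisOf W ns (a + j) := by
  intro k
  induction k with
  | zero => intro a j h; omega
  | succ k ih =>
    intro a j h
    cases j with
    | zero => simp [axesFrom]
    | succ j =>
      simp only [axesFrom, List.getD_cons_succ]
      rw [ih (a + 1) j (by omega)]
      congr 1
      omega

lemma length_axesFrom (W : ℕ) (ns : List ℕ) (k a : ℕ) : (axesFrom W ns a k).length = k := by
  induction k generalizing a with
  | zero => rfl
  | succ k ih => simp [axesFrom, ih]

lemma ctx_ax (W room roomT : ℕ) (ns : List ℕ) (j : ℕ) (hj : j < ns.length) :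
    (mkCtx W room roomT ns).ax j = axisOf W ns j := by
  simp only [Ctx.ax, mkCtx]
  rw [axes_getD W ns _ 0 j hj, zero_add]

lemma selK_one_map (l : List (ℕ × ℕ)) : l.map (selK 1) = l := by
  induction l with
  | nil => rfl
  | cons m ms ih =>
    simp only [List.map_cons, ih]
    simp [selK]

lemma runT_eq (sh : ℕ) : ∀ (ms : List (ℕ × ℕ)) (T : ℕ), runT sh ms T = runL sh (ms.map (selK 0)) T := by
  intro ms
  induction ms with
  | nil => intro T; rfl
  | cons m ms ih =>
    intro T
    simp only [runT, List.map_cons, runL, ih]
    congr 1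
    simp [passT, passL, selK]

section Ctx

variable {W room roomT : ℕ} {ns : List ℕ}

lemma leftT_fits (j : ℕ) (hj : j < ns.length) {T r : ℕ} (hT : Fits W ns r T) (hr : 2 * deg ns j ≤ r)
    (hrW : r ≤ W) : Fits W ns (r - 2 * deg ns j) (leftT (mkCtx W room roomT ns) j T) := by
  simp only [leftT, ctx_ax W room roomT ns j hj]
  obtain ⟨h1, h2⟩ := axis_PL W 1 le_rfl ns j hj
  rw [selK_one_map] at h1
  have := runL_fits _ h1 T r (by omega) hrW hT
  rwa [h2] at this

lemma rightT_fits (j : ℕ) (hj : j < ns.length) {T r : ℕ} (hT : Fits W ns r T) (hr : 2 * deg ns j ≤ r)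
    (hrW : r ≤ W) : Fits W ns (r - 2 * deg ns j) (rightT (mkCtx W room roomT ns) j T) := by
  simp only [rightT, ctx_ax W room roomT ns j hj]
  obtain ⟨h1, h2⟩ := axis_PR W ns j hj
  have := runR_fits _ h1 T r (by omega) hrW hT
  rwa [h2] at this

lemma taylorT_fits (j : ℕ) (hj : j < ns.length) {T r : ℕ} (hT : Fits W ns r T) (hr : 2 * deg ns j ≤ r)
    (hrW : r ≤ W) : Fits W ns (r - 2 * deg ns j) (taylorT (mkCtx W room roomT ns) j T) := by
  simp only [taylorT, ctx_ax W room roomT ns j hj, runT_eq]
  obtain ⟨h1, h2⟩ := axis_PL W 0 (by omega) ns j hj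
  have := runL_fits _ h1 T r (by simp [h2]; omega) hrW hT
  simpa [h2] using this

lemma val_leftT (j : ℕ) (hj : j < ns.length) {T r : ℕ} (hT : Fits W ns r T) (hr : 2 * deg ns j ≤ r)
    (hrW : r ≤ W) (env : List (ℝ × ℝ)) (henv : env.length = ns.length) :
    val W ns (leftT (mkCtx W room roomT ns) j T) env = val W ns T (envMap (fL 1) j env) := by
  simp only [leftT, ctx_ax W room roomT ns j hj]
  have := val_runL W 1 le_rfl ns j hj T r env hT hr hrW henv
  rwa [selK_one_map] at this

lemma val_rightT (j : ℕ) (hj : j < ns.length) {T r : ℕ} (hT : Fits W ns r T) (hr : 2 * deg ns j ≤ r)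
    (hrW : r ≤ W) (env : List (ℝ × ℝ)) (henv : env.length = ns.length) :
    val W ns (rightT (mkCtx W room roomT ns) j T) env = val W ns T (envMap fR j env) := by
  simp only [rightT, ctx_ax W room roomT ns j hj]
  exact val_runR W ns j hj T r env hT hr hrW henv

lemma val_taylorT (j : ℕ) (hj : j < ns.length) {T r : ℕ} (hT : Fits W ns r T) (hr : 2 * deg ns j ≤ r)
    (hrW : r ≤ W) (env : List (ℝ × ℝ)) (henv : env.length = ns.length) :
    val W ns (taylorT (mkCtx W room roomT ns) j T) env = val W ns T (envMap (fL 0) j env) := by
  simp only [taylorT, ctx_ax W room roomT ns j hj, runT_eq]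
  exact val_runL W 0 (by omega) ns j hj T r env hT hr hrW henv

end Ctx

/-! ### Boxes and cones -/

def InBox : List ℝ → Bx → Prop
  | [], [] => True
  | τ :: ts, p :: ps => ((p.1 : ℝ) ≤ 2 ^ p.2 * τ ∧ 2 ^ p.2 * τ ≤ p.1 + 1) ∧ InBox ts ps
  | _, _ => False

def Cone : List ℝ → Bx → List (ℝ × ℝ) → Prop
  | [], [], [] => True
  | τ :: ts, p :: ps, e :: es =>
    (∃ c : ℝ, 0 < c ∧ e.1 = c * (2 ^ p.2 * τ - p.1) ∧ e.2 = c * (p.1 + 1 - 2 ^ p.2 * τ)) ∧
      ((p.1 : ℝ) ≤ 2 ^ p.2 * τ ∧ 2 ^ p.2 * τ ≤ p.1 + 1) ∧ Cone ts ps es
  | _, _, _ => False

lemma Cone.inBox : ∀ {τ : List ℝ} {box : Bx} {env : List (ℝ × ℝ)}, Cone τ box env → InBox τ box := by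
  intro τ
  induction τ with
  | nil =>
    intro box env h
    cases box with
    | nil => trivial
    | cons _ _ => cases env <;> simp [Cone] at h
  | cons t ts ih =>
    intro box env h
    cases box with
    | nil => cases env <;> simp [Cone] at h
    | cons p ps =>
      cases env with
      | nil => simp [Cone] at h
      | cons e es =>
        exact ⟨h.2.1, ih h.2.2⟩

lemma Cone.nonneg : ∀ {τ : List ℝ} {box : Bx} {env : List (ℝ × ℝ)}, Cone τ box env →
    ∀ e ∈ env, 0 ≤ e.1 ∧ 0 ≤ e.2 := by
  intro τ
  induction τ with
  | nil =>
    intro box env h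
    cases box with
    | nil =>
      cases env with
      | nil => simp
      | cons _ _ => simp [Cone] at h
    | cons _ _ => cases env <;> simp [Cone] at h
  | cons t ts ih =>
    intro box env h
    cases box with
    | nil => cases env <;> simp [Cone] at h
    | cons p ps =>
      cases env with
      | nil => simp [Cone] at h
      | cons e es =>
        intro x hx
        rcases List.mem_cons.mp hx with rfl | hx
        · obtain ⟨⟨c, hc, h1, h2⟩, ⟨h3, h4⟩, _⟩ := h
          rw [h1, h2]
          exact ⟨mul_nonneg hc.le (by linarith), mul_nonneg hc.le (by linarith)⟩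
        · exact ih h.2.2 x hx

lemma cone_split : ∀ {τ : List ℝ} {box : Bx} {env : List (ℝ × ℝ)} (j : ℕ), Cone τ box env →
    j < env.length →
    (∃ env', Cone τ (bxL box j) env' ∧ envMap (fL 1) j env' = env ∧ env'.length = env.length) ∨
    (∃ env', Cone τ (bxR box j) env' ∧ envMap fR j env' = env ∧ env'.length = env.length) := by
  intro τ
  induction τ with
  | nil =>
    intro box env j h hj
    cases box with
    | nil =>
      cases env with
      | nil => simp at hj
      | cons _ _ => simp [Cone] at h
    | cons _ _ => cases env <;> simp [Cone] at h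
  | cons t ts ih =>
    intro box env j h hj
    cases box with
    | nil => cases env <;> simp [Cone] at h
    | cons p ps =>
      cases env with
      | nil => simp [Cone] at h
      | cons e es =>
        obtain ⟨⟨c, hc, h1, h2⟩, ⟨h3, h4⟩, h5⟩ := h
        cases j with
        | zero =>
          by_cases hcase : 2 * (2 ^ p.2 * t) ≤ 2 * (p.1 : ℝ) + 1
          · left
            refine ⟨(c / 2 * (2 ^ (p.2 + 1) * t - (2 * p.1 : ℕ)),
              c / 2 * ((2 * p.1 : ℕ) + 1 - 2 ^ (p.2 + 1) * t)) :: es, ?_, ?_, by simp⟩
            · refine ⟨⟨c / 2, by positivity, rfl, rfl⟩, ⟨?_, ?_⟩, h5⟩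
              · push_cast; rw [pow_succ]; linarith
              · push_cast; rw [pow_succ]; linarith
            · simp only [envMap, fL]
              congr 1
              apply Prod.ext
              · simp only [h1]; push_cast; rw [pow_succ]; ring
              · simp only [h2]; push_cast; rw [pow_succ]; ring
          · right
            have hcase' : 2 * (p.1 : ℝ) + 1 ≤ 2 * (2 ^ p.2 * t) := by linarith [not_le.mp hcase]
            refine ⟨(c / 2 * (2 ^ (p.2 + 1) * t - (2 * p.1 + 1 : ℕ)),
              c / 2 * ((2 * p.1 + 1 : ℕ) + 1 - 2 ^ (p.2 + 1) * t)) :: es, ?_, ?_, by simp⟩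
            · refine ⟨⟨c / 2, by positivity, rfl, rfl⟩, ⟨?_, ?_⟩, h5⟩
              · push_cast; rw [pow_succ]; linarith
              · push_cast; rw [pow_succ]; linarith
            · simp only [envMap, fR]
              congr 1
              apply Prod.ext
              · simp only [h1]; push_cast; rw [pow_succ]; ring
              · simp only [h2]; push_cast; rw [pow_succ]; ring
        | succ j =>
          have hj' : j < es.length := by simpa using hj
          rcases ih j h5 hj' with ⟨env', h6, h7, h8⟩ | ⟨env', h6, h7, h8⟩
          · left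
            exact ⟨e :: env', ⟨⟨c, hc, h1, h2⟩, ⟨h3, h4⟩, h6⟩, by simp [envMap, h7], by simp [h8]⟩
          · right
            exact ⟨e :: env', ⟨⟨c, hc, h1, h2⟩, ⟨h3, h4⟩, h6⟩, by simp [envMap, h7], by simp [h8]⟩

lemma inBox_bxL : ∀ {τ : List ℝ} {box : Bx} (j : ℕ), InBox τ (bxL box j) → InBox τ box := by
  intro τ
  induction τ with
  | nil =>
    intro box j h
    cases box with
    | nil => trivial
    | cons p ps =>
      cases j <;> simp [bxL, InBox] at h
  | cons t ts ih =>
    intro box j h
    cases box with
    | nil => simpa [bxL, InBox] using h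
    | cons p ps =>
      cases j with
      | zero =>
        simp only [bxL, InBox] at h ⊢
        obtain ⟨⟨h1, h2⟩, h3⟩ := h
        refine ⟨⟨?_, ?_⟩, h3⟩
        · push_cast at h1
          rw [pow_succ] at h1
          linarith
        · push_cast at h2
          rw [pow_succ] at h2
          linarith
      | succ j =>
        simp only [bxL, InBox] at h ⊢
        exact ⟨h.1, ih j h.2⟩

lemma inBox_bxR : ∀ {τ : List ℝ} {box : Bx} (j : ℕ), InBox τ (bxR box j) → InBox τ box := by
  intro τ
  induction τ with
  | nil =>
    intro box j h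
    cases box with
    | nil => trivial
    | cons p ps =>
      cases j <;> simp [bxR, InBox] at h
  | cons t ts ih =>
    intro box j h
    cases box with
    | nil => simpa [bxR, InBox] using h
    | cons p ps =>
      cases j with
      | zero =>
        simp only [bxR, InBox] at h ⊢
        obtain ⟨⟨h1, h2⟩, h3⟩ := h
        refine ⟨⟨?_, ?_⟩, h3⟩
        · push_cast at h1
          rw [pow_succ] at h1
          linarith
        · push_cast at h2
          rw [pow_succ] at h2
          linarith
      | succ j =>
        simp only [bxR, InBox] at h ⊢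
        exact ⟨h.1, ih j h.2⟩

lemma inBox_split : ∀ {τ : List ℝ} {box : Bx} (j : ℕ), InBox τ box →
    InBox τ (bxL box j) ∨ InBox τ (bxR box j) := by
  intro τ
  induction τ with
  | nil =>
    intro box j h
    cases box with
    | nil => left; trivial
    | cons p ps => simp [InBox] at h
  | cons t ts ih =>
    intro box j h
    cases box with
    | nil => simp [InBox] at h
    | cons p ps =>
      cases j with
      | zero =>
        simp only [bxL, bxR, InBox]
        obtain ⟨⟨h1, h2⟩, h3⟩ := h
        by_cases hcase : 2 * (2 ^ p.2 * t) ≤ 2 * (p.1 : ℝ) + 1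
        · left
          refine ⟨⟨?_, ?_⟩, h3⟩
          · push_cast; rw [pow_succ]; linarith
          · push_cast; rw [pow_succ]; linarith
        · right
          have hcase' : 2 * (p.1 : ℝ) + 1 ≤ 2 * (2 ^ p.2 * t) := by linarith [not_le.mp hcase]
          refine ⟨⟨?_, ?_⟩, h3⟩
          · push_cast; rw [pow_succ]; linarith
          · push_cast; rw [pow_succ]; linarith
      | succ j =>
        simp only [bxL, bxR, InBox]
        rcases ih j h.2 with h4 | h4
        · left; exact ⟨h.1, h4⟩
        · right; exact ⟨h.1, h4⟩

lemma inBox_path : ∀ (p : Path) {τ : List ℝ} {box : Bx}, InBox τ (pathBox p box) → InBox τ box := by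
  intro p
  induction p with
  | nil => intro τ box h; exact h
  | cons x p ih =>
    intro τ box h
    obtain ⟨j, d⟩ := x
    cases d with
    | false => exact inBox_bxL j (ih h)
    | true => exact inBox_bxR j (ih h)

/-- Every point of a box lies in one of the boxes of the list. -/
lemma covers_sound {L : List Bx} : ∀ (T : Tr) (box : Bx) {τ : List ℝ}, covers L T box = true →
    InBox τ box → ∃ b ∈ L, InBox τ b := by
  intro T
  induction T with
  | nd j l r ihl ihr =>
    intro box τ h hb
    simp only [covers, Bool.and_eq_true] at h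
    rcases inBox_split j hb with h1 | h1
    · exact ihl _ h.1 h1
    · exact ihr _ h.2 h1
  | lf =>
    intro box τ h hb
    simp only [covers] at h
    exact ⟨box, by simpa using h, hb⟩
  | ot =>
    intro box τ h hb
    simp only [covers] at h
    exact ⟨box, by simpa using h, hb⟩

lemma cone_left : ∀ {τ : List ℝ} {box : Bx} {env : List (ℝ × ℝ)} (j : ℕ), Cone τ box env →
    j < env.length → InBox τ (bxL box j) →
    ∃ env', Cone τ (bxL box j) env' ∧ envMap (fL 1) j env' = env ∧ env'.length = env.length := by
  intro τ
  induction τ with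
  | nil =>
    intro box env j h hj _
    cases box with
    | nil =>
      cases env with
      | nil => simp at hj
      | cons _ _ => simp [Cone] at h
    | cons _ _ => cases env <;> simp [Cone] at h
  | cons t ts ih =>
    intro box env j h hj hin
    cases box with
    | nil => cases env <;> simp [Cone] at h
    | cons p ps =>
      cases env with
      | nil => simp [Cone] at h
      | cons e es =>
        obtain ⟨⟨c, hc, h1, h2⟩, ⟨h3, h4⟩, h5⟩ := h
        cases j with
        | zero =>
          simp only [bxL, InBox] at hin
          obtain ⟨⟨h6, h7⟩, _⟩ := hin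
          refine ⟨(c / 2 * (2 ^ (p.2 + 1) * t - (2 * p.1 : ℕ)),
            c / 2 * ((2 * p.1 : ℕ) + 1 - 2 ^ (p.2 + 1) * t)) :: es, ?_, ?_, by simp⟩
          · exact ⟨⟨c / 2, by positivity, rfl, rfl⟩, ⟨h6, h7⟩, h5⟩
          · simp only [envMap, fL]
            congr 1
            apply Prod.ext
            · simp only [h1]; push_cast; rw [pow_succ]; ring
            · simp only [h2]; push_cast; rw [pow_succ]; ring
        | succ j =>
          have hj' : j < es.length := by simpa using hj
          simp only [bxL, InBox] at hin
          obtain ⟨env', h6, h7, h8⟩ := ih j h5 hj' hin.2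
          exact ⟨e :: env', ⟨⟨c, hc, h1, h2⟩, ⟨h3, h4⟩, h6⟩, by simp [envMap, h7], by simp [h8]⟩

lemma cone_right : ∀ {τ : List ℝ} {box : Bx} {env : List (ℝ × ℝ)} (j : ℕ), Cone τ box env →
    j < env.length → InBox τ (bxR box j) →
    ∃ env', Cone τ (bxR box j) env' ∧ envMap fR j env' = env ∧ env'.length = env.length := by
  intro τ
  induction τ with
  | nil =>
    intro box env j h hj _
    cases box with
    | nil =>
      cases env with
      | nil => simp at hj
      | cons _ _ => simp [Cone] at h
    | cons _ _ => cases env <;> simp [Cone] at h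
  | cons t ts ih =>
    intro box env j h hj hin
    cases box with
    | nil => cases env <;> simp [Cone] at h
    | cons p ps =>
      cases env with
      | nil => simp [Cone] at h
      | cons e es =>
        obtain ⟨⟨c, hc, h1, h2⟩, ⟨h3, h4⟩, h5⟩ := h
        cases j with
        | zero =>
          simp only [bxR, InBox] at hin
          obtain ⟨⟨h6, h7⟩, _⟩ := hin
          refine ⟨(c / 2 * (2 ^ (p.2 + 1) * t - (2 * p.1 + 1 : ℕ)),
            c / 2 * ((2 * p.1 + 1 : ℕ) + 1 - 2 ^ (p.2 + 1) * t)) :: es, ?_, ?_, by simp⟩
          · exact ⟨⟨c / 2, by positivity, rfl, rfl⟩, ⟨h6, h7⟩, h5⟩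
          · simp only [envMap, fR]
            congr 1
            apply Prod.ext
            · simp only [h1]; push_cast; rw [pow_succ]; ring
            · simp only [h2]; push_cast; rw [pow_succ]; ring
        | succ j =>
          have hj' : j < es.length := by simpa using hj
          simp only [bxR, InBox] at hin
          obtain ⟨env', h6, h7, h8⟩ := ih j h5 hj' hin.2
          exact ⟨e :: env', ⟨⟨c, hc, h1, h2⟩, ⟨h3, h4⟩, h6⟩, by simp [envMap, h7], by simp [h8]⟩

/-- Soundness of the subdivision check. -/
theorem chk_sound {W room roomT : ℕ} {ns : List ℕ} (hW : 1 ≤ W) (hrW : room ≤ W)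
    (hroom : ∀ j, j < ns.length → 2 * deg ns j + 1 ≤ room)
    {out : Bx → Bool} {Dom : List ℝ → Prop}
    (hout : ∀ box τ, out box = true → InBox τ box → ¬ Dom τ) :
    ∀ (t : Tr) (a b : ℕ) (box : Bx), Fits W ns 1 a → Fits W ns 1 b →
      chk (mkCtx W room roomT ns) out t a b box = true →
      ∀ (τ : List ℝ) (env : List (ℝ × ℝ)), Cone τ box env → env.length = ns.length → Dom τ →
        val W ns b env ≤ val W ns a env := by
  intro t
  induction t with
  | lf =>
    intro a b box ha hb h τ env hc _ _
    simp only [chk, leafOK, mkCtx] at h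
    exact leaf_le hW ns a b env ha hb hc.nonneg (Nat.eq_of_beq_eq_true h)
  | ot =>
    intro a b box _ _ h τ env hc _ hD
    simp only [chk] at h
    exact absurd hD (hout box τ h hc.inBox)
  | nd j l r ihl ihr =>
    intro a b box ha hb h τ env hc henv hD
    simp only [chk, Bool.and_eq_true] at h
    obtain ⟨hj0, hra, hrb, hl, hr⟩ := h
    have hj : j < ns.length := by
      have h1 : j < (mkCtx W room roomT ns).axes.length := by
        simpa [Nat.blt_eq] using hj0
      simpa [mkCtx, length_axesFrom] using h1
    have hdeg := hroom j hj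
    have hRa : Fits W ns room a := fits_of_land hrW ns a (fits_mono (by omega) ha)
      (by simpa [roomOK, mkCtx] using Nat.eq_of_beq_eq_true hra)
    have hRb : Fits W ns room b := fits_of_land hrW ns b (fits_mono (by omega) hb)
      (by simpa [roomOK, mkCtx] using Nat.eq_of_beq_eq_true hrb)
    have h2 : 2 * deg ns j ≤ room := by omega
    have hm : 1 ≤ room - 2 * deg ns j := by omega
    rcases cone_split j hc (by omega) with ⟨env', h6, h7, h8⟩ | ⟨env', h6, h7, h8⟩
    · have key := ihl (leftT _ j a) (leftT _ j b) (bxL box j)
        (fits_mono hm (leftT_fits j hj hRa h2 hrW)) (fits_mono hm (leftT_fits j hj hRb h2 hrW)) hl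
        τ env' h6 (by omega) hD
      rw [val_leftT j hj hRa h2 hrW env' (by omega), val_leftT j hj hRb h2 hrW env' (by omega), h7] at key
      exact key
    · have key := ihr (rightT _ j a) (rightT _ j b) (bxR box j)
        (fits_mono hm (rightT_fits j hj hRa h2 hrW)) (fits_mono hm (rightT_fits j hj hRb h2 hrW)) hr
        τ env' h6 (by omega) hD
      rw [val_rightT j hj hRa h2 hrW env' (by omega), val_rightT j hj hRb h2 hrW env' (by omega), h7] at key
      exact key

/-- Soundness of the check of a subtree at the end of a path. -/
theorem pathChk_sound {W room roomT : ℕ} {ns : List ℕ} (hW : 1 ≤ W) (hrW : room ≤ W)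
    (hroom : ∀ j, j < ns.length → 2 * deg ns j + 1 ≤ room)
    {out : Bx → Bool} {Dom : List ℝ → Prop}
    (hout : ∀ box τ, out box = true → InBox τ box → ¬ Dom τ) :
    ∀ (p : Path) (t : Tr) (a b : ℕ) (box : Bx), Fits W ns 1 a → Fits W ns 1 b →
      pathChk (mkCtx W room roomT ns) out p t a b box = true →
      ∀ (τ : List ℝ) (env : List (ℝ × ℝ)), Cone τ box env → env.length = ns.length → Dom τ →
        InBox τ (pathBox p box) → val W ns b env ≤ val W ns a env := by
  intro p
  induction p with
  | nil =>
    intro t a b box ha hb h τ env hc henv hD _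
    exact chk_sound hW hrW hroom hout t a b box ha hb h τ env hc henv hD
  | cons x p ih =>
    intro t a b box ha hb h τ env hc henv hD hin
    obtain ⟨j, d⟩ := x
    cases d with
    | false =>
      simp only [pathChk, Bool.and_eq_true] at h
      obtain ⟨hj0, hra, hrb, hl⟩ := h
      have hj : j < ns.length := by
        have h1 : j < (mkCtx W room roomT ns).axes.length := by
          simpa [Nat.blt_eq] using hj0
        simpa [mkCtx, length_axesFrom] using h1
      have hdeg := hroom j hj
      have hRa : Fits W ns room a := fits_of_land hrW ns a (fits_mono (by omega) ha)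
        (by simpa [roomOK, mkCtx] using Nat.eq_of_beq_eq_true hra)
      have hRb : Fits W ns room b := fits_of_land hrW ns b (fits_mono (by omega) hb)
        (by simpa [roomOK, mkCtx] using Nat.eq_of_beq_eq_true hrb)
      have h2 : 2 * deg ns j ≤ room := by omega
      have hm : 1 ≤ room - 2 * deg ns j := by omega
      have hin' : InBox τ (bxL box j) := inBox_path p hin
      obtain ⟨env', h6, h7, h8⟩ := cone_left j hc (by omega) hin'
      have key := ih t _ _ (bxL box j)
        (fits_mono hm (leftT_fits j hj hRa h2 hrW)) (fits_mono hm (leftT_fits j hj hRb h2 hrW)) hl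
        τ env' h6 (by omega) hD hin
      rw [val_leftT j hj hRa h2 hrW env' (by omega), val_leftT j hj hRb h2 hrW env' (by omega), h7] at key
      exact key
    | true =>
      simp only [pathChk, Bool.and_eq_true] at h
      obtain ⟨hj0, hra, hrb, hl⟩ := h
      have hj : j < ns.length := by
        have h1 : j < (mkCtx W room roomT ns).axes.length := by
          simpa [Nat.blt_eq] using hj0
        simpa [mkCtx, length_axesFrom] using h1
      have hdeg := hroom j hj
      have hRa : Fits W ns room a := fits_of_land hrW ns a (fits_mono (by omega) ha)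
        (by simpa [roomOK, mkCtx] using Nat.eq_of_beq_eq_true hra)
      have hRb : Fits W ns room b := fits_of_land hrW ns b (fits_mono (by omega) hb)
        (by simpa [roomOK, mkCtx] using Nat.eq_of_beq_eq_true hrb)
      have h2 : 2 * deg ns j ≤ room := by omega
      have hm : 1 ≤ room - 2 * deg ns j := by omega
      have hin' : InBox τ (bxR box j) := inBox_path p hin
      obtain ⟨env', h6, h7, h8⟩ := cone_right j hc (by omega) hin'
      have key := ih t _ _ (bxR box j)
        (fits_mono hm (rightT_fits j hj hRa h2 hrW)) (fits_mono hm (rightT_fits j hj hRb h2 hrW)) hl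
        τ env' h6 (by omega) hD hin
      rw [val_rightT j hj hRa h2 hrW env' (by omega), val_rightT j hj hRb h2 hrW env' (by omega), h7] at key
      exact key

end Vale.Agent.Lib.P154
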