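import Vale.Agent.Lib.P154.SemQuad

/-! Soundness of the one variable bounds. -/

namespace Vale.Agent.Lib.P154

open List

/-- Horner evaluation of a list of integer coefficients, lowest first. -/
noncomputable def evalL : List ℤ → ℝ → ℝ
  | [], _ => 0
  | c :: cs, s => (c : ℝ) + s * evalL cs s

@[simp] lemma evalL_nil (s : ℝ) : evalL [] s = 0 := rfl
@[simp] lemma evalL_cons (c : ℤ) (cs : List ℤ) (s : ℝ) :
    evalL (c :: cs) s = (c : ℝ) + s * evalL cs s := rfl

lemma evalL_mulN3 (s : ℝ) : ∀ (l : List ℤ) (c : ℤ),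
    evalL (mulN3 c l) s = (c : ℝ) + (1 + 3 * s) * evalL l s := by
  intro l
  induction l with
  | nil => intro c; simp [mulN3]
  | cons x xs ih =>
    intro c
    simp only [mulN3, evalL_cons, ih]
    push_cast
    ring

lemma evalL_powN3 (s : ℝ) (l : List ℤ) : ∀ k : ℕ,
    evalL (powN3 k l) s = (1 + 3 * s) ^ k * evalL l s := by
  intro k
  induction k with
  | zero => simp [powN3]
  | succ k ih =>
    simp only [powN3, evalL_mulN3, ih]
    push_cast
    ring

lemma evalL_drop4 {E : ℤ} {l g : List ℤ} (h : drop4 E l = some g) (s : ℝ) :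
    evalL l s = (E : ℝ) + s ^ 4 * evalL g s := by
  match l, h with
  | a :: b :: c :: d :: g', h =>
    simp only [drop4] at h
    split_ifs at h with hc
    simp only [Option.some.injEq] at h
    subst h
    simp only [Bool.and_eq_true, beq_iff_eq] at hc
    obtain ⟨⟨⟨rfl, rfl⟩, rfl⟩, rfl⟩ := hc
    simp only [evalL_cons]
    push_cast
    ring

lemma evalL_neg (s : ℝ) : ∀ l : List ℤ, evalL (l.map (fun x => -x)) s = - evalL l s := by
  intro l
  induction l with
  | nil => simp
  | cons x xs ih =>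
    simp only [List.map_cons, evalL_cons, ih]
    push_cast
    ring

lemma evalL_flip (s : ℝ) : ∀ (l : List ℤ) (b : Bool),
    evalL (flipOdd b l) s = (if b then -1 else 1) * evalL l (-s) := by
  intro l
  induction l with
  | nil => intro b; simp [flipOdd]
  | cons x xs ih =>
    intro b
    simp only [flipOdd, evalL_cons, ih]
    cases b <;> simp <;> ring

lemma hom_sub_evalL (s : ℝ) : ∀ g : List ℤ,
    hom s 1 ((g.map Int.toNat).map (fun x : ℕ => (x : ℝ))) -
      hom s 1 ((g.map (fun x => Int.toNat (-x))).map (fun x : ℕ => (x : ℝ))) = evalL g s := by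
  intro g
  induction g with
  | nil => simp
  | cons x xs ih =>
    simp only [List.map_cons, hom_cons, evalL_cons, one_pow, mul_one, ← ih]
    have e : ((x.toNat : ℝ)) - (((-x).toNat : ℕ) : ℝ) = (x : ℝ) := by
      have := Int.toNat_sub_toNat_neg x
      exact_mod_cast this
    rw [← e]
    ring

/-- The domain of the one variable check. -/
def DomS (lim : ℕ × ℕ) (τ : List ℝ) : Prop := ∃ s : ℝ, τ = [s] ∧ s * lim.2 ≤ lim.1

lemma outS_sound (lim : ℕ × ℕ) (box : Bx) (τ : List ℝ) (h : outS lim box = true)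
    (hb : InBox τ box) : ¬ DomS lim τ := by
  rintro ⟨s, rfl, hs⟩
  match box, hb, h with
  | [b], hb, h =>
    simp only [outS, Nat.blt_eq] at h
    simp only [InBox] at hb
    have h1 : ((lim.1 * 2 ^ b.2 : ℕ) : ℝ) < ((b.1 * lim.2 : ℕ) : ℝ) := Nat.cast_lt.mpr h
    push_cast at h1
    have h2 := hb.1.1
    have h3 : (b.1 : ℝ) * lim.2 ≤ 2 ^ b.2 * s * lim.2 :=
      mul_le_mul_of_nonneg_right h2 (Nat.cast_nonneg _)
    have h4 : (2 : ℝ) ^ b.2 * (s * lim.2) ≤ 2 ^ b.2 * lim.1 :=
      mul_le_mul_of_nonneg_left hs (by positivity)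
    nlinarith [h1, h3, h4]
  | [], hb, _ => simp [InBox] at hb
  | _ :: _ :: _, hb, _ => simp [InBox] at hb

lemma fits_encI {W n r : ℕ} {l : List ℕ} (hl : l.length = n + 1) (h : ∀ x ∈ l, x < 2 ^ (W - r)) :
    Fits W [n] r (encI W l) := by
  refine ⟨l, hl, h, ?_⟩
  rw [encI_eq]
  simp

lemma val_encI {W n : ℕ} {l : List ℕ} (hl : l.length = n + 1) (h : ∀ x ∈ l, x < 2 ^ W) (e : ℝ × ℝ) :
    val W [n] (encI W l) [e] = hom e.1 e.2 (l.map (fun x : ℕ => (x : ℝ))) := by
  rw [encI_eq]
  have hW : W * sz [] = W := by simp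
  have := val_cons_enc (W := W) (n := n) (ns := []) (l := l) e [] hl (by simpa using h)
  rw [hW] at this
  rw [this]
  rfl

/-- Soundness of the one variable check. -/
theorem chk1_sound {W : ℕ} {g : List ℤ} {lim : ℕ × ℕ} {t : Tr} (h : chk1 W g lim t = true)
    {s : ℝ} (hs0 : 0 ≤ s) (hs1 : s ≤ 1) (hsl : s * lim.2 ≤ lim.1) : 0 ≤ evalL g s := by
  unfold chk1 at h
  cases hlen : g.length with
  | zero =>
    have : g = [] := List.length_eq_zero_iff.mp hlen
    subst this
    simp
  | succ n =>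
    rw [hlen] at h
    simp only [Bool.and_eq_true, Nat.ble_eq, Nat.blt_eq, List.all_eq_true, decide_eq_true_eq] at h
    obtain ⟨⟨⟨hW, _⟩, hp, hm⟩, hc⟩ := h
    set C := mkCtx W (2 * n + 1) (2 * n + 1) [n] with hC
    set lp := g.map Int.toNat with hlp
    set lm := g.map (fun x => Int.toNat (-x)) with hlm
    have hp' : ∀ x ∈ lp, x < 2 ^ (W - (2 * n + 1)) := by
      intro x hx
      simpa [Nat.blt_eq] using hp x hx
    have hm' : ∀ x ∈ lm, x < 2 ^ (W - (2 * n + 1)) := by
      intro x hx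
      simpa [Nat.blt_eq] using hm x hx
    have hpl : lp.length = n + 1 := by simp [hlp, hlen]
    have hml : lm.length = n + 1 := by simp [hlm, hlen]
    have fa := fits_encI hpl hp'
    have fb := fits_encI hml hm'
    have d0 : deg [n] 0 = n := rfl
    have ta := taylorT_fits (room := 2 * n + 1) (roomT := 2 * n + 1) 0 (by simp) fa (by rw [d0]; omega) hW
    have tb := taylorT_fits (room := 2 * n + 1) (roomT := 2 * n + 1) 0 (by simp) fb (by rw [d0]; omega) hW
    have hsound := chk_sound (W := W) (room := 2 * n + 1) (roomT := 2 * n + 1) (ns := [n])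
      (out := outS lim) (Dom := DomS lim) (by omega) hW
      (by
        intro j hj
        have : j = 0 := by simpa using hj
        subst this
        rw [d0])
      (outS_sound lim) t _ _ _ (fits_mono (by rw [d0]; omega) ta) (fits_mono (by rw [d0]; omega) tb)
      hc [s] [(s, 1 - s)] (cone_root ⟨hs0, hs1⟩ trivial) rfl ⟨s, rfl, hsl⟩
    rw [val_taylorT 0 (by simp) fa (by rw [d0]; omega) hW _ rfl,
      val_taylorT 0 (by simp) fb (by rw [d0]; omega) hW _ rfl] at hsound
    have hlt : ∀ {l : List ℕ}, (∀ x ∈ l, x < 2 ^ (W - (2 * n + 1))) → ∀ x ∈ l, x < 2 ^ W := by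
      intro l hl x hx
      exact lt_of_lt_of_le (hl x hx) (Nat.pow_le_pow_right (by norm_num) (Nat.sub_le _ _))
    simp only [envMap] at hsound
    rw [val_encI hpl (hlt hp'), val_encI hml (hlt hm')] at hsound
    simp only [fL, Nat.cast_zero, add_zero] at hsound
    have e1 : s + 1 * (1 - s) = 1 := by ring
    rw [e1] at hsound
    have := hom_sub_evalL s g
    rw [← hlp, ← hlm] at this
    linarith

/-- Real form of the sign of a coefficient. -/
theorem qCheck_sound {W k E : ℕ} {sgn : Bool} {q : List ℤ} {limP limM : ℕ × ℕ} {tP tM : Tr}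
    (h : qCheck W k E sgn q limP limM tP tM = true) {s : ℝ} (hs1 : s ≤ 1) (hs2 : -1 ≤ s)
    (hP : s * limP.2 ≤ limP.1) (hM : -s * limM.2 ≤ limM.1) :
    0 ≤ sgnR sgn * (evalL q s * (1 + 3 * s) ^ k - E) := by
  unfold qCheck at h
  cases hd : drop4 (E : ℤ) (powN3 k q) with
  | none => rw [hd] at h; simp at h
  | some g =>
    rw [hd] at h
    simp only [Bool.and_eq_true] at h
    obtain ⟨h1, h2⟩ := h
    have key := evalL_drop4 hd s
    rw [evalL_powN3] at key
    have e : sgnR sgn * (evalL q s * (1 + 3 * s) ^ k - E) =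
        s ^ 4 * evalL (if sgn then g else g.map (fun x => -x)) s := by
      have e1 : evalL q s * (1 + 3 * s) ^ k - (E : ℝ) = s ^ 4 * evalL g s := by
        push_cast at key
        linarith
      rw [e1]
      cases sgn with
      | true => simp [sgnR]
      | false => simp [sgnR, evalL_neg]
    rw [e]
    have hs4 : 0 ≤ s ^ 4 := by positivity
    apply mul_nonneg hs4
    rcases le_total 0 s with h0 | h0
    · exact chk1_sound h1 h0 hs1 hP
    · have := chk1_sound (s := -s) h2 (by linarith) (by linarith) hM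
      rw [evalL_flip] at this
      simpa using this

/-- Consequence for a coefficient `c` of a term. -/
lemma term_of_q {c : ℤ} {sgn : Bool} (hsgn : sgn = decide (0 ≤ c)) {Q N E : ℝ}
    (h : 0 ≤ sgnR sgn * (Q * N - E)) : (c : ℝ) * E ≤ (c : ℝ) * (Q * N) := by
  subst hsgn
  by_cases hc : 0 ≤ c
  · simp only [hc, decide_true, sgnR, if_true, one_mul] at h
    have hc' : (0 : ℝ) ≤ c := by exact_mod_cast hc
    nlinarith
  · simp only [hc, decide_false, sgnR, Bool.false_eq_true, if_false] at h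
    have hc' : (c : ℝ) ≤ 0 := by
      have : c ≤ 0 := by omega
      exact_mod_cast this
    nlinarith

/-- The five bounds of a merge inequality on the range of `s`. -/
structure QB (K : KCfg) (s : ℝ) : Prop where
  b1 : (K.c1 : ℝ) * K.E ≤ K.c1 * (evalL K.q1 s * (1 + 3 * s) ^ 1)
  b2 : (-(K.c5 : ℝ)) * K.E ≤ (-(K.c5 : ℝ)) * (evalL K.q2 s * (1 + 3 * s) ^ 2)
  b3 : (K.c2 : ℝ) * K.E ≤ K.c2 * (evalL K.q3 s * (1 + 3 * s) ^ 3)
  b4 : (K.c4 : ℝ) * K.E ≤ K.c4 * (evalL K.q4 s * (1 + 3 * s) ^ 4)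
  b5 : (K.c5 : ℝ) * K.E ≤ K.c5 * (evalL K.q5 s * (1 + 3 * s) ^ 5)

theorem allQ_sound {K : KCfg} {W : ℕ} {T : QTrees} (h : allQ K W T = true) {s : ℝ}
    (hs1 : s ≤ 1) (hs2 : -1 ≤ s) (hP : s * K.limP.2 ≤ K.limP.1) (hM : -s * K.limM.2 ≤ K.limM.1) :
    QB K s := by
  simp only [allQ, Bool.and_eq_true] at h
  obtain ⟨⟨⟨⟨h1, h3⟩, h4⟩, h5⟩, h2⟩ := h
  refine ⟨?_, ?_, ?_, ?_, ?_⟩
  · exact term_of_q (c := K.c1) rfl (qCheck_sound h1 hs1 hs2 hP hM)
  · have := term_of_q (c := -K.c5) (sgn := decide (4 * K.pp.c ≤ 0)) (by simp [KCfg.c5])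
      (qCheck_sound h2 hs1 hs2 hP hM)
    simpa using this
  · exact term_of_q (c := K.c2) rfl (qCheck_sound h3 hs1 hs2 hP hM)
  · exact term_of_q (c := K.c4) rfl (qCheck_sound h4 hs1 hs2 hP hM)
  · exact term_of_q (c := K.c5) rfl (qCheck_sound h5 hs1 hs2 hP hM)

end Vale.Agent.Lib.P154
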