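import Vale.Agent.Lib.P154.SemRoot

/-! Soundness of the quadrant check. -/

namespace Vale.Agent.Lib.P154

open List

/-- Domain of a pair `(P, t)` for the scale `p / q`, in sign quadrant `sg`. -/
structure DomP (l : ℕ × ℕ) (sg : Bool) (P t : ℝ) : Prop where
  h1 : 27 * (t * t) ≤ P
  h2 : 3 * ((l.2 : ℝ) * l.2) * P ≤ (l.1 : ℝ) * l.1
  h3 : 0 ≤ (l.1 : ℝ) * l.1 * l.1 - 9 * l.1 * (l.2 * l.2) * P +
    54 * ((l.2 : ℝ) * l.2 * l.2) * (P * (sgnR sg * t))

lemma outPair_sound {l : ℕ × ℕ} {sg : Bool} {bP bw : ℕ × ℕ} {P t : ℝ}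
    (hl : outPair l sg bP bw = true)
    (hP : (bP.1 : ℝ) ≤ 2 ^ bP.2 * P ∧ 2 ^ bP.2 * P ≤ bP.1 + 1)
    (ht : (bw.1 : ℝ) ≤ 2 ^ bw.2 * t ∧ 2 ^ bw.2 * t ≤ bw.1 + 1) :
    ¬ DomP l sg P t := by
  intro hD
  obtain ⟨p, q⟩ := l
  obtain ⟨lP, eP⟩ := bP
  obtain ⟨lw, ew⟩ := bw
  simp only at hP ht hD
  obtain ⟨hD1, hD2, hD3⟩ := hD
  simp only at hD1 hD2 hD3
  set A : ℝ := 2 ^ eP with hA
  set B : ℝ := 2 ^ ew with hB
  have hApos : 0 < A := by positivity
  have hBpos : 0 < B := by positivity
  have hlP : (0 : ℝ) ≤ lP := Nat.cast_nonneg _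
  have hlw : (0 : ℝ) ≤ lw := Nat.cast_nonneg _
  have hq : (0 : ℝ) ≤ q := Nat.cast_nonneg _
  have hp : (0 : ℝ) ≤ p := Nat.cast_nonneg _
  simp only [outPair, Bool.or_eq_true] at hl
  rcases hl with (h | h) | h
  · -- the first test
    have h' : ((lP + 1) * 2 ^ (2 * ew) : ℕ) < 27 * lw * lw * 2 ^ eP := by
      simpa [Nat.blt_eq] using h
    have h'' : ((lP : ℝ) + 1) * (B * B) < 27 * lw * lw * A := by
      have := (Nat.cast_lt (α := ℝ)).mpr h'
      push_cast at this
      have e : (2 : ℝ) ^ (2 * ew) = B * B := by rw [hB, two_mul, pow_add]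
      rwa [e] at this
    have hv : (lw : ℝ) * lw ≤ (B * t) * (B * t) := mul_self_le_mul_self hlw ht.1
    have h1 : A * P * (B * B) ≤ ((lP : ℝ) + 1) * (B * B) :=
      mul_le_mul_of_nonneg_right hP.2 (by positivity)
    have h2 : A * (27 * (t * t)) * (B * B) ≤ A * P * (B * B) := by
      have := mul_le_mul_of_nonneg_left hD1 hApos.le
      exact mul_le_mul_of_nonneg_right this (by positivity)
    have h3 : 27 * (lw : ℝ) * lw * A ≤ A * (27 * (t * t)) * (B * B) := by
      have := mul_le_mul_of_nonneg_left hv (by positivity : 0 ≤ 27 * A)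
      nlinarith [this]
    linarith
  · -- the second test
    have h' : (p * p * 2 ^ eP : ℕ) < 3 * q * q * lP := by simpa [Nat.blt_eq] using h
    have h'' : (p : ℝ) * p * A < 3 * q * q * lP := by
      have := (Nat.cast_lt (α := ℝ)).mpr h'
      push_cast at this
      exact this
    have h1 : 3 * (q : ℝ) * q * lP ≤ 3 * (q : ℝ) * q * (A * P) :=
      mul_le_mul_of_nonneg_left hP.1 (by positivity)
    have h2 := mul_le_mul_of_nonneg_left hD2 hApos.le
    nlinarith [h1, h2, h'']
  · -- the third test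
    cases sg with
    | true =>
      simp only [if_true, Bool.and_eq_true] at h
      obtain ⟨h4, h5⟩ := h
      have h4' : (6 * (lw + 1) * q : ℕ) < 2 ^ ew * p := by simpa [Nat.blt_eq] using h4
      have h5' : (p * p * p * 2 ^ eP * 2 ^ ew : ℕ) <
          9 * q * q * lP * (2 ^ ew * p - 6 * (lw + 1) * q) := by simpa [Nat.blt_eq] using h5
      have h6 : (6 * ((lw : ℝ) + 1) * q) < B * p := by
        have := (Nat.cast_lt (α := ℝ)).mpr h4'
        push_cast at this
        exact this
      have h7 : (p : ℝ) * p * p * A * B < 9 * q * q * lP * (B * p - 6 * (lw + 1) * q) := by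
        have := (Nat.cast_lt (α := ℝ)).mpr h5'
        push_cast [Nat.cast_sub h4'.le] at this
        exact this
      have hs : sgnR true = 1 := rfl
      rw [hs, one_mul] at hD3
      -- multiply the domain inequality by `A * B`
      have h8 : 0 ≤ A * B * ((p : ℝ) * p * p - 9 * p * (q * q) * P + 54 * ((q : ℝ) * q * q) * (P * t)) :=
        mul_nonneg (by positivity) hD3
      have e1 : A * B * ((p : ℝ) * p * p - 9 * p * (q * q) * P + 54 * ((q : ℝ) * q * q) * (P * t)) =
          (p : ℝ) * p * p * A * B - 9 * q * q * (A * P) * (B * p - 6 * q * (B * t)) := by ring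
      rw [e1] at h8
      have h9 : B * p - 6 * (lw + 1) * q ≤ B * p - 6 * q * (B * t) := by
        have := mul_le_mul_of_nonneg_left ht.2 (by positivity : (0 : ℝ) ≤ 6 * q)
        nlinarith [this]
      have h10 : 0 ≤ B * p - 6 * (lw + 1) * q := by linarith
      have h11 : (lP : ℝ) * (B * p - 6 * (lw + 1) * q) ≤ (A * P) * (B * p - 6 * q * (B * t)) :=
        mul_le_mul hP.1 h9 h10 (by linarith)
      have h12 := mul_le_mul_of_nonneg_left h11 (by positivity : (0 : ℝ) ≤ 9 * q * q)
      nlinarith [h12, h7, h8]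
    | false =>
      simp only [if_false, Bool.false_eq_true] at h
      have h5' : (p * p * p * 2 ^ eP * 2 ^ ew : ℕ) <
          9 * q * q * lP * (2 ^ ew * p + 6 * lw * q) := by simpa [Nat.blt_eq] using h
      have h7 : (p : ℝ) * p * p * A * B < 9 * q * q * lP * (B * p + 6 * lw * q) := by
        have := (Nat.cast_lt (α := ℝ)).mpr h5'
        push_cast at this
        exact this
      have hs : sgnR false = -1 := rfl
      rw [hs] at hD3
      have h8 : 0 ≤ A * B * ((p : ℝ) * p * p - 9 * p * (q * q) * P + 54 * ((q : ℝ) * q * q) * (P * (-1 * t))) :=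
        mul_nonneg (by positivity) hD3
      have e1 : A * B * ((p : ℝ) * p * p - 9 * p * (q * q) * P + 54 * ((q : ℝ) * q * q) * (P * (-1 * t))) =
          (p : ℝ) * p * p * A * B - 9 * q * q * (A * P) * (B * p + 6 * q * (B * t)) := by ring
      rw [e1] at h8
      have h9 : B * p + 6 * lw * q ≤ B * p + 6 * q * (B * t) := by
        have := mul_le_mul_of_nonneg_left ht.1 (by positivity : (0 : ℝ) ≤ 6 * q)
        nlinarith [this]
      have h10 : 0 ≤ B * p + 6 * lw * q := by positivity
      have h11 : (lP : ℝ) * (B * p + 6 * lw * q) ≤ (A * P) * (B * p + 6 * q * (B * t)) :=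
        mul_le_mul hP.1 h9 h10 (by linarith)
      have h12 := mul_le_mul_of_nonneg_left h11 (by positivity : (0 : ℝ) ≤ 9 * q * q)
      nlinarith [h12, h7, h8]

/-- The domain as a predicate on lists. -/
def DomK (K : KCfg) (sw sx : Bool) : List ℝ → Prop
  | [P, t, R, u] => DomP K.lamA sw P t ∧ DomP K.lamB sx R u
  | _ => False

lemma outK_sound (K : KCfg) (sw sx : Bool) (box : Bx) (τ : List ℝ)
    (h : outK K sw sx box = true) (hb : InBox τ box) : ¬ DomK K sw sx τ := by
  intro hD
  match box, τ, hb, h, hD with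
  | [bP, bw, bR, bx], [P, t, R, u], hb, h, hD =>
    simp only [InBox] at hb
    obtain ⟨h1, h2, h3, h4, _⟩ := hb
    simp only [outK, Bool.or_eq_true] at h
    simp only [DomK] at hD
    rcases h with h | h
    · exact outPair_sound h h1 h2 hD.1
    · exact outPair_sound h h3 h4 hD.2

lemma cone_root {τ : ℝ} (h : 0 ≤ τ ∧ τ ≤ 1) {ts : List ℝ} {box : Bx} {env : List (ℝ × ℝ)}
    (hc : Cone ts box env) : Cone (τ :: ts) ((0, 0) :: box) ((τ, 1 - τ) :: env) := by
  refine ⟨⟨1, one_pos, by simp, by simp⟩, ?_, hc⟩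
  simpa using h

lemma allSub_mem {K : KCfg} {sw sx : Bool} {A B : ℕ} : ∀ {L : List (Path × Tr)}, AllSub K sw sx A B L →
    ∀ e ∈ L, subCheck K sw sx A B e.1 e.2 = true := by
  intro L
  induction L with
  | nil => intro _ e he; simp at he
  | cons x xs ih =>
    intro h e he
    rcases List.mem_cons.mp he with rfl | he
    · exact h.1
    · exact ih h.2 e he

/-- Soundness of the check of a quadrant. -/
theorem quad_sound {K : KCfg} {sw sx : Bool} (hwf : wfK K = true) (hq : QuadChecked K sw sx)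
    {P t1 R t2 : ℝ} (hP : 0 ≤ P ∧ P ≤ 1) (ht1 : 0 ≤ t1 ∧ t1 ≤ 1) (hR : 0 ≤ R ∧ R ≤ 1)
    (ht2 : 0 ≤ t2 ∧ t2 ≤ 1) (hA : DomP K.lamA sw P t1) (hB : DomP K.lamB sx R t2) :
    0 ≤ rootR K P (sgnR sw * (t1 * P)) R (sgnR sx * (t2 * R)) := by
  obtain ⟨A, B, L, T, hrc, hcov, hall⟩ := hq
  have hc0 : Cone [P, t1, R, t2] root4 [(P, 1 - P), (t1, 1 - t1), (R, 1 - R), (t2, 1 - t2)] :=
    cone_root hP (cone_root ht1 (cone_root hR (cone_root ht2 trivial)))
  obtain ⟨b, hb, hinb⟩ := covers_sound T root4 hcov hc0.inBox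
  obtain ⟨e, he, rfl⟩ := List.mem_map.mp hb
  have h := allSub_mem hall e he
  obtain ⟨p, t⟩ := e
  simp only at h hinb
  obtain ⟨W, room, roomT, ns, den, pp, p0, pY, tn, E, q1, q2, q3, q4, q5, lamA, lamB⟩ := K
  match ns, hwf, h with
  | [n0, n1, n2, n3], hwf, h =>
    simp only [wfK, Bool.and_eq_true, Nat.ble_eq, Nat.blt_eq] at hwf
    obtain ⟨⟨⟨⟨⟨⟨⟨⟨⟨⟨⟨⟨⟨⟨⟨⟨h64, hroomW⟩, hroomTW⟩, hr0⟩, hr1⟩, hr2⟩, hr3⟩, hrT⟩, hEb⟩, _⟩, _⟩,
      _⟩, _⟩, _⟩, _⟩, _⟩, _⟩ := hwf
    set K : KCfg := ⟨W, room, roomT, [n0, n1, n2, n3], den, pp, p0, pY, tn, E, q1, q2, q3, q4, q5, lamA,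
      lamB⟩ with hK
    set env1 : List (ℝ × ℝ) := [(P, 1), (t1, 1), (R, 1), (t2, 1)] with henv1
    have hpt : Pt W room roomT [n0, n1, n2, n3] env1 sw sx P (sgnR sw * (t1 * P)) R (sgnR sx * (t2 * R)) := by
      refine ⟨h64, rfl, rfl, ?_, rfl, rfl, rfl, rfl⟩
      intro e he
      simp only [henv1, List.mem_cons, List.not_mem_nil, or_false] at he
      rcases he with rfl | rfl | rfl | rfl <;> rfl
    have hrep := rootPP_rep (K := K) hpt hEb
    simp only [rootCheck] at hrc
    cases hroot : rootPP K sw sx with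
    | none =>
      rw [hroot] at hrc
      simp at hrc
    | some x =>
      rw [hroot] at hrc
      simp only [Bool.and_eq_true] at hrc
      obtain ⟨hA1, hB1, hT⟩ := hrc
      have hA1' := Nat.eq_of_beq_eq_true hA1
      have hB1' := Nat.eq_of_beq_eq_true hB1
      have hc : pathChk K.ctx (outK K sw sx) p t (taylorAll K.ctx x.1) (taylorAll K.ctx x.2) root4 = true := by
        rw [hA1', hB1']
        exact h
      obtain ⟨f1, f2, hv⟩ := hrep x hroot
      have hT' := Nat.eq_of_beq_eq_true hT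
      simp only [KCfg.ctx, mkCtx, hK] at hT'
      obtain ⟨h7, h8⟩ := lor_land_zero hT'
      have g1 : Fits W [n0, n1, n2, n3] roomT x.1 :=
        fits_of_land hroomTW _ _ (fits_mono (by omega) f1) h7
      have g2 : Fits W [n0, n1, n2, n3] roomT x.2 :=
        fits_of_land hroomTW _ _ (fits_mono (by omega) f2) h8
      -- the Taylor passes
      have hfv : ∀ T, Fits W [n0, n1, n2, n3] roomT T →
          Fits W [n0, n1, n2, n3] 1 (taylorAll (mkCtx W room roomT [n0, n1, n2, n3]) T) ∧
          val W [n0, n1, n2, n3] (taylorAll (mkCtx W room roomT [n0, n1, n2, n3]) T)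
            [(P, 1 - P), (t1, 1 - t1), (R, 1 - R), (t2, 1 - t2)] =
          val W [n0, n1, n2, n3] T env1 := by
        intro T hTf
        have d0 : deg [n0, n1, n2, n3] 0 = n0 := rfl
        have d1 : deg [n0, n1, n2, n3] 1 = n1 := rfl
        have d2 : deg [n0, n1, n2, n3] 2 = n2 := rfl
        have d3 : deg [n0, n1, n2, n3] 3 = n3 := rfl
        have a3 := taylorT_fits (room := room) (roomT := roomT) 3 (by simp) hTf (by omega) hroomTW
        have a2 := taylorT_fits (room := room) (roomT := roomT) 2 (by simp) a3 (by omega) (by omega)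
        have a1 := taylorT_fits (room := room) (roomT := roomT) 1 (by simp) a2 (by omega) (by omega)
        have a0 := taylorT_fits (room := room) (roomT := roomT) 0 (by simp) a1 (by omega) (by omega)
        refine ⟨fits_mono (by omega) a0, ?_⟩
        simp only [taylorAll]
        rw [val_taylorT 0 (by simp) a1 (by omega) (by omega) _ (by simp),
          val_taylorT 1 (by simp) a2 (by omega) (by omega) _ (by simp),
          val_taylorT 2 (by simp) a3 (by omega) (by omega) _ (by simp),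
          val_taylorT 3 (by simp) hTf (by omega) (by omega) _ (by simp)]
        simp only [envMap, fL, henv1]
        congr 2
        · ext <;> simp
        · congr 1
          · ext <;> simp
          · congr 1
            · ext <;> simp
            · congr 1
              ext <;> simp
      obtain ⟨a1, a2⟩ := hfv x.1 g1
      obtain ⟨b1, b2⟩ := hfv x.2 g2
      have hs := pathChk_sound (W := W) (room := room) (roomT := roomT) (ns := [n0, n1, n2, n3])
        (out := outK K sw sx) (Dom := DomK K sw sx) (by omega) hroomW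
        (by
          intro j hj
          have hj' : j < 4 := by simpa using hj
          interval_cases j
          · exact hr0
          · exact hr1
          · exact hr2
          · exact hr3)
        (outK_sound K sw sx) p t _ _ _ a1 b1 hc [P, t1, R, t2]
        [(P, 1 - P), (t1, 1 - t1), (R, 1 - R), (t2, 1 - t2)]
        hc0 rfl ⟨hA, hB⟩ hinb
      rw [a2, b2] at hs
      have : rootR K P (sgnR sw * (t1 * P)) R (sgnR sx * (t2 * R)) =
          val W [n0, n1, n2, n3] x.1 env1 - val W [n0, n1, n2, n3] x.2 env1 := hv.symm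
      rw [this]
      linarith

end Vale.Agent.Lib.P154
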