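import Vale.Agent.Lib.P154.SemChk

/-! Real meaning of the polynomial assembly. -/

namespace Vale.Agent.Lib.P154

open List

/-- `o` represents the real number `v` at the point `env`. -/
def ORep (W : ℕ) (ns : List ℕ) (env : List (ℝ × ℝ)) (o : Option PP) (v : ℝ) : Prop :=
  ∀ x, o = some x → Fits W ns 1 x.1 ∧ Fits W ns 1 x.2 ∧ val W ns x.1 env - val W ns x.2 env = v

section basic

variable {W room roomT : ℕ} {ns : List ℕ} {env : List (ℝ × ℝ)}

lemma ORep.neg {o : Option PP} {v : ℝ} (h : ORep W ns env o v) : ORep W ns env (pNeg o) (-v) := by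
  intro x hx
  cases o with
  | none => simp [pNeg] at hx
  | some y =>
    simp only [pNeg, Option.some.injEq] at hx
    subst hx
    obtain ⟨h1, h2, h3⟩ := h y rfl
    exact ⟨h2, h1, by simp only; linarith⟩

lemma ORep_congr {W : ℕ} {ns : List ℕ} {env : List (ℝ × ℝ)} {o : Option PP} {u v : ℝ}
    (h : ORep W ns env o u) (e : u = v) : ORep W ns env o v := e ▸ h

/-- The sign of a quadrant as a real number. -/
noncomputable def sgnR (s : Bool) : ℝ := if s then 1 else -1

lemma ORep.sgn {o : Option PP} {v : ℝ} (s : Bool) (h : ORep W ns env o v) :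
    ORep W ns env (pSgn s o) (sgnR s * v) := by
  cases s with
  | true => simpa [pSgn, sgnR] using h
  | false => simpa [pSgn, sgnR] using h.neg

lemma fits1_of_land {W : ℕ} (hW : 1 ≤ W) (ns : List ℕ) (T : ℕ) (h : Fits W ns 0 T)
    (h2 : T &&& allDig W (2 ^ (W - 1)) ns = 0) : Fits W ns 1 T := by
  apply fits_of_land hW ns T h
  simpa using h2

lemma ORep.add (hW : 1 ≤ W) {a b : Option PP} {u v : ℝ} (ha : ORep W ns env a u)
    (hb : ORep W ns env b v) : ORep W ns env (pAdd (mkCtx W room roomT ns) a b) (u + v) := by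
  intro x hx
  cases a with
  | none => simp [pAdd] at hx
  | some y =>
    cases b with
    | none => simp [pAdd] at hx
    | some z =>
      simp only [pAdd] at hx
      split_ifs at hx with hc
      simp only [Option.some.injEq] at hx
      subst hx
      obtain ⟨h1, h2, h3⟩ := ha y rfl
      obtain ⟨h4, h5, h6⟩ := hb z rfl
      have hc' := Nat.eq_of_beq_eq_true hc
      simp only [mkCtx] at hc'
      obtain ⟨h7, h8⟩ := lor_land_zero hc'
      have f1 : Fits W ns 0 (y.1 + z.1) := fits_add (r := 1) le_rfl hW h1 h4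
      have f2 : Fits W ns 0 (y.2 + z.2) := fits_add (r := 1) le_rfl hW h2 h5
      refine ⟨fits1_of_land hW ns _ f1 h7, fits1_of_land hW ns _ f2 h8, ?_⟩
      simp only
      rw [val_add (r := 1) le_rfl hW h1 h4, val_add (r := 1) le_rfl hW h2 h5]
      linarith

lemma ORep.smulN (hW : 64 ≤ W) {a : Option PP} {v : ℝ} (k : ℕ) (ha : ORep W ns env a v) :
    ORep W ns env (pSmulN (mkCtx W room roomT ns) k a) (k * v) := by
  intro x hx
  cases a with
  | none => simp [pSmulN] at hx
  | some y =>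
    simp only [pSmulN] at hx
    split_ifs at hx with hc
    simp only [Option.some.injEq] at hx
    subst hx
    obtain ⟨h1, h2, h3⟩ := ha y rfl
    simp only [Bool.and_eq_true] at hc
    obtain ⟨hk, hc⟩ := hc
    have hk' : k < 2 ^ (smulBits - 1) := by simpa [Nat.blt_eq] using hk
    have hk2 : k ≤ 2 ^ 63 := by
      have : smulBits - 1 = 63 := rfl
      rw [this] at hk'
      exact le_of_lt hk'
    have hc' := Nat.eq_of_beq_eq_true hc
    simp only [mkCtx] at hc'
    obtain ⟨h7, h8⟩ := lor_land_zero hc'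
    have f1 : Fits W ns 64 y.1 := fits_of_land hW ns _ (fits_mono (by omega) h1) h7
    have f2 : Fits W ns 64 y.2 := fits_of_land hW ns _ (fits_mono (by omega) h2) h8
    refine ⟨fits_smul (q := 63) (s := 1) hk2 (by omega) f1,
      fits_smul (q := 63) (s := 1) hk2 (by omega) f2, ?_⟩
    simp only
    rw [val_smul (q := 63) (s := 1) hk2 (by omega) f1, val_smul (q := 63) (s := 1) hk2 (by omega) f2]
    rw [← h3]
    ring

lemma ORep.smul (hW : 64 ≤ W) {a : Option PP} {v : ℝ} (k : ℤ) (ha : ORep W ns env a v) :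
    ORep W ns env (pSmul (mkCtx W room roomT ns) k a) (k * v) := by
  cases k with
  | ofNat k =>
    simp only [pSmul]
    simpa using ha.smulN hW k
  | negSucc k =>
    simp only [pSmul]
    have := (ha.smulN (room := room) (roomT := roomT) hW (k + 1)).neg
    convert this using 1
    simp [Int.negSucc_eq]
    ring

lemma ORep.shift {a : Option PP} {v : ℝ} (j : ℕ) (hj : j < ns.length)
    (henv : env.length = ns.length) (h1 : ∀ e ∈ env, e.2 = 1) (ha : ORep W ns env a v) :
    ORep W ns env (pShift (mkCtx W room roomT ns) j a) ((env.getD j (0, 1)).1 * v) := by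
  intro x hx
  cases a with
  | none => simp [pShift] at hx
  | some y =>
    simp only [pShift] at hx
    split_ifs at hx with hc
    simp only [Option.some.injEq] at hx
    subst hx
    obtain ⟨h1', h2, h3⟩ := ha y rfl
    have hc' := Nat.eq_of_beq_eq_true hc
    rw [ctx_ax W room roomT ns j hj] at hc'
    obtain ⟨h7, h8⟩ := lor_land_zero hc'
    obtain ⟨_, hs⟩ := val_shift W ns j hj
    obtain ⟨f1, v1⟩ := hs y.1 1 env h1' h7
    obtain ⟨f2, v2⟩ := hs y.2 1 env h2 h8
    simp only [ctx_ax W room roomT ns j hj]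
    refine ⟨f1, f2, ?_⟩
    rw [v1 henv h1, v2 henv h1, ← h3]
    ring

lemma const_aux {W : ℕ} : ∀ (ns : List ℕ) (env : List (ℝ × ℝ)) (k r : ℕ), k < 2 ^ (W - r) →
    env.length = ns.length → (∀ e ∈ env, e.2 = 1) →
    Fits W ns r k ∧ val W ns k env = k := by
  intro ns
  induction ns with
  | nil =>
    intro env k r h henv _
    have : env = [] := by simpa using henv
    subst this
    exact ⟨h, rfl⟩
  | cons n ns ih =>
    intro env k r h henv h1
    cases env with
    | nil => simp at henv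
    | cons e es =>
      have hes : es.length = ns.length := by simpa using henv
      have h1' : ∀ e' ∈ es, e'.2 = 1 := fun e' he' => h1 e' (by simp [he'])
      obtain ⟨hf, hv⟩ := ih es k r h hes h1'
      have hzero' : ∀ m : ℕ, enc (W * sz ns) (List.replicate m 0) = 0 := by
        intro m
        induction m with
        | zero => simp
        | succ m ihm => simp [List.replicate_succ, ihm]
      have hzero := hzero' n
      have henc : k = enc (W * sz ns) (k :: List.replicate n 0) := by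
        simp [hzero]
      have hlen : (k :: List.replicate n 0).length = n + 1 := by simp
      have hlt : ∀ x ∈ (k :: List.replicate n 0), x < 2 ^ (W * sz ns) := by
        intro x hx
        simp only [List.mem_cons, List.mem_replicate] at hx
        rcases hx with rfl | ⟨_, rfl⟩
        · exact fits_lt hf
        · positivity
      constructor
      · refine ⟨k :: List.replicate n 0, hlen, ?_, henc⟩
        intro S hS
        simp only [List.mem_cons, List.mem_replicate] at hS
        rcases hS with rfl | ⟨_, rfl⟩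
        · exact hf
        · exact fits_zero W ns r
      · conv_lhs => rw [henc]
        rw [val_cons_enc e es hlen hlt]
        have he : e.2 = 1 := h1 e (by simp)
        have hz : ∀ m : ℕ, hom e.1 1 ((List.replicate m 0).map (fun S => val W ns S es)) = 0 := by
          intro m
          induction m with
          | zero => simp
          | succ m ihm =>
            simp only [List.replicate_succ, List.map_cons, hom_cons, ihm, val_zero]
            simp
        simp only [List.map_cons, hom_cons, he, one_pow, mul_one, hv, hz, mul_zero, add_zero]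

lemma ORep.constNat {k : ℕ} (h : k < 2 ^ (W - 1)) (henv : env.length = ns.length)
    (h1 : ∀ e ∈ env, e.2 = 1) : ORep W ns env (some (k, 0)) k := by
  intro x hx
  simp only [Option.some.injEq] at hx
  subst hx
  obtain ⟨f, v⟩ := const_aux ns env k 1 h henv h1
  obtain ⟨f0, v0⟩ := const_aux (W := W) ns env 0 1 (by positivity) henv h1
  refine ⟨f, f0, ?_⟩
  simp only
  rw [v, v0]
  simp

lemma ORep.const {k : ℤ} (h : k.natAbs < 2 ^ (W - 1)) (henv : env.length = ns.length)
    (h1 : ∀ e ∈ env, e.2 = 1) : ORep W ns env (pConst k) k := by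
  cases k with
  | ofNat k =>
    have := ORep.constNat (W := W) (ns := ns) (env := env) (k := k) (by simpa using h) henv h1
    simpa [pConst] using this
  | negSucc k =>
    have hk : k + 1 < 2 ^ (W - 1) := by simpa using h
    have := (ORep.constNat (W := W) (ns := ns) (env := env) (k := k + 1) hk henv h1).neg
    simp only [pConst]
    have e : (Int.negSucc k : ℝ) = -((k + 1 : ℕ) : ℝ) := by
      rw [Int.cast_negSucc]
    rw [e]
    simpa [pNeg] using this

end basic

/-! ### The module of polynomials in the basis `1, s, u, v, m, l` -/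

/-- Real vectors of the module. -/
structure V6R where
  c1 : ℝ
  cs : ℝ
  cu : ℝ
  cv : ℝ
  cm : ℝ
  cl : ℝ

/-- Multiplication by `s`, on real vectors. -/
noncomputable def mulSR (P Pp R Rp : ℝ) (E : V6R) : V6R :=
  { c1 := 2 * (P * (R * E.cs)) + (36 * (Pp * (R * E.cu)) + (36 * (P * (Rp * E.cv)) +
            54 * (Pp * (Rp * E.cm))))
    cs := E.c1 + (P * (R * E.cm) + 54 * (Pp * (Rp * E.cl)))
    cu := R * E.cv + (-3) * (P * (Rp * E.cl))
    cv := P * E.cu + (-3) * (Pp * (R * E.cl))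
    cm := E.cs + 2 * (P * (R * E.cl))
    cl := E.cm }

/-- Real counterpart of `qsum`. -/
noncomputable def qsumR (P Pp R Rp : ℝ) : List ℤ → V6R → ℝ
  | [], _ => 0
  | q :: qs, E => (q : ℝ) * E.c1 + qsumR P Pp R Rp qs (mulSR P Pp R Rp E)

/-- `x0 = 2 P + 2 R + 6 P R`. -/
noncomputable def x0R (P R : ℝ) : ℝ := 2 * P + 2 * R + 6 * P * R

/-- The vector of `X`. -/
noncomputable def eXR (P R : ℝ) : V6R := ⟨x0R P R, 2, 1, 1, 0, 0⟩

/-- The vector of `1`. -/
noncomputable def eOneR : V6R := ⟨1, 0, 0, 0, 0, 0⟩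

/-- The vector of `X ^ 2`. -/
noncomputable def eXXR (P Pp R Rp : ℝ) : V6R :=
  ⟨x0R P R * x0R P R + 8 * (P * R) + 24 * (P * (P * R)) + 24 * (P * (R * R)) + 144 * (Pp * R) +
      144 * (P * Rp) + 1296 * (Pp * Rp),
    4 * x0R P R + 24 * (P * R),
    2 * x0R P R + 36 * Rp + 4 * R,
    2 * x0R P R + 36 * Pp + 4 * P,
    4 - 12 * P - 12 * R,
    -24⟩

/-- `D = (1 - 9 P + 54 P') * (1 - 9 R + 54 R')`. -/
noncomputable def DR (P Pp R Rp : ℝ) : ℝ := (1 - 9 * P + 54 * Pp) * (1 - 9 * R + 54 * Rp)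

/-- `den * ψ` as a real number. -/
noncomputable def potR (den : ℕ) (p : Pot) (P Pp : ℝ) : ℝ :=
  2 * (den : ℝ) * P + 4 * (p.a : ℝ) * (P * P) + 12 * (p.b : ℝ) * (Pp * P) + 36 * (p.c : ℝ) * (Pp * Pp)

/-- The four coefficients of a potential in the terms of the merge inequality. -/
def KCfg.c1 (K : KCfg) : ℤ := 36 * (9 * (K.den : ℤ) - K.pp.b - K.pp.c)
def KCfg.c2 (K : KCfg) : ℤ := 81 * (4 * K.pp.a + 2 * K.pp.b + K.pp.c)
def KCfg.c4 (K : KCfg) : ℤ := 36 * (K.pp.b + K.pp.c)
def KCfg.c5 (K : KCfg) : ℤ := 4 * K.pp.c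

/-- The real polynomial assembled by `rootPP`. -/
noncomputable def rootR (K : KCfg) (P Pp R Rp : ℝ) : ℝ :=
  let S1 := qsumR P Pp R Rp K.q1 (eXR P R)
  let S2 := qsumR P Pp R Rp K.q2 eOneR
  let S3 := qsumR P Pp R Rp K.q3 (eXXR P Pp R Rp)
  let S4 := qsumR P Pp R Rp K.q4 (eXR P R)
  let S5 := qsumR P Pp R Rp K.q5 eOneR
  let D := DR P Pp R Rp
  324 * (K.E : ℝ) * (potR K.den K.p0 P Pp + potR K.den K.pY R Rp - 4 * (K.tn : ℝ) * (P * R)) -
    ((K.c1 : ℝ) * S1 + (K.c2 : ℝ) * S3 + (K.c4 : ℝ) * (D * S4) +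
      (K.c5 : ℝ) * (D * (D * S5) - 2 * (D * S2) + (K.E : ℝ)))

section assembly

variable {W room roomT : ℕ} {ns : List ℕ} {env : List (ℝ × ℝ)} {sw sx : Bool} {P Pp R Rp : ℝ}

/-- What is needed of a point. -/
structure Pt (W room roomT : ℕ) (ns : List ℕ) (env : List (ℝ × ℝ)) (sw sx : Bool) (P Pp R Rp : ℝ) : Prop where
  hW : 64 ≤ W
  hlen : ns.length = 4
  henv : env.length = 4
  h1 : ∀ e ∈ env, e.2 = 1
  hP : (env.getD 0 (0, 1)).1 = P
  hPp : sgnR sw * ((env.getD 1 (0, 1)).1 * P) = Pp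
  hR : (env.getD 2 (0, 1)).1 = R
  hRp : sgnR sx * ((env.getD 3 (0, 1)).1 * R) = Rp

abbrev OR (W : ℕ) (ns : List ℕ) (env : List (ℝ × ℝ)) := ORep W ns env

lemma Pt.add (hp : Pt W room roomT ns env sw sx P Pp R Rp) {a b : Option PP} {u v : ℝ}
    (ha : ORep W ns env a u) (hb : ORep W ns env b v) :
    ORep W ns env (pAdd (mkCtx W room roomT ns) a b) (u + v) :=
  ORep.add (by have := hp.hW; omega) ha hb

lemma Pt.smul (hp : Pt W room roomT ns env sw sx P Pp R Rp) {a : Option PP} {v : ℝ} (k : ℤ)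
    (ha : ORep W ns env a v) :
    ORep W ns env (pSmul (mkCtx W room roomT ns) k a) (k * v) :=
  ORep.smul hp.hW k ha

lemma Pt.shift (hp : Pt W room roomT ns env sw sx P Pp R Rp) {a : Option PP} {v : ℝ} (j : ℕ) (hj : j < 4)
    (ha : ORep W ns env a v) :
    ORep W ns env (pShift (mkCtx W room roomT ns) j a) ((env.getD j (0, 1)).1 * v) :=
  ORep.shift j (by rw [hp.hlen]; exact hj) (by rw [hp.henv, hp.hlen]) hp.h1 ha

lemma Pt.mP (hp : Pt W room roomT ns env sw sx P Pp R Rp) {a : Option PP} {v : ℝ}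
    (ha : ORep W ns env a v) : ORep W ns env (mP (mkCtx W room roomT ns) a) (P * v) := by
  have := hp.shift 0 (by norm_num) ha
  rwa [hp.hP] at this

lemma Pt.mR (hp : Pt W room roomT ns env sw sx P Pp R Rp) {a : Option PP} {v : ℝ}
    (ha : ORep W ns env a v) : ORep W ns env (mR (mkCtx W room roomT ns) a) (R * v) := by
  have := hp.shift 2 (by norm_num) ha
  rwa [hp.hR] at this

lemma Pt.mPp (hp : Pt W room roomT ns env sw sx P Pp R Rp) {a : Option PP} {v : ℝ}
    (ha : ORep W ns env a v) : ORep W ns env (mPp (mkCtx W room roomT ns) sw a) (Pp * v) := by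
  have h0 := hp.mP ha
  have h1 := hp.shift 1 (by norm_num) h0
  have h2 := ORep.sgn sw h1
  have e : sgnR sw * ((env.getD 1 (0, 1)).1 * (P * v)) = Pp * v := by
    rw [← hp.hPp]; ring
  rw [e] at h2
  exact h2

lemma Pt.mRp (hp : Pt W room roomT ns env sw sx P Pp R Rp) {a : Option PP} {v : ℝ}
    (ha : ORep W ns env a v) : ORep W ns env (mRp (mkCtx W room roomT ns) sx a) (Rp * v) := by
  have h0 := hp.mR ha
  have h1 := hp.shift 3 (by norm_num) h0
  have h2 := ORep.sgn sx h1
  have e : sgnR sx * ((env.getD 3 (0, 1)).1 * (R * v)) = Rp * v := by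
    rw [← hp.hRp]; ring
  rw [e] at h2
  exact h2

lemma Pt.cst (hp : Pt W room roomT ns env sw sx P Pp R Rp) {k : ℤ} (h : k.natAbs < 2 ^ (W - 1)) :
    ORep W ns env (pConst k) (k : ℝ) :=
  ORep.const h (by rw [hp.henv, hp.hlen]) hp.h1

lemma Pt.small (hp : Pt W room roomT ns env sw sx P Pp R Rp) {k : ℕ} (h : k ≤ 2 ^ 60) : k < 2 ^ (W - 1) := by
  have h1 : 2 ^ 61 ≤ 2 ^ (W - 1) := Nat.pow_le_pow_right (by norm_num) (by have := hp.hW; omega)
  have h2 : (2 : ℕ) ^ 60 < 2 ^ 61 := by norm_num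
  omega

lemma Pt.one (hp : Pt W room roomT ns env sw sx P Pp R Rp) : ORep W ns env (pConst 1) 1 := by
  have := hp.cst (k := 1) (hp.small (by norm_num))
  simpa using this

lemma Pt.zeroP (hp : Pt W room roomT ns env sw sx P Pp R Rp) : ORep W ns env zeroP 0 := by
  have := hp.cst (k := 0) (hp.small (by norm_num))
  simpa [pConst, Vale.Agent.Lib.P154.zeroP] using this

/-- A module element and its real vector. -/
structure VRep (W : ℕ) (ns : List ℕ) (env : List (ℝ × ℝ)) (E : V6) (e : V6R) : Prop where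
  c1 : ORep W ns env E.c1 e.c1
  cs : ORep W ns env E.cs e.cs
  cu : ORep W ns env E.cu e.cu
  cv : ORep W ns env E.cv e.cv
  cm : ORep W ns env E.cm e.cm
  cl : ORep W ns env E.cl e.cl

lemma Pt.mulS (hp : Pt W room roomT ns env sw sx P Pp R Rp) {E : V6} {e : V6R} (h : VRep W ns env E e) :
    VRep W ns env (Vale.Agent.Lib.P154.mulS (mkCtx W room roomT ns) sw sx E) (mulSR P Pp R Rp e) where
  c1 := by
    have h1 := hp.smul 2 (hp.mP (hp.mR h.cs))
    have h2 := hp.smul 36 (hp.mPp (hp.mR h.cu))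
    have h3 := hp.smul 36 (hp.mP (hp.mRp h.cv))
    have h4 := hp.smul 54 (hp.mPp (hp.mRp h.cm))
    have := hp.add h1 (hp.add h2 (hp.add h3 h4))
    simpa [Vale.Agent.Lib.P154.mulS, mulSR] using this
  cs := by
    have h2 := hp.mP (hp.mR h.cm)
    have h4 := hp.smul 54 (hp.mPp (hp.mRp h.cl))
    have := hp.add h.c1 (hp.add h2 h4)
    simpa [Vale.Agent.Lib.P154.mulS, mulSR] using this
  cu := by
    have h2 := hp.mR h.cv
    have h4 := hp.smul (-3) (hp.mP (hp.mRp h.cl))
    have := hp.add h2 h4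
    simpa [Vale.Agent.Lib.P154.mulS, mulSR] using this
  cv := by
    have h2 := hp.mP h.cu
    have h4 := hp.smul (-3) (hp.mPp (hp.mR h.cl))
    have := hp.add h2 h4
    simpa [Vale.Agent.Lib.P154.mulS, mulSR] using this
  cm := by
    have h4 := hp.smul 2 (hp.mP (hp.mR h.cl))
    have := hp.add h.cs h4
    simpa [Vale.Agent.Lib.P154.mulS, mulSR] using this
  cl := h.cm

lemma Pt.qsum (hp : Pt W room roomT ns env sw sx P Pp R Rp) : ∀ (q : List ℤ) {E : V6} {e : V6R},
    VRep W ns env E e →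
    ORep W ns env (Vale.Agent.Lib.P154.qsum (mkCtx W room roomT ns) sw sx q E) (qsumR P Pp R Rp q e) := by
  intro q
  induction q with
  | nil =>
    intro E e _
    simpa [Vale.Agent.Lib.P154.qsum, qsumR] using hp.zeroP
  | cons c cs ih =>
    intro E e h
    have h1 := hp.smul c h.c1
    have h2 := ih (hp.mulS h)
    have := hp.add h1 h2
    simpa [Vale.Agent.Lib.P154.qsum, qsumR] using this

lemma Pt.x0 (hp : Pt W room roomT ns env sw sx P Pp R Rp) :
    ORep W ns env (x0P (mkCtx W room roomT ns)) (x0R P R) := by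
  have h1 := hp.smul 2 (hp.mP hp.one)
  have h2 := hp.smul 2 (hp.mR hp.one)
  have h3 := hp.smul 6 (hp.mP (hp.mR hp.one))
  have := hp.add h1 (hp.add h2 h3)
  exact ORep_congr this (by simp only [x0R]; push_cast; ring)

lemma Pt.eOne (hp : Pt W room roomT ns env sw sx P Pp R Rp) :
    VRep W ns env Vale.Agent.Lib.P154.eOne eOneR :=
  ⟨hp.one, hp.zeroP, hp.zeroP, hp.zeroP, hp.zeroP, hp.zeroP⟩

lemma Pt.cstN (hp : Pt W room roomT ns env sw sx P Pp R Rp) (k : ℤ) (hk : k.natAbs ≤ 2 ^ 60) :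
    ORep W ns env (pConst k) (k : ℝ) := hp.cst (hp.small hk)

lemma Pt.eX (hp : Pt W room roomT ns env sw sx P Pp R Rp) :
    VRep W ns env (Vale.Agent.Lib.P154.eX (mkCtx W room roomT ns)) (eXR P R) := by
  refine ⟨hp.x0, ?_, hp.one, hp.one, hp.zeroP, hp.zeroP⟩
  exact ORep_congr (hp.cstN (k := 2) (by norm_num)) (by simp [eXR])

lemma Pt.mulX0 (hp : Pt W room roomT ns env sw sx P Pp R Rp) {a : Option PP} {v : ℝ}
    (ha : ORep W ns env a v) :
    ORep W ns env (Vale.Agent.Lib.P154.mulX0 (mkCtx W room roomT ns) a) (x0R P R * v) := by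
  have h1 := hp.smul 2 (hp.mP ha)
  have h2 := hp.smul 2 (hp.mR ha)
  have h3 := hp.smul 6 (hp.mP (hp.mR ha))
  have := hp.add h1 (hp.add h2 h3)
  exact ORep_congr this (by simp only [x0R]; push_cast; ring)

lemma Pt.eXX (hp : Pt W room roomT ns env sw sx P Pp R Rp) :
    VRep W ns env (Vale.Agent.Lib.P154.eXX (mkCtx W room roomT ns) sw sx) (eXXR P Pp R Rp) := by
  have hone := hp.one
  have hx0 := hp.x0 
  refine ⟨?_, ?_, ?_, ?_, ?_, ?_⟩
  · have h0 := hp.mulX0 hx0
    have h1 := hp.smul 8 (hp.mP (hp.mR hone))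
    have h2 := hp.smul 24 (hp.mP (hp.mP (hp.mR hone)))
    have h3 := hp.smul 24 (hp.mP (hp.mR (hp.mR hone)))
    have h4 := hp.smul 144 (hp.mPp (hp.mR hone))
    have h5 := hp.smul 144 (hp.mP (hp.mRp hone))
    have h6 := hp.smul 1296 (hp.mPp (hp.mRp hone))
    have := hp.add h0 (hp.add h1 (hp.add h2 (hp.add h3 (hp.add h4 (hp.add h5 h6)))))
    exact ORep_congr this (by simp only [eXXR]; push_cast; ring)
  · have h1 := hp.smul 4 hx0
    have h2 := hp.smul 24 (hp.mP (hp.mR hone))
    have := hp.add h1 h2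
    exact ORep_congr this (by simp only [eXXR]; push_cast; ring)
  · have h1 := hp.smul 2 hx0
    have h2 := hp.smul 36 (hp.mRp hone)
    have h3 := hp.smul 4 (hp.mR hone)
    have := hp.add h1 (hp.add h2 h3)
    exact ORep_congr this (by simp only [eXXR]; push_cast; ring)
  · have h1 := hp.smul 2 hx0
    have h2 := hp.smul 36 (hp.mPp hone)
    have h3 := hp.smul 4 (hp.mP hone)
    have := hp.add h1 (hp.add h2 h3)
    exact ORep_congr this (by simp only [eXXR]; push_cast; ring)
  · have h0 := hp.cstN (k := 4) (by norm_num)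
    have h1 := hp.smul (-12) (hp.mP hone)
    have h2 := hp.smul (-12) (hp.mR hone)
    have := hp.add h0 (hp.add h1 h2)
    exact ORep_congr this (by simp only [eXXR]; push_cast; ring)
  · have h0 := hp.cstN (k := -24) (by norm_num)
    exact ORep_congr h0 (by simp only [eXXR]; push_cast; ring)

lemma Pt.mulD (hp : Pt W room roomT ns env sw sx P Pp R Rp) {a : Option PP} {v : ℝ}
    (ha : ORep W ns env a v) :
    ORep W ns env (Vale.Agent.Lib.P154.mulD (mkCtx W room roomT ns) sw sx a) (DR P Pp R Rp * v) := by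
  have h1 := hp.smul (-9) (hp.mR ha)
  have h2 := hp.smul 54 (hp.mRp ha)
  have hb := hp.add ha (hp.add h1 h2)
  have h3 := hp.smul (-9) (hp.mP hb)
  have h4 := hp.smul 54 (hp.mPp hb)
  have := hp.add hb (hp.add h3 h4)
  exact ORep_congr this (by simp only [DR]; push_cast; ring)

lemma Pt.potA (hp : Pt W room roomT ns env sw sx P Pp R Rp) (den : ℕ) (p : Pot) :
    ORep W ns env (Vale.Agent.Lib.P154.potA (mkCtx W room roomT ns) sw den p) (potR den p P Pp) := by
  have hone := hp.one
  have h1 := hp.smul (2 * (den : ℤ)) (hp.mP hone)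
  have h2 := hp.smul (4 * p.a) (hp.mP (hp.mP hone))
  have h3 := hp.smul (12 * p.b) (hp.mPp (hp.mP hone))
  have h4 := hp.smul (36 * p.c) (hp.mPp (hp.mPp hone))
  have := hp.add h1 (hp.add h2 (hp.add h3 h4))
  exact ORep_congr this (by simp only [potR]; push_cast; ring)

lemma Pt.potB (hp : Pt W room roomT ns env sw sx P Pp R Rp) (den : ℕ) (p : Pot) :
    ORep W ns env (Vale.Agent.Lib.P154.potB (mkCtx W room roomT ns) sx den p) (potR den p R Rp) := by
  have hone := hp.one
  have h1 := hp.smul (2 * (den : ℤ)) (hp.mR hone)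
  have h2 := hp.smul (4 * p.a) (hp.mR (hp.mR hone))
  have h3 := hp.smul (12 * p.b) (hp.mRp (hp.mR hone))
  have h4 := hp.smul (36 * p.c) (hp.mRp (hp.mRp hone))
  have := hp.add h1 (hp.add h2 (hp.add h3 h4))
  exact ORep_congr this (by simp only [potR]; push_cast; ring)

end assembly

/-- The assembled polynomial at a point. -/
lemma rootPP_rep {K : KCfg} {env : List (ℝ × ℝ)} {sw sx : Bool} {P Pp R Rp : ℝ}
    (hp : Pt K.W K.room K.roomT K.ns env sw sx P Pp R Rp)
    (hE : (Int.natAbs (4 * K.pp.c * (K.E : ℤ))) < 2 ^ (K.W - 1)) :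
    ORep K.W K.ns env (rootPP K sw sx) (rootR K P Pp R Rp) := by
  have hq : ∀ (q : List ℤ) {E : V6} {e : V6R}, VRep K.W K.ns env E e →
      ORep K.W K.ns env (Vale.Agent.Lib.P154.qsum K.ctx sw sx q E) (qsumR P Pp R Rp q e) :=
    fun q _ _ h => hp.qsum q h
  have hS1 := hq K.q1 (hp.eX )
  have hS2 := hq K.q2 hp.eOne
  have hS3 := hq K.q3 (hp.eXX )
  have hS4 := hq K.q4 (hp.eX )
  have hS5 := hq K.q5 hp.eOne
  have hrhs := hp.add 
    (hp.potA K.den K.p0)
    (hp.add 
      (hp.potB K.den K.pY)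
      (hp.smul (-(4 * (K.tn : ℤ)))
        (hp.mP (hp.mR hp.one))))
  have hc5 : ORep K.W K.ns env (pConst (4 * K.pp.c * (K.E : ℤ))) ((4 * K.pp.c * (K.E : ℤ) : ℤ) : ℝ) :=
    hp.cst hE
  have h1 := hp.smul K.c1 hS1
  have h2 := hp.smul K.c2 hS3
  have h3 := hp.smul K.c4
    (hp.mulD hS4)
  have h4 := hp.smul K.c5
    (hp.mulD (hp.mulD hS5))
  have h5 := hp.smul (-2 * K.c5)
    (hp.mulD hS2)
  have hlhs := hp.add h1
    (hp.add h2
      (hp.add h3
        (hp.add h4
          (hp.add h5 hc5))))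
  have hbig := hp.smul (324 * (K.E : ℤ)) hrhs
  have := hp.add hbig hlhs.neg
  have e : rootPP K sw sx = pAdd (mkCtx K.W K.room K.roomT K.ns)
      (pSmul (mkCtx K.W K.room K.roomT K.ns) (324 * (K.E : ℤ))
        (pAdd (mkCtx K.W K.room K.roomT K.ns)
          (Vale.Agent.Lib.P154.potA (mkCtx K.W K.room K.roomT K.ns) sw K.den K.p0)
          (pAdd (mkCtx K.W K.room K.roomT K.ns)
            (Vale.Agent.Lib.P154.potB (mkCtx K.W K.room K.roomT K.ns) sx K.den K.pY)
            (pSmul (mkCtx K.W K.room K.roomT K.ns) (-(4 * (K.tn : ℤ)))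
              (Vale.Agent.Lib.P154.mP (mkCtx K.W K.room K.roomT K.ns)
                (Vale.Agent.Lib.P154.mR (mkCtx K.W K.room K.roomT K.ns) (pConst 1)))))))
      (pNeg (pAdd (mkCtx K.W K.room K.roomT K.ns)
        (pSmul (mkCtx K.W K.room K.roomT K.ns) K.c1 (Vale.Agent.Lib.P154.qsum K.ctx sw sx K.q1 (Vale.Agent.Lib.P154.eX K.ctx)))
        (pAdd (mkCtx K.W K.room K.roomT K.ns)
          (pSmul (mkCtx K.W K.room K.roomT K.ns) K.c2 (Vale.Agent.Lib.P154.qsum K.ctx sw sx K.q3 (Vale.Agent.Lib.P154.eXX K.ctx sw sx)))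
          (pAdd (mkCtx K.W K.room K.roomT K.ns)
            (pSmul (mkCtx K.W K.room K.roomT K.ns) K.c4 (Vale.Agent.Lib.P154.mulD K.ctx sw sx (Vale.Agent.Lib.P154.qsum K.ctx sw sx K.q4 (Vale.Agent.Lib.P154.eX K.ctx))))
            (pAdd (mkCtx K.W K.room K.roomT K.ns)
              (pSmul (mkCtx K.W K.room K.roomT K.ns) K.c5 (Vale.Agent.Lib.P154.mulD K.ctx sw sx (Vale.Agent.Lib.P154.mulD K.ctx sw sx (Vale.Agent.Lib.P154.qsum K.ctx sw sx K.q5 Vale.Agent.Lib.P154.eOne))))
              (pAdd (mkCtx K.W K.room K.roomT K.ns)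
                (pSmul (mkCtx K.W K.room K.roomT K.ns) (-2 * K.c5) (Vale.Agent.Lib.P154.mulD K.ctx sw sx (Vale.Agent.Lib.P154.qsum K.ctx sw sx K.q2 Vale.Agent.Lib.P154.eOne)))
                (pConst (4 * K.pp.c * (K.E : ℤ))))))))) := by
    rfl
  rw [e]
  exact ORep_congr this (by simp only [rootR, KCfg.c5]; push_cast; ring)

end Vale.Agent.Lib.P154
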