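import Vale.Agent.Lib.P154.SemVal

/-! The passes of the subdivision: digit level description and real values. -/

namespace Vale.Agent.Lib.P154

open List

lemma enc_append (b : ℕ) (u v : List ℕ) :
    enc b (u ++ v) = enc b u + 2 ^ (b * u.length) * enc b v := by
  induction u with
  | nil => simp
  | cons c cs ih =>
    simp only [List.cons_append, enc_cons, ih, List.length_cons]
    have : 2 ^ (b * (cs.length + 1)) = 2 ^ b * 2 ^ (b * cs.length) := by
      rw [← pow_add]; congr 1; ring
    rw [this]
    ring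

lemma split_list {l : List ℕ} {a k : ℕ} (h : l.length = a + k + 1) :
    ∃ (pre : List ℕ) (c : ℕ) (g : List ℕ), l = pre ++ c :: g ∧ pre.length = a ∧ g.length = k := by
  have h1 : (l.drop a).length = k + 1 := by simp [h]; omega
  cases h2 : l.drop a with
  | nil => rw [h2] at h1; simp at h1
  | cons c g =>
    refine ⟨l.take a, c, g, ?_, ?_, ?_⟩
    · rw [← h2, List.take_append_drop]
    · simp [h]; omega
    · rw [h2] at h1; simpa using h1

/-! ### Right child -/

def mulLin : ℕ → List ℕ → List ℕ
  | acc, [] => [acc]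
  | acc, g :: gs => (acc + g) :: mulLin (2 * g) gs

def RR : List ℕ → List ℕ
  | [] => []
  | c :: cs => mulLin c (RR cs)

@[simp] lemma length_mulLin (acc : ℕ) (g : List ℕ) : (mulLin acc g).length = g.length + 1 := by
  induction g generalizing acc with
  | nil => rfl
  | cons a as ih => simp [mulLin, ih]

@[simp] lemma length_RR (l : List ℕ) : (RR l).length = l.length := by
  induction l with
  | nil => rfl
  | cons a as ih => simp [RR, ih]

lemma enc_mulLin (b acc : ℕ) (g : List ℕ) :
    enc b (mulLin acc g) = acc + enc b g + 2 * 2 ^ b * enc b g := by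
  induction g generalizing acc with
  | nil => simp [mulLin]
  | cons a as ih =>
    simp only [mulLin, enc_cons, ih]
    ring

lemma passR_head {b k a L c G : ℕ} (hL : L < 2 ^ (b * a)) (hc : c < 2 ^ b)
    (hG : G < 2 ^ (b * (k + 1))) :
    passR b ((2 ^ (b * (k + 1)) - 1) * 2 ^ (b * (a + 1)), (2 ^ (b * (k + 1)) - 1) * 2 ^ (b * a))
      (L + 2 ^ (b * a) * (c + 2 ^ b * G)) = L + 2 ^ (b * a) * (c + G + 2 * 2 ^ b * G) := by
  have e1 : 2 ^ (b * (a + 1)) = 2 ^ b * 2 ^ (b * a) := by rw [← pow_add]; congr 1; ring
  have hb : 0 < 2 ^ b := by positivity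
  have hba : 0 < 2 ^ (b * a) := by positivity
  set Low := L + 2 ^ (b * a) * c with hLow
  have hLow' : Low < 2 ^ (b * (a + 1)) := by
    rw [e1]
    have : c + 1 ≤ 2 ^ b := hc
    calc Low < 2 ^ (b * a) + 2 ^ (b * a) * c := by omega
      _ = 2 ^ (b * a) * (c + 1) := by ring
      _ ≤ 2 ^ (b * a) * 2 ^ b := Nat.mul_le_mul_left _ this
      _ = 2 ^ b * 2 ^ (b * a) := by ring
  have hT : L + 2 ^ (b * a) * (c + 2 ^ b * G) = Low + 2 ^ (b * (a + 1)) * G := by
    rw [hLow, e1]; ring
  have h1 : (L + 2 ^ (b * a) * (c + 2 ^ b * G)) &&& ((2 ^ (b * (k + 1)) - 1) * 2 ^ (b * (a + 1)))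
      = 2 ^ (b * (a + 1)) * G := by
    rw [hT]; exact land_range hLow' hG
  have h2 : (L + 2 ^ (b * a) * (c + 2 ^ b * G)) >>> b = Low / 2 ^ b + 2 ^ (b * a) * G := by
    rw [hT, Nat.shiftRight_eq_div_pow, e1, mul_assoc, Nat.add_mul_div_left _ _ hb]
  have hL2 : Low / 2 ^ b < 2 ^ (b * a) := by
    rw [Nat.div_lt_iff_lt_mul hb]
    rw [e1] at hLow'
    calc Low < 2 ^ b * 2 ^ (b * a) := hLow'
      _ = 2 ^ (b * a) * 2 ^ b := by ring
  have h3 : ((L + 2 ^ (b * a) * (c + 2 ^ b * G)) >>> b) &&& ((2 ^ (b * (k + 1)) - 1) * 2 ^ (b * a))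
      = 2 ^ (b * a) * G := by
    rw [h2]; exact land_range hL2 hG
  simp only [passR]
  rw [h1, h3, e1]
  ring

lemma runR_head (b : ℕ) :
    ∀ (l : List ℕ) (k a L : ℕ), l.length = k + 1 → L < 2 ^ (b * a) →
      (∀ S ∈ l, S < 2 ^ b) → (∀ cs, cs <:+ l → ∀ S ∈ RR cs, S < 2 ^ b) →
      runR b (rmasks b a k) (L + 2 ^ (b * a) * enc b l) = L + 2 ^ (b * a) * enc b (RR l) := by
  intro l
  induction l with
  | nil => intro k a L h; simp at h
  | cons c cs ih =>
    intro k a L hl hL hc hsuf
    cases k with
    | zero =>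
      have hcs : cs = [] := by simpa using hl
      subst hcs
      simp [rmasks, runR, RR, mulLin]
    | succ k =>
      have hcs : cs.length = k + 1 := by simpa using hl
      have hc0 : c < 2 ^ b := hc c (by simp)
      have e1 : 2 ^ (b * (a + 1)) = 2 ^ b * 2 ^ (b * a) := by rw [← pow_add]; congr 1; ring
      have hL' : L + 2 ^ (b * a) * c < 2 ^ (b * (a + 1)) := by
        rw [e1]
        have : c + 1 ≤ 2 ^ b := hc0
        calc L + 2 ^ (b * a) * c < 2 ^ (b * a) + 2 ^ (b * a) * c := by omega
          _ = 2 ^ (b * a) * (c + 1) := by ring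
          _ ≤ 2 ^ (b * a) * 2 ^ b := Nat.mul_le_mul_left _ this
          _ = 2 ^ b * 2 ^ (b * a) := by ring
      have hsuf' : ∀ ds, ds <:+ cs → ∀ S ∈ RR ds, S < 2 ^ b := fun ds hds =>
        hsuf ds (hds.trans (List.suffix_cons c cs))
      have hRcs : ∀ S ∈ RR cs, S < 2 ^ b := hsuf' cs (List.suffix_refl cs)
      have hT : L + 2 ^ (b * a) * enc b (c :: cs)
          = (L + 2 ^ (b * a) * c) + 2 ^ (b * (a + 1)) * enc b cs := by
        simp only [enc_cons, e1]; ring
      have key := ih k (a + 1) (L + 2 ^ (b * a) * c) hcs hL'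
        (fun x hx => hc x (by simp [hx])) hsuf'
      have hG : enc b (RR cs) < 2 ^ (b * (k + 1)) := by
        have := enc_lt hRcs
        rwa [length_RR, hcs] at this
      simp only [rmasks, runR]
      rw [hT, key]
      have hT2 : (L + 2 ^ (b * a) * c) + 2 ^ (b * (a + 1)) * enc b (RR cs)
          = L + 2 ^ (b * a) * (c + 2 ^ b * enc b (RR cs)) := by
        rw [e1]; ring
      rw [hT2, passR_head hL hc0 hG]
      simp only [RR, enc_mulLin]

lemma mulLin_fits {W : ℕ} {ns : List ℕ} {t : ℕ} (ht : 2 ≤ t) (htW : t ≤ W) :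
    ∀ (g : List ℕ) (acc : ℕ), Fits W ns (t - 1) acc → (∀ S ∈ g, Fits W ns t S) →
      ∀ S ∈ mulLin acc g, Fits W ns (t - 2) S := by
  intro g
  induction g with
  | nil =>
    intro acc hacc _ S hS
    simp only [mulLin, List.mem_singleton] at hS
    subst hS
    exact fits_mono (by omega) hacc
  | cons a as ih =>
    intro acc hacc hg S hS
    simp only [mulLin, List.mem_cons] at hS
    have ha : Fits W ns t a := hg a (by simp)
    rcases hS with rfl | hS
    · have := fits_add (r := t - 1) (by omega) (by omega) hacc (fits_mono (by omega) ha)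
      have e : t - 1 - 1 = t - 2 := by omega
      rwa [e] at this
    · refine ih (2 * a) ?_ (fun x hx => hg x (by simp [hx])) S hS
      exact two_mul_fits (s := t - 1) (by omega) (by
        have : t - 1 + 1 = t := by omega
        rwa [this])

lemma RR_fits {W : ℕ} {ns : List ℕ} {s : ℕ} (hsW : s ≤ W) :
    ∀ (l : List ℕ) (k : ℕ), l.length = k + 1 → 2 * k ≤ s → (∀ S ∈ l, Fits W ns s S) →
      ∀ S ∈ RR l, Fits W ns (s - 2 * k) S := by
  intro l
  induction l with
  | nil => intro k h; simp at h
  | cons c cs ih =>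
    intro k hl hk hS S hS'
    cases k with
    | zero =>
      have hcs : cs = [] := by simpa using hl
      subst hcs
      simp only [RR, mulLin, List.mem_singleton] at hS'
      rw [hS']
      simpa using hS c (by simp)
    | succ k =>
      have hcs : cs.length = k + 1 := by simpa using hl
      have h1 := ih k hcs (by omega) (fun x hx => hS x (by simp [hx]))
      simp only [RR] at hS'
      have h2 := mulLin_fits (W := W) (ns := ns) (t := s - 2 * k) (by omega) (by omega) (RR cs) c
        (fits_mono (by omega) (hS c (by simp))) h1 S hS'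
      have e : s - 2 * k - 2 = s - 2 * (k + 1) := by omega
      rwa [e] at h2

lemma RR_suffix_fits {W : ℕ} {ns : List ℕ} {s : ℕ} (hsW : s ≤ W) (l : List ℕ) (k : ℕ)
    (hl : l.length = k + 1) (hk : 2 * k ≤ s) (hS : ∀ S ∈ l, Fits W ns s S) :
    ∀ cs, cs <:+ l → ∀ S ∈ RR cs, S < 2 ^ (W * sz ns) := by
  intro cs hcs S hS'
  cases cs with
  | nil => simp [RR] at hS'
  | cons c ds =>
    have hlen : (c :: ds).length ≤ l.length := hcs.length_le
    have := RR_fits (W := W) (ns := ns) hsW (c :: ds) ds.length (by simp) (by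
      simp only [List.length_cons] at hlen
      omega) (fun x hx => hS x (hcs.subset hx)) S hS'
    exact fits_lt this

/-- The value of the left factor of a `mulLin`. -/
lemma hom_mulLin {W : ℕ} {ns : List ℕ} {t : ℕ} (ht : 2 ≤ t) (htW : t ≤ W) (x y : ℝ)
    (env : List (ℝ × ℝ)) :
    ∀ (g : List ℕ) (acc : ℕ), Fits W ns (t - 1) acc → (∀ S ∈ g, Fits W ns t S) →
      hom x y ((mulLin acc g).map (fun S => val W ns S env)) =
        val W ns acc env * y ^ g.length +
          (2 * x + y) * hom x y (g.map (fun S => val W ns S env)) := by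
  intro g
  induction g with
  | nil => intro acc _ _; simp [mulLin]
  | cons a as ih =>
    intro acc hacc hg
    have ha : Fits W ns t a := hg a (by simp)
    have ha' : Fits W ns (t - 1) a := fits_mono (by omega) ha
    have h2 : Fits W ns (t - 1) (2 * a) := two_mul_fits (s := t - 1) (by omega) (by
      have : t - 1 + 1 = t := by omega
      rwa [this])
    have hv1 := val_add (r := t - 1) (by omega) (by omega) hacc ha' env
    have hv2 := val_two_mul (s := t - 1) (by omega) (by
      have : t - 1 + 1 = t := by omega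
      rwa [this] : Fits W ns (t - 1 + 1) a) env
    simp only [mulLin, List.map_cons, hom_cons, List.length_map, length_mulLin, List.length_cons]
    rw [ih (2 * a) h2 (fun x hx => hg x (by simp [hx])), hv1, hv2]
    ring

lemma hom_RR {W : ℕ} {ns : List ℕ} {s : ℕ} (hsW : s ≤ W) (x y : ℝ) (env : List (ℝ × ℝ)) :
    ∀ (l : List ℕ) (k : ℕ), l.length = k + 1 → 2 * k ≤ s → (∀ S ∈ l, Fits W ns s S) →
      hom x y ((RR l).map (fun S => val W ns S env)) =
        hom (2 * x + y) y (l.map (fun S => val W ns S env)) := by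
  intro l
  induction l with
  | nil => intro k h; simp at h
  | cons c cs ih =>
    intro k hl hk hS
    cases k with
    | zero =>
      have hcs : cs = [] := by simpa using hl
      subst hcs
      simp [RR, mulLin]
    | succ k =>
      have hcs : cs.length = k + 1 := by simpa using hl
      have h1 := RR_fits (W := W) (ns := ns) hsW cs k hcs (by omega)
        (fun x hx => hS x (by simp [hx]))
      simp only [RR, List.map_cons, hom_cons, List.length_map]
      rw [hom_mulLin (W := W) (ns := ns) (t := s - 2 * k) (by omega) (by omega) x y env (RR cs) c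
        (fits_mono (by omega) (hS c (by simp))) h1, length_RR,
        ih k hcs (by omega) (fun x hx => hS x (by simp [hx]))]

/-! ### Left child and Taylor shift -/

def stepL (κ : ℕ) : ℕ → List ℕ → ℕ → List ℕ
  | carry, [], c => [carry + c]
  | carry, g :: gs, c => ((1 + κ) * g + carry) :: stepL κ g gs c

def LL (κ : ℕ) : List ℕ → List ℕ → List ℕ
  | ps, [] => ps
  | ps, c :: rest => LL κ (stepL κ 0 ps c) rest

@[simp] lemma length_stepL (κ carry : ℕ) (g : List ℕ) (c : ℕ) :
    (stepL κ carry g c).length = g.length + 1 := by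
  induction g generalizing carry with
  | nil => rfl
  | cons a as ih => simp [stepL, ih]

@[simp] lemma length_LL (κ : ℕ) (ps rest : List ℕ) :
    (LL κ ps rest).length = ps.length + rest.length := by
  induction rest generalizing ps with
  | nil => simp [LL]
  | cons a as ih => simp [LL, ih]; omega

lemma enc_stepL (b κ carry : ℕ) (g : List ℕ) (c : ℕ) :
    enc b (stepL κ carry g c) = carry + (1 + κ + 2 ^ b) * enc b g + 2 ^ (b * g.length) * c := by
  induction g generalizing carry with
  | nil => simp [stepL]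
  | cons a as ih =>
    simp only [stepL, enc_cons, ih, List.length_cons]
    have : 2 ^ (b * (as.length + 1)) = 2 ^ b * 2 ^ (b * as.length) := by
      rw [← pow_add]; congr 1; ring
    rw [this]
    ring

/-- Select the doubling part of a left pass. -/
def selK (κ : ℕ) (m : ℕ × ℕ) : ℕ × ℕ := (κ * m.1, m.2)

lemma shl_range {b f G H : ℕ} (hG : G < 2 ^ f) :
    ((G + 2 ^ f * H) <<< b) &&& ((2 ^ f - 1) * 2 ^ b) = 2 ^ b * G := by
  apply Nat.eq_of_testBit_eq
  intro j
  rw [Nat.testBit_and, Nat.testBit_shiftLeft, mul_comm (2 ^ f - 1), Nat.testBit_two_pow_mul,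
    Nat.testBit_two_pow_mul, Nat.testBit_two_pow_sub_one, add_comm G,
    ]
  by_cases hj : b ≤ j
  · simp only [hj, decide_true, Bool.true_and]
    rw [Nat.testBit_two_pow_mul_add _ hG]
    by_cases h2 : j - b < f
    · simp [h2]
    · simp [h2, Nat.testBit_lt_two_pow (lt_of_lt_of_le hG (Nat.pow_le_pow_right (by norm_num) (by omega : f ≤ j - b)))]
  · simp [hj]

lemma passL_head {b f κ G H : ℕ} (hκ : κ ≤ 1) (hG : G < 2 ^ f) :
    passL b (selK κ (2 ^ f - 1, (2 ^ f - 1) * 2 ^ b)) (G + 2 ^ f * H) =
      (1 + κ + 2 ^ b) * G + 2 ^ f * H := by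
  have h1 : (G + 2 ^ f * H) &&& (κ * (2 ^ f - 1)) = κ * G := by
    interval_cases κ
    · simp
    · simp only [one_mul, Nat.and_two_pow_sub_one_eq_mod]
      rw [Nat.add_mul_mod_self_left, Nat.mod_eq_of_lt hG]
  simp only [passL, selK]
  rw [h1, shl_range hG]
  ring

lemma runL_head (b κ : ℕ) (hκ : κ ≤ 1) :
    ∀ (rest ps : List ℕ), (∀ ds, ds <+: rest → ∀ S ∈ LL κ ps ds, S < 2 ^ b) →
      (∀ S ∈ ps, S < 2 ^ b) →
      runL b ((lmasks b ps.length rest.length).map (selK κ))
        (enc b ps + 2 ^ (b * ps.length) * enc b rest) = enc b (LL κ ps rest) := by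
  intro rest
  induction rest with
  | nil =>
    intro ps _ _
    simp [lmasks, runL, LL]
  | cons c cs ih =>
    intro ps hpre hps
    have hG : enc b ps < 2 ^ (b * ps.length) := enc_lt hps
    have hstep : ∀ S ∈ stepL κ 0 ps c, S < 2 ^ b := by
      intro S hS
      have := hpre [c] (by simp) S
      simp only [LL] at this
      exact this hS
    simp only [lmasks, List.map_cons, runL, List.length_cons]
    rw [passL_head hκ hG]
    have e1 : (1 + κ + 2 ^ b) * enc b ps + 2 ^ (b * ps.length) * enc b (c :: cs) =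
        enc b (stepL κ 0 ps c) + 2 ^ (b * (stepL κ 0 ps c).length) * enc b cs := by
      rw [enc_stepL, length_stepL]
      have : 2 ^ (b * (ps.length + 1)) = 2 ^ b * 2 ^ (b * ps.length) := by
        rw [← pow_add]; congr 1; ring
      rw [this]
      simp only [enc_cons]
      ring
    have e2 : ps.length + 1 = (stepL κ 0 ps c).length := by simp
    rw [e1, e2]
    refine ih (stepL κ 0 ps c) ?_ hstep
    intro ds hds S hS
    have := hpre (c :: ds) (by simpa using hds) S
    simp only [LL] at this
    exact this hS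

lemma stepL_fits {W : ℕ} {ns : List ℕ} {t κ : ℕ} (hκ : κ ≤ 1) (ht : 2 ≤ t) (htW : t ≤ W) {c : ℕ}
    (hc : Fits W ns t c) :
    ∀ (g : List ℕ) (carry : ℕ), Fits W ns t carry → (∀ S ∈ g, Fits W ns t S) →
      ∀ S ∈ stepL κ carry g c, Fits W ns (t - 2) S := by
  intro g
  induction g with
  | nil =>
    intro carry hcarry _ S hS
    simp only [stepL, List.mem_singleton] at hS
    subst hS
    exact fits_mono (by omega) (fits_add (by omega) htW hcarry hc)
  | cons a as ih =>
    intro carry hcarry hg S hS
    simp only [stepL, List.mem_cons] at hS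
    have ha : Fits W ns t a := hg a (by simp)
    rcases hS with rfl | hS
    · have h1 : Fits W ns (t - 1) ((1 + κ) * a) := by
        refine fits_smul (q := 1) (s := t - 1) (by norm_num; omega) (by omega) ?_
        have : 1 + (t - 1) = t := by omega
        rwa [this]
      have := fits_add (r := t - 1) (by omega) (by omega) h1 (fits_mono (by omega) hcarry)
      have e : t - 1 - 1 = t - 2 := by omega
      rwa [e] at this
    · exact ih a ha (fun x hx => hg x (by simp [hx])) S hS

lemma LL_fits {W : ℕ} {ns : List ℕ} {κ : ℕ} (hκ : κ ≤ 1) :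
    ∀ (rest ps : List ℕ) (t : ℕ), 2 * rest.length ≤ t → t ≤ W → (∀ S ∈ rest, Fits W ns t S) →
      (∀ S ∈ ps, Fits W ns t S) → ∀ S ∈ LL κ ps rest, Fits W ns (t - 2 * rest.length) S := by
  intro rest
  induction rest with
  | nil => intro ps t _ _ _ hp S hS; simpa [LL] using hp S hS
  | cons c cs ih =>
    intro ps t hk hW hr hp S hS
    simp only [List.length_cons] at hk
    have h1 := stepL_fits (W := W) (ns := ns) (t := t) hκ (by omega) hW (hr c (by simp)) ps 0
      (fits_zero W ns t) hp
    simp only [LL] at hS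
    have h2 := ih (stepL κ 0 ps c) (t - 2) (by omega) (by omega)
      (fun x hx => fits_mono (by omega) (hr x (by simp [hx]))) h1 S hS
    have e : t - 2 - 2 * cs.length = t - 2 * (c :: cs).length := by
      simp only [List.length_cons]; omega
    rwa [e] at h2

lemma hom_snoc (x y c : ℝ) (l : List ℝ) : hom x y (l ++ [c]) = y * hom x y l + c * x ^ l.length := by
  induction l with
  | nil => simp
  | cons a as ih =>
    simp only [List.cons_append, hom_cons, List.length_append, List.length_cons, List.length_nil, ih]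
    ring

lemma hom_stepL {W : ℕ} {ns : List ℕ} {t κ : ℕ} (hκ : κ ≤ 1) (ht : 2 ≤ t) (htW : t ≤ W) (x y : ℝ)
    (env : List (ℝ × ℝ)) {c : ℕ} (hc : Fits W ns t c) :
    ∀ (g : List ℕ) (carry : ℕ), Fits W ns t carry → (∀ S ∈ g, Fits W ns t S) →
      hom x y ((stepL κ carry g c).map (fun S => val W ns S env)) =
        val W ns carry env * y ^ g.length +
          (x + (1 + κ) * y) * hom x y (g.map (fun S => val W ns S env)) +
            val W ns c env * x ^ g.length := by
  intro g
  induction g with
  | nil =>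
    intro carry hcarry _
    simp [stepL, val_add (by omega) htW hcarry hc env]
  | cons a as ih =>
    intro carry hcarry hg
    have ha : Fits W ns t a := hg a (by simp)
    have h1 : Fits W ns (t - 1) ((1 + κ) * a) := by
      refine fits_smul (q := 1) (s := t - 1) (by norm_num; omega) (by omega) ?_
      have : 1 + (t - 1) = t := by omega
      rwa [this]
    have hv1 := val_add (r := t - 1) (by omega) (by omega) h1 (fits_mono (by omega) hcarry) env
    have hv2 : val W ns ((1 + κ) * a) env = ((1 + κ : ℕ) : ℝ) * val W ns a env := by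
      refine val_smul (q := 1) (s := t - 1) (by norm_num; omega) (by omega) ?_ env
      have : 1 + (t - 1) = t := by omega
      rwa [this]
    simp only [stepL, List.map_cons, hom_cons, List.length_map, length_stepL, List.length_cons]
    rw [ih a ha (fun x hx => hg x (by simp [hx])), hv1, hv2]
    push_cast
    ring

lemma hom_LL {W : ℕ} {ns : List ℕ} {κ : ℕ} (hκ : κ ≤ 1) (x y : ℝ) (env : List (ℝ × ℝ)) :
    ∀ (rest ps ps0 : List ℕ) (t : ℕ), 2 * rest.length ≤ t → t ≤ W → ps.length = ps0.length →
      (∀ S ∈ rest, Fits W ns t S) → (∀ S ∈ ps, Fits W ns t S) →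
      hom x y (ps.map (fun S => val W ns S env)) =
        hom x (x + (1 + κ) * y) (ps0.map (fun S => val W ns S env)) →
      hom x y ((LL κ ps rest).map (fun S => val W ns S env)) =
        hom x (x + (1 + κ) * y) ((ps0 ++ rest).map (fun S => val W ns S env)) := by
  intro rest
  induction rest with
  | nil => intro ps ps0 t _ _ _ _ _ h; simpa [LL] using h
  | cons c cs ih =>
    intro ps ps0 t hk hW hlen hr hp h
    simp only [List.length_cons] at hk
    have h1 := stepL_fits (W := W) (ns := ns) (t := t) hκ (by omega) hW (hr c (by simp)) ps 0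
      (fits_zero W ns t) hp
    have h2 := hom_stepL (W := W) (ns := ns) (t := t) hκ (by omega) hW x y env (hr c (by simp)) ps 0
      (fits_zero W ns t) hp
    have e : ps0 ++ c :: cs = (ps0 ++ [c]) ++ cs := by simp
    rw [e]
    simp only [LL]
    refine ih (stepL κ 0 ps c) (ps0 ++ [c]) (t - 2) (by omega) (by omega) (by simp [hlen])
      (fun x hx => fits_mono (by omega) (hr x (by simp [hx]))) h1 ?_
    rw [h2, val_zero, h, List.map_append, List.map_cons, List.map_nil, hom_snoc]
    simp [hlen]

end Vale.Agent.Lib.P154
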