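import Vale.Agent.Lib.P154.SemBits

/-! Real values of digit tensors. -/

namespace Vale.Agent.Lib.P154

open List

/-- Homogeneous polynomial with coefficients `c` in ascending powers of `x`. -/
def hom (x y : ℝ) : List ℝ → ℝ
  | [] => 0
  | c :: cs => c * y ^ cs.length + x * hom x y cs

@[simp] lemma hom_nil (x y : ℝ) : hom x y [] = 0 := rfl
@[simp] lemma hom_cons (x y c : ℝ) (cs : List ℝ) :
    hom x y (c :: cs) = c * y ^ cs.length + x * hom x y cs := rfl

/-- The real value of a digit tensor at homogeneous coordinates `env`. -/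
noncomputable def val (W : ℕ) : List ℕ → ℕ → List (ℝ × ℝ) → ℝ
  | [], T, _ => (T : ℝ)
  | _ :: _, _, [] => 0
  | n :: ns, T, e :: env =>
    hom e.1 e.2 ((slices (W * sz ns) (n + 1) T).map (fun S => val W ns S env))

/-- All digits of `T` are below `2 ^ (W - r)`. -/
def Fits (W : ℕ) : List ℕ → ℕ → ℕ → Prop
  | [], r, T => T < 2 ^ (W - r)
  | n :: ns, r, T => ∃ l : List ℕ, l.length = n + 1 ∧ (∀ S ∈ l, Fits W ns r S) ∧ T = enc (W * sz ns) l

@[simp] lemma sz_nil : sz [] = 1 := rfl
@[simp] lemma sz_cons (n : ℕ) (ns : List ℕ) : sz (n :: ns) = (n + 1) * sz ns := rfl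

lemma fits_lt {W : ℕ} {ns : List ℕ} {r T : ℕ} (h : Fits W ns r T) : T < 2 ^ (W * sz ns) := by
  induction ns generalizing T with
  | nil =>
    have h' : T < 2 ^ (W - r) := h
    simp only [sz_nil, mul_one]
    exact lt_of_lt_of_le h' (Nat.pow_le_pow_right (by norm_num) (Nat.sub_le _ _))
  | cons n ns ih =>
    obtain ⟨l, hl, hS, rfl⟩ := h
    have := enc_lt (b := W * sz ns) (l := l) (fun x hx => ih (hS x hx))
    rw [hl] at this
    have e : W * sz (n :: ns) = W * sz ns * (n + 1) := by simp only [sz_cons]; ring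
    rwa [e]

lemma fits_mono {W : ℕ} {ns : List ℕ} {r r' T : ℕ} (hr : r' ≤ r) (h : Fits W ns r T) :
    Fits W ns r' T := by
  induction ns generalizing T with
  | nil =>
    have h' : T < 2 ^ (W - r) := h
    exact lt_of_lt_of_le h' (Nat.pow_le_pow_right (by norm_num) (by omega))
  | cons n ns ih =>
    obtain ⟨l, hl, hS, rfl⟩ := h
    exact ⟨l, hl, fun S hS' => ih (hS S hS'), rfl⟩

lemma val_cons_enc {W n : ℕ} {ns : List ℕ} {l : List ℕ} (e : ℝ × ℝ) (env : List (ℝ × ℝ))
    (hl : l.length = n + 1) (h : ∀ x ∈ l, x < 2 ^ (W * sz ns)) :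
    val W (n :: ns) (enc (W * sz ns) l) (e :: env) =
      hom e.1 e.2 (l.map (fun S => val W ns S env)) := by
  rw [val, ← hl, slices_enc h]

lemma enc_zip_add (b : ℕ) {la lb : List ℕ} (h : la.length = lb.length) :
    enc b la + enc b lb = enc b (List.zipWith (· + ·) la lb) := by
  induction la generalizing lb with
  | nil => cases lb with
    | nil => simp
    | cons _ _ => simp at h
  | cons a as ih =>
    cases lb with
    | nil => simp at h
    | cons b' bs =>
      simp only [List.zipWith_cons_cons, enc_cons]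
      rw [← ih (by simpa using h)]
      ring

lemma mem_zip_add {la lb : List ℕ} {x : ℕ} (h : x ∈ List.zipWith (· + ·) la lb) :
    ∃ a ∈ la, ∃ b ∈ lb, x = a + b := by
  induction la generalizing lb with
  | nil => simp at h
  | cons a as ih =>
    cases lb with
    | nil => simp at h
    | cons b' bs =>
      simp only [List.zipWith_cons_cons, List.mem_cons] at h
      rcases h with rfl | h
      · exact ⟨a, by simp, b', by simp, rfl⟩
      · obtain ⟨a', ha', b'', hb', rfl⟩ := ih h
        exact ⟨a', by simp [ha'], b'', by simp [hb'], rfl⟩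

lemma fits_add {W : ℕ} {ns : List ℕ} {r a b : ℕ} (hr : 1 ≤ r) (hrW : r ≤ W)
    (ha : Fits W ns r a) (hb : Fits W ns r b) : Fits W ns (r - 1) (a + b) := by
  induction ns generalizing a b with
  | nil =>
    have ha' : a < 2 ^ (W - r) := ha
    have hb' : b < 2 ^ (W - r) := hb
    show a + b < 2 ^ (W - (r - 1))
    have e : W - (r - 1) = (W - r) + 1 := by omega
    rw [e, pow_succ]
    omega
  | cons n ns ih =>
    obtain ⟨la, hla, hSa, rfl⟩ := ha
    obtain ⟨lb, hlb, hSb, rfl⟩ := hb
    refine ⟨List.zipWith (· + ·) la lb, by simp [hla, hlb], ?_, enc_zip_add _ (by omega)⟩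
    intro S hS
    obtain ⟨a', ha', b', hb', rfl⟩ := mem_zip_add hS
    exact ih (hSa a' ha') (hSb b' hb')

lemma hom_map_zip {x y : ℝ} (V : ℕ → ℝ) {la lb : List ℕ} (hlen : la.length = lb.length)
    (hV : ∀ a ∈ la, ∀ b ∈ lb, V (a + b) = V a + V b) :
    hom x y ((List.zipWith (· + ·) la lb).map V) = hom x y (la.map V) + hom x y (lb.map V) := by
  induction la generalizing lb with
  | nil => cases lb with
    | nil => simp
    | cons _ _ => simp at hlen
  | cons a as ih =>
    cases lb with
    | nil => simp at hlen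
    | cons b bs =>
      have hl' : as.length = bs.length := by simpa using hlen
      have hr := ih hl' (fun a' ha' b' hb' => hV a' (by simp [ha']) b' (by simp [hb']))
      simp only [List.zipWith_cons_cons, List.map_cons, hom_cons, List.length_map,
        List.length_zipWith, hr, hV a (by simp) b (by simp)]
      have : min as.length bs.length = bs.length := by omega
      rw [this, hl']
      ring

lemma val_add {W : ℕ} {ns : List ℕ} {r a b : ℕ} (hr : 1 ≤ r) (hrW : r ≤ W)
    (ha : Fits W ns r a) (hb : Fits W ns r b) (env : List (ℝ × ℝ)) :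
    val W ns (a + b) env = val W ns a env + val W ns b env := by
  induction ns generalizing a b env with
  | nil => simp [val]
  | cons n ns ih =>
    cases env with
    | nil => simp [val]
    | cons e env =>
      have hab := fits_add hr hrW ha hb
      obtain ⟨la, hla, hSa, rfl⟩ := ha
      obtain ⟨lb, hlb, hSb, rfl⟩ := hb
      have hlen : la.length = lb.length := by omega
      rw [enc_zip_add _ hlen, val_cons_enc e env (by simp [hla, hlb]) ?_,
        val_cons_enc e env hla (fun x hx => fits_lt (hSa x hx)),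
        val_cons_enc e env hlb (fun x hx => fits_lt (hSb x hx))]
      · exact hom_map_zip _ hlen (fun a' ha' b' hb' => ih (hSa a' ha') (hSb b' hb') env)
      · intro x hx
        obtain ⟨a', ha', b', hb', rfl⟩ := mem_zip_add hx
        exact fits_lt (fits_add hr hrW (hSa a' ha') (hSb b' hb'))

lemma enc_smul (b k : ℕ) (l : List ℕ) : k * enc b l = enc b (l.map (fun x => k * x)) := by
  induction l with
  | nil => simp
  | cons c cs ih =>
    simp only [List.map_cons, enc_cons, ← ih]
    ring

lemma fits_smul {W : ℕ} {ns : List ℕ} {q s k T : ℕ} (hk : k ≤ 2 ^ q) (hW : q + s ≤ W)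
    (h : Fits W ns (q + s) T) : Fits W ns s (k * T) := by
  induction ns generalizing T with
  | nil =>
    have h' : T < 2 ^ (W - (q + s)) := h
    show k * T < 2 ^ (W - s)
    have e : W - s = q + (W - (q + s)) := by omega
    rw [e, pow_add]
    calc k * T ≤ 2 ^ q * T := Nat.mul_le_mul_right _ hk
      _ < 2 ^ q * 2 ^ (W - (q + s)) := Nat.mul_lt_mul_of_pos_left h' (by positivity)
  | cons n ns ih =>
    obtain ⟨l, hl, hS, rfl⟩ := h
    refine ⟨l.map (fun x => k * x), by simp [hl], ?_, enc_smul _ _ _⟩
    intro S hS'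
    obtain ⟨a, ha, rfl⟩ := List.mem_map.mp hS'
    exact ih (hS a ha)

lemma hom_map_smul {x y : ℝ} (V : ℕ → ℝ) (k : ℕ) (l : List ℕ)
    (hV : ∀ a ∈ l, V (k * a) = k * V a) :
    hom x y ((l.map (fun a => k * a)).map V) = k * hom x y (l.map V) := by
  induction l with
  | nil => simp
  | cons a as ih =>
    simp only [List.map_cons, hom_cons, List.length_map, hV a (by simp),
      ih (fun b hb => hV b (by simp [hb]))]
    ring

lemma val_smul {W : ℕ} {ns : List ℕ} {q s k T : ℕ} (hk : k ≤ 2 ^ q) (hW : q + s ≤ W)
    (h : Fits W ns (q + s) T) (env : List (ℝ × ℝ)) :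
    val W ns (k * T) env = k * val W ns T env := by
  induction ns generalizing T env with
  | nil => simp [val]
  | cons n ns ih =>
    cases env with
    | nil => simp [val]
    | cons e env =>
      have hk' := fits_smul hk hW h
      obtain ⟨l, hl, hS, rfl⟩ := h
      rw [enc_smul, val_cons_enc e env (by simp [hl]) ?_,
        val_cons_enc e env hl (fun x hx => fits_lt (hS x hx))]
      · exact hom_map_smul _ k l (fun a ha => ih (hS a ha) env)
      · intro x hx
        obtain ⟨a, ha, rfl⟩ := List.mem_map.mp hx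
        exact fits_lt (fits_smul hk hW (hS a ha))

lemma fits_zero (W : ℕ) (ns : List ℕ) (r : ℕ) : Fits W ns r 0 := by
  induction ns with
  | nil => exact Nat.pos_of_ne_zero (by positivity)
  | cons n ns ih =>
    refine ⟨List.replicate (n + 1) 0, by simp, ?_, ?_⟩
    · intro S hS
      rw [List.eq_of_mem_replicate hS]; exact ih
    · have : ∀ k, enc (W * sz ns) (List.replicate k 0) = 0 := by
        intro k
        induction k with
        | zero => simp
        | succ k ihk => simp [List.replicate_succ, ihk]
      rw [this]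

lemma val_zero (W : ℕ) (ns : List ℕ) (env : List (ℝ × ℝ)) : val W ns 0 env = 0 := by
  have key : val W ns (0 * 0) env = (0 : ℕ) * val W ns 0 env :=
    val_smul (q := 0) (s := 0) (k := 0) (by simp) (by omega) (fits_zero W ns 0) env
  simpa using key

/-! ### Permissions to multiply -/

lemma two_mul_fits {W : ℕ} {ns : List ℕ} {s T : ℕ} (hW : s + 1 ≤ W) (h : Fits W ns (s + 1) T) :
    Fits W ns s (2 * T) := by
  have := fits_smul (q := 1) (s := s) (k := 2) (by norm_num) (by omega)
    (by rwa [add_comm] : Fits W ns (1 + s) T)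
  exact this

lemma val_two_mul {W : ℕ} {ns : List ℕ} {s T : ℕ} (hW : s + 1 ≤ W) (h : Fits W ns (s + 1) T)
    (env : List (ℝ × ℝ)) : val W ns (2 * T) env = 2 * val W ns T env := by
  have := val_smul (q := 1) (s := s) (k := 2) (by norm_num) (by omega)
    (by rwa [add_comm] : Fits W ns (1 + s) T) env
  simpa using this

end Vale.Agent.Lib.P154
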