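import Vale.Agent.Lib.P154.Chain
import Vale.Agent.Lib.P154.Defs

/-! From the merge inequalities to the broadcast model on the tree. -/

namespace Vale.Agent.Lib.P154

open Filter Topology

section channel

variable {lam : ℝ}

lemma potts_nonneg (h0 : 0 ≤ lam) (h1 : lam ≤ 1) (i j : Fin 3) : 0 ≤ potts 3 lam i j := by
  simp only [potts]
  have : 0 ≤ (1 - lam) / ((3 : ℕ) : ℝ) := by
    apply div_nonneg <;> [linarith; positivity]
  split_ifs <;> nlinarith

lemma potts_sum (lam : ℝ) (i : Fin 3) : ∑ j, potts 3 lam i j = 1 := by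
  fin_cases i <;> simp [potts, Fin.sum_univ_three] <;> ring

lemma potts_perm (σ : Equiv.Perm (Fin 3)) (lam : ℝ) (i j : Fin 3) :
    potts 3 lam (σ i) (σ j) = potts 3 lam i j := by
  simp only [potts, σ.injective.eq_iff]

end channel

section law

variable {d : ℕ} {lam : ℝ}

lemma leafLaw_nonneg (h0 : 0 ≤ lam) (h1 : lam ≤ 1) : ∀ (n : ℕ) (i : Fin 3)
    (ξ : (Fin n → Fin d) → Fin 3), 0 ≤ leafLaw 3 d lam n i ξ := by
  intro n
  induction n with
  | zero =>
    intro i ξ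
    simp only [leafLaw]
    split_ifs <;> norm_num
  | succ n ih =>
    intro i ξ
    simp only [leafLaw]
    exact Finset.prod_nonneg (fun c _ => Finset.sum_nonneg
      (fun k _ => mul_nonneg (potts_nonneg h0 h1 i k) (ih k _)))

lemma leafLaw_perm (σ : Equiv.Perm (Fin 3)) : ∀ (n : ℕ) (i : Fin 3)
    (ξ : (Fin n → Fin d) → Fin 3), leafLaw 3 d lam n (σ i) (σ ∘ ξ) = leafLaw 3 d lam n i ξ := by
  intro n
  induction n with
  | zero =>
    intro i ξ
    simp only [leafLaw, Function.comp_apply, σ.injective.eq_iff]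
  | succ n ih =>
    intro i ξ
    simp only [leafLaw]
    apply Finset.prod_congr rfl
    intro c _
    rw [← Equiv.sum_comp σ]
    apply Finset.sum_congr rfl
    intro k _
    rw [potts_perm]
    congr 1
    exact ih k (fun w => ξ (Fin.cons c w))

/-- The configurations at depth `n + 1` are tuples of configurations at depth `n`. -/
def splitEquiv (d n : ℕ) : ((Fin (n + 1) → Fin d) → Fin 3) ≃ (Fin d → (Fin n → Fin d) → Fin 3) where
  toFun ξ := fun c w => ξ (Fin.cons c w)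
  invFun f := fun v => f (v 0) (Fin.tail v)
  left_inv ξ := by
    funext v
    simp [Fin.cons_self_tail]
  right_inv f := by
    funext c w
    simp

lemma leafLaw_mass : ∀ (n : ℕ) (i : Fin 3),
    ∑ ξ : (Fin n → Fin d) → Fin 3, leafLaw 3 d lam n i ξ = 1 := by
  intro n
  induction n with
  | zero =>
    intro i
    simp only [leafLaw]
    rw [← Equiv.sum_comp (Equiv.funUnique (Fin 0 → Fin d) (Fin 3)).symm]
    have e : ∀ v : Fin 3, ((Equiv.funUnique (Fin 0 → Fin d) (Fin 3)).symm v) Fin.elim0 = v := by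
      intro v
      rfl
    simp only [e]
    simp
  | succ n ih =>
    intro i
    rw [← Equiv.sum_comp (splitEquiv d n).symm]
    have e : ∀ f : Fin d → (Fin n → Fin d) → Fin 3,
        leafLaw 3 d lam (n + 1) i ((splitEquiv d n).symm f) =
          ∏ c, ∑ k, potts 3 lam i k * leafLaw 3 d lam n k (f c) := by
      intro f
      simp only [leafLaw]
      apply Finset.prod_congr rfl
      intro c _
      apply Finset.sum_congr rfl
      intro k _
      congr 2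
    simp only [e]
    rw [← Fintype.prod_sum (fun (_ : Fin d) (η : (Fin n → Fin d) → Fin 3) =>
      ∑ k, potts 3 lam i k * leafLaw 3 d lam n k η)]
    have e2 : ∑ η : (Fin n → Fin d) → Fin 3, ∑ k, potts 3 lam i k * leafLaw 3 d lam n k η = 1 := by
      rw [Finset.sum_comm]
      simp only [← Finset.mul_sum, ih, mul_one, potts_sum]
    simp only [e2]
    simp

/-- The normalized weights of a configuration: one third of the law given the root spin. -/
noncomputable def xn (d : ℕ) (lam : ℝ) (n : ℕ) (ξ : (Fin n → Fin d) → Fin 3) : W3 :=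
  fun i => (1 / 3) * leafLaw 3 d lam n i ξ

/-- The same weights seen from the parent of the root. -/
noncomputable def yn (d : ℕ) (lam : ℝ) (n : ℕ) (ξ : (Fin n → Fin d) → Fin 3) : W3 :=
  fun i => (1 / 3) * ∑ j, potts 3 lam i j * leafLaw 3 d lam n j ξ

lemma xn_nn (h0 : 0 ≤ lam) (h1 : lam ≤ 1) (n : ℕ) (ξ : (Fin n → Fin d) → Fin 3) :
    NN (xn d lam n ξ) := fun i =>
  mul_nonneg (by norm_num) (leafLaw_nonneg h0 h1 n i ξ)

lemma yn_nn (h0 : 0 ≤ lam) (h1 : lam ≤ 1) (n : ℕ) (ξ : (Fin n → Fin d) → Fin 3) :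
    NN (yn d lam n ξ) := fun i =>
  mul_nonneg (by norm_num) (Finset.sum_nonneg (fun j _ =>
    mul_nonneg (potts_nonneg h0 h1 i j) (leafLaw_nonneg h0 h1 n j ξ)))

lemma yn_eq (n : ℕ) (ξ : (Fin n → Fin d) → Fin 3) (i : Fin 3) :
    yn d lam n ξ i = lam * xn d lam n ξ i + (1 - lam) / 3 * M3 (xn d lam n ξ) := by
  simp only [yn, xn, M3, potts, Fin.sum_univ_three]
  fin_cases i <;> simp <;> ring

lemma M3_yn (n : ℕ) (ξ : (Fin n → Fin d) → Fin 3) : M3 (yn d lam n ξ) = M3 (xn d lam n ξ) := by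
  have e : M3 (yn d lam n ξ) = yn d lam n ξ 0 + yn d lam n ξ 1 + yn d lam n ξ 2 := rfl
  rw [e, yn_eq, yn_eq, yn_eq]
  have e2 : M3 (xn d lam n ξ) = xn d lam n ξ 0 + xn d lam n ξ 1 + xn d lam n ξ 2 := rfl
  rw [e2]
  ring

/-- Scaling of a triple. -/
noncomputable def scale (s : ℝ) (c : Tp) : Tp := ⟨s * c.x, s * c.y, s * c.z⟩

lemma cen_yn (n : ℕ) (ξ : (Fin n → Fin d) → Fin 3) (h : 0 < M3 (xn d lam n ξ)) :
    cen (yn d lam n ξ) = scale lam (cen (xn d lam n ξ)) := by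
  have hne := ne_of_gt h
  apply Tp.ext
  · simp only [cen, scale, M3_yn, yn_eq]
    field_simp
    ring
  · simp only [cen, scale, M3_yn, yn_eq]
    field_simp
    ring
  · simp only [cen, scale, M3_yn, yn_eq]
    field_simp
    ring

lemma InSx.scale {c : Tp} (hc : InSx 1 c) {s : ℝ} (hs : 0 ≤ s) : InSx s (scale s c) := by
  refine ⟨?_, ?_, ?_, ?_⟩
  · have := hc.zs
    simp only [Tp.ZS, Vale.Agent.Lib.P154.scale] at *
    nlinarith
  · have := mul_le_mul_of_nonneg_left hc.hx hs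
    simp only [Vale.Agent.Lib.P154.scale]
    linarith
  · have := mul_le_mul_of_nonneg_left hc.hy hs
    simp only [Vale.Agent.Lib.P154.scale]
    linarith
  · have := mul_le_mul_of_nonneg_left hc.hz hs
    simp only [Vale.Agent.Lib.P154.scale]
    linarith

lemma p2T_scale (s : ℝ) (c : Tp) : p2T (scale s c) = s ^ 2 * p2T c := by
  simp only [p2T, scale]
  ring

/-- The colour action on configurations. -/
def colourAct (n : ℕ) (σ : Equiv.Perm (Fin 3)) :
    ((Fin n → Fin d) → Fin 3) ≃ ((Fin n → Fin d) → Fin 3) :=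
  Equiv.arrowCongr (Equiv.refl _) σ

lemma yn_comp (n : ℕ) (σ : Equiv.Perm (Fin 3)) (ξ : (Fin n → Fin d) → Fin 3) :
    yn d lam n ξ ∘ σ = yn d lam n (colourAct n σ⁻¹ ξ) := by
  funext i
  simp only [Function.comp_apply, yn]
  congr 1
  rw [← Equiv.sum_comp σ]
  apply Finset.sum_congr rfl
  intro j _
  rw [potts_perm]
  congr 1
  have := leafLaw_perm (d := d) (lam := lam) σ n j (colourAct n σ⁻¹ ξ)
  rw [← this]
  congr 1
  funext w
  simp [colourAct]

lemma sum_xn_mass (n : ℕ) : ∑ ξ : (Fin n → Fin d) → Fin 3, M3 (xn d lam n ξ) = 1 := by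
  simp only [M3, xn]
  rw [Finset.sum_add_distrib, Finset.sum_add_distrib, ← Finset.mul_sum, ← Finset.mul_sum,
    ← Finset.mul_sum, leafLaw_mass, leafLaw_mass, leafLaw_mass]
  norm_num

lemma yn_fam (h0 : 0 ≤ lam) (h1 : lam ≤ 1) (n : ℕ) : Fam (yn d lam n) where
  nn := yn_nn h0 h1 n
  sym := by
    intro σ F
    simp only [yn_comp]
    exact Equiv.sum_comp (colourAct n σ⁻¹) (fun ξ => F (yn d lam n ξ))
  mass := by
    simp only [M3_yn]
    exact sum_xn_mass n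

lemma xn_succ (k : ℕ) (n : ℕ) (ξ : (Fin (n + 1) → Fin (k + 2)) → Fin 3) :
    xn (k + 2) lam (n + 1) ξ = xk (yn (k + 2) lam n) (k + 1) (splitEquiv (k + 2) n ξ) := by
  funext i
  simp only [xn, xk, yn, leafLaw, splitEquiv, Equiv.coe_fn_mk]
  rw [Finset.prod_mul_distrib, Finset.prod_const, Finset.card_univ, Fintype.card_fin]
  have e : (3 : ℝ) ^ (k + 1) * (1 / 3) ^ (k + 2) = 1 / 3 := by
    rw [one_div, inv_pow, pow_succ 3 (k + 1), mul_inv]
    have : (3 : ℝ) ^ (k + 1) ≠ 0 := by positivity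
    field_simp
  rw [← mul_assoc, e]

end law

section recursion

variable {k : ℕ} {lam : ℝ}

/-- The potential on depth `n`. -/
noncomputable def PhiN (k : ℕ) (lam : ℝ) (ψ : Tp → ℝ) (n : ℕ) : ℝ :=
  ∑ ξ, GG ψ (xn (k + 2) lam n ξ)

lemma PhiN_succ (ψ : Tp → ℝ) (n : ℕ) :
    PhiN k lam ψ (n + 1) = VV (yn (k + 2) lam n) ψ (k + 1) := by
  simp only [PhiN, VV]
  simp only [xn_succ]
  exact Equiv.sum_comp (splitEquiv (k + 2) n) (fun ξ => GG ψ (xk (yn (k + 2) lam n) (k + 1) ξ))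

lemma GG_yn_eq {ψ : Tp → ℝ} (n : ℕ) (ξ : (Fin n → Fin (k + 2)) → Fin 3)
    (h : 0 < M3 (xn (k + 2) lam n ξ)) :
    GG ψ (yn (k + 2) lam n ξ) = M3 (xn (k + 2) lam n ξ) * ψ (scale lam (cen (xn (k + 2) lam n ξ))) := by
  simp only [GG]
  rw [cen_yn n ξ h, M3_yn]

lemma GG_zero {ψ : Tp → ℝ} {x : W3} (h : M3 x = 0) : GG ψ x = 0 := by
  simp [GG, h]

/-- The one level recursion of the potential. -/
theorem Phi_rec {pot : ℕ → Tp → ℝ} {lb t : ℝ} (hlb0 : 0 ≤ lb) (hlb : lb < 1)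
    (h0 : Merge (pot 1) (pot 0) (pot 0) lb lb t)
    (hj : ∀ j, 1 ≤ j → j ≤ k → Merge (pot (j + 1)) (pot j) (pot 0) 1 lb 0)
    (hdom : ∀ c, InSx 1 c → ∀ s, 0 ≤ s → s ≤ lb → pot 0 (scale s c) ≤ s ^ 2 * pot (k + 1) c)
    (hl0 : 0 ≤ lam) (hl : lam ≤ lb) (n : ℕ) :
    PhiN k lam (pot (k + 1)) (n + 1) ≤
      ((k : ℝ) + 2) * (lam ^ 2 * PhiN k lam (pot (k + 1)) n) -
        t * (lam ^ 2 * PhiN k lam p2T n) ^ 2 := by
  have hl1 : lam ≤ 1 := by linarith
  have hfam := yn_fam (d := k + 2) hl0 hl1 n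
  have hyd : ∀ ξ, 0 < M3 (yn (k + 2) lam n ξ) → InSx lb (cen (yn (k + 2) lam n ξ)) := by
    intro ξ h
    rw [M3_yn] at h
    rw [cen_yn n ξ h]
    exact (InSx.scale (cen_inSx (xn_nn hl0 hl1 n ξ) h) hl0).mono hl
  have hchain := chain_total hfam hlb0 hlb hyd h0 hj k le_rfl
  rw [← PhiN_succ] at hchain
  have hE : ∑ ω, GG (pot 0) (yn (k + 2) lam n ω) ≤ lam ^ 2 * PhiN k lam (pot (k + 1)) n := by
    simp only [PhiN]
    rw [Finset.mul_sum]
    apply Finset.sum_le_sum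
    intro ξ _
    rcases (M3_nonneg (xn_nn (d := k + 2) hl0 hl1 n ξ)).eq_or_lt with h | h
    · rw [GG_zero (by rw [M3_yn]; exact h.symm), GG_zero h.symm]
      simp
    · rw [GG_yn_eq n ξ h]
      have := hdom _ (cen_inSx (xn_nn hl0 hl1 n ξ) h) lam hl0 hl
      simp only [GG]
      nlinarith [mul_le_mul_of_nonneg_left this h.le]
  have hP : ∑ ω, GG p2T (yn (k + 2) lam n ω) = lam ^ 2 * PhiN k lam p2T n := by
    simp only [PhiN]
    rw [Finset.mul_sum]
    apply Finset.sum_congr rfl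
    intro ξ _
    rcases (M3_nonneg (xn_nn (d := k + 2) hl0 hl1 n ξ)).eq_or_lt with h | h
    · rw [GG_zero (by rw [M3_yn]; exact h.symm), GG_zero h.symm]
      simp
    · rw [GG_yn_eq n ξ h, p2T_scale]
      simp only [GG]
      ring
  rw [hP] at hchain
  have hk : (0 : ℝ) ≤ (k : ℝ) + 2 := by positivity
  have := mul_le_mul_of_nonneg_left hE hk
  linarith

lemma p2T_nonneg (c : Tp) : 0 ≤ p2T c := by
  simp only [p2T]; positivity

lemma PhiN_p2_nonneg (hl0 : 0 ≤ lam) (hl1 : lam ≤ 1) (n : ℕ) : 0 ≤ PhiN k lam p2T n := by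
  apply Finset.sum_nonneg
  intro ξ _
  exact mul_nonneg (M3_nonneg (xn_nn hl0 hl1 n ξ)) (p2T_nonneg _)

lemma PhiN_le {ψ : Tp → ℝ} (hge : ∀ c, p2T c ≤ ψ c) (hl0 : 0 ≤ lam) (hl1 : lam ≤ 1) (n : ℕ) :
    PhiN k lam p2T n ≤ PhiN k lam ψ n := by
  apply Finset.sum_le_sum
  intro ξ _
  exact mul_le_mul_of_nonneg_left (hge _) (M3_nonneg (xn_nn hl0 hl1 n ξ))

/-- Convergence of the second moment to zero. -/
theorem X_tendsto {ψ : Tp → ℝ} {t : ℝ} (ht : 0 < t) (hge : ∀ c, p2T c ≤ ψ c) (hl0 : 0 ≤ lam)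
    (hl1 : lam ≤ 1) (hd : ((k : ℝ) + 2) * lam ^ 2 ≤ 1)
    (hrec : ∀ n, PhiN k lam ψ (n + 1) ≤ ((k : ℝ) + 2) * (lam ^ 2 * PhiN k lam ψ n) -
        t * (lam ^ 2 * PhiN k lam p2T n) ^ 2) :
    Tendsto (PhiN k lam p2T) atTop (𝓝 0) := by
  have hX0 := PhiN_p2_nonneg (k := k) hl0 hl1
  have hXle := PhiN_le (k := k) hge hl0 hl1
  rcases hl0.eq_or_lt with h0 | hpos
  · -- no signal at all
    have hzero : ∀ n, PhiN k lam p2T (n + 1) = 0 := by
      intro n
      have h1 := hrec n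
      rw [← h0] at h1
      have h2 := hXle (n + 1)
      have h3 := hX0 (n + 1)
      rw [← h0] at h2 h3 ⊢
      apply le_antisymm _ h3
      norm_num at h1
      linarith
    rw [← tendsto_add_atTop_iff_nat 1]
    simp only [hzero]
    exact tendsto_const_nhds
  · have hPhi0 : ∀ n, 0 ≤ PhiN k lam ψ n := fun n => (hX0 n).trans (hXle n)
    have hdec : ∀ n, t * (lam ^ 2 * PhiN k lam p2T n) ^ 2 ≤
        PhiN k lam ψ n - PhiN k lam ψ (n + 1) := by
      intro n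
      have h1 := hrec n
      have h2 : ((k : ℝ) + 2) * (lam ^ 2 * PhiN k lam ψ n) ≤ PhiN k lam ψ n := by
        have := mul_le_mul_of_nonneg_right hd (hPhi0 n)
        nlinarith [this]
      linarith
    have hsum : ∀ m, ∑ i ∈ Finset.range m, t * (lam ^ 2 * PhiN k lam p2T i) ^ 2 ≤ PhiN k lam ψ 0 := by
      intro m
      have h1 : ∑ i ∈ Finset.range m, t * (lam ^ 2 * PhiN k lam p2T i) ^ 2 ≤
          PhiN k lam ψ 0 - PhiN k lam ψ m := by
        induction m with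
        | zero => simp
        | succ m ih =>
          rw [Finset.sum_range_succ]
          linarith [hdec m]
      linarith [hPhi0 m]
    have hs : Summable (fun i => t * (lam ^ 2 * PhiN k lam p2T i) ^ 2) :=
      summable_of_sum_range_le (fun n => by positivity) hsum
    have hlim := hs.tendsto_atTop_zero
    -- remove the constants
    have hc : 0 < t * (lam ^ 2) ^ 2 := by positivity
    have h2 : Tendsto (fun i => (t * (lam ^ 2) ^ 2)⁻¹ * (t * (lam ^ 2 * PhiN k lam p2T i) ^ 2)) atTop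
        (𝓝 ((t * (lam ^ 2) ^ 2)⁻¹ * 0)) := hlim.const_mul _
    rw [mul_zero] at h2
    have h3 : (fun i => (t * (lam ^ 2) ^ 2)⁻¹ * (t * (lam ^ 2 * PhiN k lam p2T i) ^ 2)) =
        fun i => (PhiN k lam p2T i) ^ 2 := by
      funext i
      have : t * (lam ^ 2 * PhiN k lam p2T i) ^ 2 = (t * (lam ^ 2) ^ 2) * (PhiN k lam p2T i) ^ 2 := by ring
      rw [this, ← mul_assoc, inv_mul_cancel₀ (ne_of_gt hc), one_mul]
    rw [h3] at h2
    have h4 := h2.sqrt
    simp only [Real.sqrt_zero] at h4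
    have h5 : (fun i => Real.sqrt (PhiN k lam p2T i ^ 2)) = PhiN k lam p2T := by
      funext i
      exact Real.sqrt_sq (hX0 i)
    rwa [h5] at h4

end recursion

section distance

variable {d : ℕ} {lam : ℝ}

lemma leafMarginal_eq (n : ℕ) (ξ : (Fin n → Fin d) → Fin 3) :
    leafMarginal 3 d lam n ξ = M3 (xn d lam n ξ) := by
  simp only [leafMarginal, M3, xn, Fin.sum_univ_three]
  norm_num

lemma reconDist_eq (n : ℕ) : reconDist 3 d lam n = ∑ ξ, M3 (xn d lam n ξ) *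
    ((1 / 2) * (|(cen (xn d lam n ξ)).x| + |(cen (xn d lam n ξ)).y| + |(cen (xn d lam n ξ)).z|)) := by
  simp only [reconDist, leafMarginal_eq, Fin.sum_univ_three, rootPosterior, cen]
  apply Finset.sum_congr rfl
  intro ξ _
  simp only [xn]
  norm_num

lemma abs_bound (c : Tp) :
    ((1 / 2) * (|c.x| + |c.y| + |c.z|)) ^ 2 ≤ 3 / 4 * p2T c := by
  simp only [p2T]
  have hx := sq_abs c.x
  have hy := sq_abs c.y
  have hz := sq_abs c.z
  nlinarith [sq_nonneg (|c.x| - |c.y|), sq_nonneg (|c.y| - |c.z|), sq_nonneg (|c.z| - |c.x|)]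

/-- The distance is bounded by the second moment. -/
lemma reconDist_sq_le (k : ℕ) (hl0 : 0 ≤ lam) (hl1 : lam ≤ 1) (n : ℕ) :
    reconDist 3 (k + 2) lam n ^ 2 ≤ 3 / 4 * PhiN k lam p2T n := by
  rw [reconDist_eq]
  set M : ((Fin n → Fin (k + 2)) → Fin 3) → ℝ := fun ξ => M3 (xn (k + 2) lam n ξ) with hM
  set h : ((Fin n → Fin (k + 2)) → Fin 3) → ℝ := fun ξ => (1 / 2) *
      (|(cen (xn (k + 2) lam n ξ)).x| + |(cen (xn (k + 2) lam n ξ)).y| + |(cen (xn (k + 2) lam n ξ)).z|) with hh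
  have hM0 : ∀ ξ, 0 ≤ M ξ := fun ξ => M3_nonneg (xn_nn hl0 hl1 n ξ)
  have hCS := Finset.sum_mul_sq_le_sq_mul_sq Finset.univ (fun ξ => Real.sqrt (M ξ))
    (fun ξ => Real.sqrt (M ξ) * h ξ)
  have e1 : ∀ ξ, Real.sqrt (M ξ) * (Real.sqrt (M ξ) * h ξ) = M ξ * h ξ := by
    intro ξ
    rw [← mul_assoc, Real.mul_self_sqrt (hM0 ξ)]
  have e2 : ∀ ξ, Real.sqrt (M ξ) ^ 2 = M ξ := fun ξ => Real.sq_sqrt (hM0 ξ)
  have e3 : ∀ ξ, (Real.sqrt (M ξ) * h ξ) ^ 2 = M ξ * h ξ ^ 2 := by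
    intro ξ
    rw [mul_pow, e2]
  simp only [e1, e2, e3] at hCS
  have hmass : ∑ ξ, M ξ = 1 := sum_xn_mass n
  rw [hmass, one_mul] at hCS
  refine hCS.trans ?_
  simp only [PhiN, GG]
  rw [Finset.mul_sum]
  apply Finset.sum_le_sum
  intro ξ _
  have := mul_le_mul_of_nonneg_left (abs_bound (cen (xn (k + 2) lam n ξ))) (hM0 ξ)
  calc M ξ * h ξ ^ 2 ≤ M ξ * (3 / 4 * p2T (cen (xn (k + 2) lam n ξ))) := this
    _ = 3 / 4 * (M3 (xn (k + 2) lam n ξ) * p2T (cen (xn (k + 2) lam n ξ))) := by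
      simp only [hM]
      ring

lemma reconDist_nonneg (k : ℕ) (hl0 : 0 ≤ lam) (hl1 : lam ≤ 1) (n : ℕ) :
    0 ≤ reconDist 3 (k + 2) lam n := by
  rw [reconDist_eq]
  apply Finset.sum_nonneg
  intro ξ _
  exact mul_nonneg (M3_nonneg (xn_nn hl0 hl1 n ξ)) (by positivity)

/-- Nonreconstruction from a chain of merge inequalities. -/
theorem tendsto_of_chain (k : ℕ) {pot : ℕ → Tp → ℝ} {lb t : ℝ} (hlb0 : 0 ≤ lb) (hlb : lb < 1) (ht : 0 < t)
    (h0 : Merge (pot 1) (pot 0) (pot 0) lb lb t)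
    (hj : ∀ j, 1 ≤ j → j ≤ k → Merge (pot (j + 1)) (pot j) (pot 0) 1 lb 0)
    (hdom : ∀ c, InSx 1 c → ∀ s, 0 ≤ s → s ≤ lb → pot 0 (scale s c) ≤ s ^ 2 * pot (k + 1) c)
    (hge : ∀ c, p2T c ≤ pot (k + 1) c)
    (hl0 : 0 ≤ lam) (hl : lam ≤ lb) (hd : ((k : ℝ) + 2) * lam ^ 2 ≤ 1) :
    Tendsto (reconDist 3 (k + 2) lam) atTop (𝓝 0) := by
  have hl1 : lam ≤ 1 := by linarith
  have hX := X_tendsto (k := k) ht hge hl0 hl1 hd (Phi_rec hlb0 hlb h0 hj hdom hl0 hl)
  have h1 : Tendsto (fun n => Real.sqrt (3 / 4 * PhiN k lam p2T n)) atTop (𝓝 0) := by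
    have := (hX.const_mul (3 / 4)).sqrt
    simpa using this
  refine squeeze_zero (reconDist_nonneg k hl0 hl1) ?_ h1
  intro n
  exact Real.le_sqrt_of_sq_le (reconDist_sq_le k hl0 hl1 n)

end distance

end Vale.Agent.Lib.P154
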